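import Crest.Agent.OT.Defs

/-! # Task BASIC: API for `unif K` (normalisation, a.e., translations). -/

set_option autoImplicit false
open MeasureTheory
open scoped ENNReal NNReal RealInnerProductSpace
open Crest.AnalysisR.OT

namespace Crest.Agent.OT
variable {d : ℕ} {K : Set (E d)} {x₀ : E d} {r₀ r : ℝ}

theorem Body.measurableSet (hK : Body K x₀ r₀ r) : MeasurableSet K := hK.compact.measurableSet

theorem Body.volume_pos (hK : Body K x₀ r₀ r) : 0 < volume K :=
  lt_of_lt_of_le (Metric.measure_closedBall_pos volume x₀ hK.r₀_pos) (measure_mono hK.ball_sub)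

theorem Body.volume_lt_top (hK : Body K x₀ r₀ r) : volume K < ⊤ := hK.compact.measure_lt_top

theorem Body.unif_apply (hK : Body K x₀ r₀ r) (S : Set (E d)) :
    unif K S = (volume K)⁻¹ * volume (S ∩ K) := by
  show ((volume K)⁻¹ • (volume : Measure (E d)).restrict K) S = _
  rw [Measure.smul_apply, Measure.restrict_apply' hK.measurableSet, smul_eq_mul]

theorem Body.isProbabilityMeasure (hK : Body K x₀ r₀ r) : IsProbabilityMeasure (unif K) := by
  refine ⟨?_⟩
  rw [hK.unif_apply, Set.univ_inter]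
  exact ENNReal.inv_mul_cancel hK.volume_pos.ne' hK.volume_lt_top.ne

theorem Body.x₀_mem (hK : Body K x₀ r₀ r) : x₀ ∈ K :=
  hK.ball_sub (Metric.mem_closedBall_self hK.r₀_pos.le)

theorem Body.r_nonneg (hK : Body K x₀ r₀ r) : 0 ≤ r :=
  (norm_nonneg x₀).trans (hK.sub_ball x₀ hK.x₀_mem)

theorem Body.inv_volume_ne_zero (hK : Body K x₀ r₀ r) : (volume K)⁻¹ ≠ 0 :=
  ENNReal.inv_ne_zero.2 hK.volume_lt_top.ne

theorem Body.ae_iff (hK : Body K x₀ r₀ r) (P : E d → Prop) :
    (∀ᵐ x ∂(unif K), P x) ↔ ∀ᵐ x ∂(volume : Measure (E d)), x ∈ K → P x := by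
  show (∀ᵐ x ∂((volume K)⁻¹ • (volume : Measure (E d)).restrict K), P x) ↔ _
  rw [Measure.ae_ennreal_smul_measure_iff hK.inv_volume_ne_zero, ae_restrict_iff' hK.measurableSet]

theorem Body.ae_mem (hK : Body K x₀ r₀ r) : ∀ᵐ x ∂(unif K), x ∈ K :=
  (hK.ae_iff _).2 (Filter.Eventually.of_forall fun _ h => h)

theorem Body.integral_eq (hK : Body K x₀ r₀ r) {F : Type*} [NormedAddCommGroup F] [NormedSpace ℝ F]
    (f : E d → F) :
    ∫ x, f x ∂(unif K) = (volume K).toReal⁻¹ • ∫ x in K, f x := by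
  show ∫ x, f x ∂((volume K)⁻¹ • (volume : Measure (E d)).restrict K) = _
  rw [integral_smul_measure, ENNReal.toReal_inv]

theorem Body.setIntegral_eq (hK : Body K x₀ r₀ r) {F : Type*} [NormedAddCommGroup F]
    [NormedSpace ℝ F] (f : E d → F) (S : Set (E d)) (hS : MeasurableSet S) (hSK : S ⊆ K) :
    ∫ x in S, f x ∂(unif K) = (volume K).toReal⁻¹ • ∫ x in S, f x := by
  show ∫ x in S, f x ∂((volume K)⁻¹ • (volume : Measure (E d)).restrict K) = _
  rw [Measure.restrict_smul, Measure.restrict_restrict hS, Set.inter_eq_self_of_subset_left hSK,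
    integral_smul_measure, ENNReal.toReal_inv]

/-- bounded measurable functions are integrable. -/
theorem Body.integrable_of_bdd (hK : Body K x₀ r₀ r) {F : Type*} [NormedAddCommGroup F]
    (f : E d → F) (hf : AEStronglyMeasurable f (unif K)) (B : ℝ)
    (hB : ∀ᵐ x ∂(unif K), ‖f x‖ ≤ B) : Integrable f (unif K) := by
  have := hK.isProbabilityMeasure
  exact Integrable.of_bound hf B hB

/-- a.e. statements can be translated. -/
theorem Body.ae_shift (hK : Body K x₀ r₀ r) (v : E d) (P : E d → Prop)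
    (h : ∀ᵐ x ∂(unif K), P x) : ∀ᵐ x ∂(unif K), x + v ∈ K → P (x + v) := by
  rw [hK.ae_iff] at h ⊢
  have h2 : ∀ᵐ x ∂(volume : Measure (E d)), x + v ∈ K → P (x + v) :=
    (measurePreserving_add_right (volume : Measure (E d)) v).quasiMeasurePreserving.ae h
  exact h2.mono fun x hx _ => hx

/-- translation invariance: `f` vanishes off `Kv K v`. -/
theorem Body.integral_shift (hK : Body K x₀ r₀ r) (v : E d) (f : E d → ℝ)
    (hf : ∀ x, x ∉ Kv K v → f x = 0) :
    ∫ x, f (x - v) ∂(unif K) = ∫ x, f x ∂(unif K) := by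
  rw [hK.integral_eq, hK.integral_eq]
  congr 1
  rw [setIntegral_eq_integral_of_forall_compl_eq_zero, setIntegral_eq_integral_of_forall_compl_eq_zero,
    integral_sub_right_eq_self]
  · intro x hx
    exact hf x fun h => hx h.1
  · intro x hx
    refine hf (x - v) fun h => hx ?_
    have := h.2
    rwa [sub_add_cancel] at this

theorem measurableSet_Kv (hK : Body K x₀ r₀ r) (v : E d) : MeasurableSet (Kv K v) := by
  have : Kv K v = K ∩ (fun x => x + v) ⁻¹' K := rfl
  rw [this]
  exact hK.measurableSet.inter ((measurable_add_const v) hK.measurableSet)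

theorem Body.homothety_subset_Kv (hK : Body K x₀ r₀ r) (v : E d) (hv : ‖v‖ ≤ r₀) :
    (AffineMap.homothety x₀ (1 - ‖v‖ / r₀)) '' K ⊆ Kv K v := by
  rintro _ ⟨x, hx, rfl⟩
  set t : ℝ := ‖v‖ / r₀ with ht
  have ht0 : 0 ≤ t := div_nonneg (norm_nonneg v) hK.r₀_pos.le
  have ht1 : t ≤ 1 := (div_le_one hK.r₀_pos).2 hv
  have e : (AffineMap.homothety x₀ (1 - t)) x = (1 - t) • x + t • x₀ := by
    rw [AffineMap.homothety_apply, vsub_eq_sub, vadd_eq_add, smul_sub, sub_smul, sub_smul, one_smul,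
      one_smul]
    abel
  rw [e]
  refine ⟨hK.convex hx hK.x₀_mem (by linarith) ht0 (by ring), ?_⟩
  rcases eq_or_lt_of_le ht0 with h0 | h0
  · have hv0 : v = 0 := by
      have : ‖v‖ = 0 := by
        have h1 : ‖v‖ / r₀ = 0 := by rw [← ht, ← h0]
        rcases div_eq_zero_iff.1 h1 with h2 | h2
        · exact h2
        · exact absurd h2 hK.r₀_pos.ne'
      exact norm_eq_zero.1 this
    rw [hv0, add_zero]
    exact hK.convex hx hK.x₀_mem (by linarith) ht0 (by ring)
  · have hz : x₀ + t⁻¹ • v ∈ K := by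
      apply hK.ball_sub
      rw [Metric.mem_closedBall, dist_eq_norm, add_sub_cancel_left, norm_smul, norm_inv,
        Real.norm_of_nonneg ht0, ht, inv_div]
      have hvpos : 0 < ‖v‖ := by
        by_contra hcon
        have : ‖v‖ = 0 := le_antisymm (not_lt.1 hcon) (norm_nonneg v)
        rw [ht, this, zero_div] at h0
        exact lt_irrefl _ h0
      rw [div_mul_cancel₀ _ hvpos.ne']
    have e2 : (1 - t) • x + t • x₀ + v = (1 - t) • x + t • (x₀ + t⁻¹ • v) := by
      rw [smul_add, smul_smul, mul_inv_cancel₀ h0.ne', one_smul, add_assoc]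
    rw [e2]
    exact hK.convex hx hz (by linarith) ht0 (by ring)

/-- the part of `K` that leaves `K` under the translation by `v` is small
(`x₀ + (1 - ‖v‖/r₀)(K - x₀) ⊆ Kv K v`, scaling of Lebesgue measure, Bernoulli). -/
theorem Body.measure_compl_Kv (hK : Body K x₀ r₀ r) (v : E d) (hv : ‖v‖ ≤ r₀) :
    ((unif K) (Kv K v)ᶜ).toReal ≤ d * ‖v‖ / r₀ := by
  have := hK.isProbabilityMeasure
  set t : ℝ := ‖v‖ / r₀ with ht
  have ht0 : 0 ≤ t := div_nonneg (norm_nonneg v) hK.r₀_pos.le
  have ht1 : t ≤ 1 := (div_le_one hK.r₀_pos).2 hv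
  have hsub := hK.homothety_subset_Kv v hv
  have hsubK : (AffineMap.homothety x₀ (1 - ‖v‖ / r₀)) '' K ⊆ K := fun y hy => (hsub hy).1
  have h1 : unif K ((AffineMap.homothety x₀ (1 - ‖v‖ / r₀)) '' K) = ENNReal.ofReal ((1 - t) ^ d) := by
    rw [hK.unif_apply, Set.inter_eq_self_of_subset_left hsubK, Measure.addHaar_image_homothety,
      finrank_euclideanSpace, Fintype.card_fin, abs_of_nonneg (pow_nonneg (by linarith) d),
      mul_comm, mul_assoc, ENNReal.mul_inv_cancel hK.volume_pos.ne' hK.volume_lt_top.ne, mul_one]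
  have h2 : ENNReal.ofReal ((1 - t) ^ d) ≤ unif K (Kv K v) := h1 ▸ measure_mono hsub
  have h3 : (1 - t) ^ d ≤ (unif K (Kv K v)).toReal := by
    have := ENNReal.toReal_mono (measure_ne_top _ _) h2
    rwa [ENNReal.toReal_ofReal (pow_nonneg (by linarith) d)] at this
  have h4 : ((unif K) (Kv K v)ᶜ).toReal = 1 - (unif K (Kv K v)).toReal := by
    rw [prob_compl_eq_one_sub (measurableSet_Kv hK v),
      ENNReal.toReal_sub_of_le prob_le_one ENNReal.one_ne_top, ENNReal.toReal_one]
  have h5 : 1 + (d : ℝ) * (-t) ≤ (1 + -t) ^ d := one_add_mul_le_pow (by linarith) d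
  have h6 : (d : ℝ) * ‖v‖ / r₀ = d * t := by rw [ht]; ring
  rw [h4, h6]
  have : (1 + -t) ^ d = (1 - t) ^ d := by ring
  linarith

end Crest.Agent.OT
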