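import Mathlib

/-!
# Laguerre cells and existence of Laguerre weights (semi-discrete optimal transport)

For points `y i` and weights `w i`, the (closed) Laguerre cell of `i` is the set of `x` where
`⟨x, y i⟩ - w i` is maximal.  We prove: for a finite measure `σ ≪ volume` with bounded support,
distinct points `y i` and positive masses `m i` summing to the total mass of `σ`, there are weights
`w` with `σ (lagCell y w i) = m i` for all `i`.
-/

set_option autoImplicit false
open MeasureTheory Set Filter Topology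
open scoped ENNReal NNReal

namespace Crest.Agent.OT

variable {d : ℕ} {ι : Type*}

/-- The closed Laguerre cell of index `i`. -/
def lagCell (y : ι → EuclideanSpace ℝ (Fin d)) (w : ι → ℝ) (i : ι) :
    Set (EuclideanSpace ℝ (Fin d)) :=
  {x | ∀ j, inner ℝ x (y j) - w j ≤ inner ℝ x (y i) - w i}

/-- The Laguerre potential `x ↦ max_i (⟨x, y i⟩ - w i)`. -/
noncomputable def lagPot [Fintype ι] [Nonempty ι] (y : ι → EuclideanSpace ℝ (Fin d)) (w : ι → ℝ)
    (x : EuclideanSpace ℝ (Fin d)) : ℝ :=
  Finset.univ.sup' Finset.univ_nonempty (fun j => inner ℝ x (y j) - w j)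

theorem mem_lagCell {y : ι → EuclideanSpace ℝ (Fin d)} {w : ι → ℝ} {i : ι}
    {x : EuclideanSpace ℝ (Fin d)} :
    x ∈ lagCell y w i ↔ ∀ j, inner ℝ x (y j) - w j ≤ inner ℝ x (y i) - w i := Iff.rfl

theorem isClosed_lagCell (y : ι → EuclideanSpace ℝ (Fin d)) (w : ι → ℝ) (i : ι) :
    IsClosed (lagCell y w i) := by
  have : lagCell y w i = ⋂ j, {x | inner ℝ x (y j) - w j ≤ inner ℝ x (y i) - w i} := by
    ext x; simp [lagCell]
  rw [this]
  exact isClosed_iInter fun j => isClosed_le (by fun_prop) (by fun_prop)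

theorem measurableSet_lagCell (y : ι → EuclideanSpace ℝ (Fin d)) (w : ι → ℝ) (i : ι) :
    MeasurableSet (lagCell y w i) := (isClosed_lagCell y w i).measurableSet

theorem convex_lagCell (y : ι → EuclideanSpace ℝ (Fin d)) (w : ι → ℝ) (i : ι) :
    Convex ℝ (lagCell y w i) := by
  intro a ha b hb s t hs ht hst j
  have h1 := ha j
  have h2 := hb j
  simp only [inner_add_left, inner_smul_left, RCLike.conj_to_real]
  have e1 : w j = s * w j + t * w j := by rw [← add_mul, hst, one_mul]
  have e2 : w i = s * w i + t * w i := by rw [← add_mul, hst, one_mul]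
  rw [e1, e2]
  nlinarith [mul_le_mul_of_nonneg_left h1 hs, mul_le_mul_of_nonneg_left h2 ht]

/-- Midpoint inclusion: the half-sum of the cells for `w` and `w'` lies in the cell of the
averaged weights. -/
theorem midpoint_mem_lagCell {y : ι → EuclideanSpace ℝ (Fin d)} {w w' : ι → ℝ} {i : ι}
    {a b : EuclideanSpace ℝ (Fin d)} (ha : a ∈ lagCell y w i) (hb : b ∈ lagCell y w' i) :
    (1 / 2 : ℝ) • (a + b) ∈ lagCell y (fun j => (w j + w' j) / 2) i := by
  intro j
  have h1 := ha j
  have h2 := hb j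
  simp only [inner_add_left, inner_smul_left, RCLike.conj_to_real]
  linarith

theorem iUnion_lagCell [Finite ι] [Nonempty ι] (y : ι → EuclideanSpace ℝ (Fin d)) (w : ι → ℝ) :
    ⋃ i, lagCell y w i = univ := by
  ext x
  simp only [mem_iUnion, mem_univ, iff_true]
  obtain ⟨i, hi⟩ := Finite.exists_max (fun j => inner ℝ x (y j) - w j)
  exact ⟨i, hi⟩

/-- A (non-degenerate) hyperplane is Lebesgue-null. -/
theorem volume_hyperplane_eq_zero (v : EuclideanSpace ℝ (Fin d)) (hv : v ≠ 0) (c : ℝ) :
    volume {x : EuclideanSpace ℝ (Fin d) | inner ℝ x v = c} = 0 := by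
  set x0 : EuclideanSpace ℝ (Fin d) := (c / ‖v‖ ^ 2) • v with hx0
  have hvv : ‖v‖ ^ 2 ≠ 0 := by positivity
  have hx0v : inner ℝ x0 v = c := by
    rw [hx0, inner_smul_left, real_inner_self_eq_norm_sq]
    simp only [RCLike.conj_to_real]
    field_simp
  set S : Submodule ℝ (EuclideanSpace ℝ (Fin d)) := LinearMap.ker (innerₛₗ ℝ v) with hS
  have hmem : ∀ x, x ∈ S ↔ inner ℝ x v = 0 := by
    intro x
    rw [hS, LinearMap.mem_ker, innerₛₗ_apply_apply, real_inner_comm]
  have hSt : S ≠ ⊤ := by
    intro h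
    have : v ∈ S := by rw [h]; trivial
    rw [hmem, real_inner_self_eq_norm_sq] at this
    exact hvv this
  have h0 := Measure.addHaar_submodule (volume : Measure (EuclideanSpace ℝ (Fin d))) S hSt
  have : {x : EuclideanSpace ℝ (Fin d) | inner ℝ x v = c} = (fun x => x + (-x0)) ⁻¹' (S : Set _) := by
    ext x
    simp only [mem_ofPred_eq, mem_preimage, SetLike.mem_coe, hmem, inner_add_left, inner_neg_left,
      hx0v]
    constructor
    · intro h; linarith
    · intro h; linarith
  rw [this, measure_preimage_add_right]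
  exact h0

theorem volume_lagCell_inter_eq_zero (y : ι → EuclideanSpace ℝ (Fin d)) (hy : Function.Injective y)
    (w : ι → ℝ) {i j : ι} (hij : i ≠ j) : volume (lagCell y w i ∩ lagCell y w j) = 0 := by
  have hv : y i - y j ≠ 0 := sub_ne_zero.2 (fun h => hij (hy h))
  refine measure_mono_null ?_ (volume_hyperplane_eq_zero (y i - y j) hv (w i - w j))
  rintro x ⟨h1, h2⟩
  have a := h1 j
  have b := h2 i
  simp only [mem_ofPred_eq, inner_sub_right]
  linarith

section pot

variable [Fintype ι] [Nonempty ι]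

theorem le_lagPot (y : ι → EuclideanSpace ℝ (Fin d)) (w : ι → ℝ) (x : EuclideanSpace ℝ (Fin d))
    (j : ι) : inner ℝ x (y j) - w j ≤ lagPot y w x :=
  Finset.le_sup' (fun j => inner ℝ x (y j) - w j) (Finset.mem_univ j)

theorem lagPot_le {y : ι → EuclideanSpace ℝ (Fin d)} {w : ι → ℝ} {x : EuclideanSpace ℝ (Fin d)}
    {c : ℝ} (h : ∀ j, inner ℝ x (y j) - w j ≤ c) : lagPot y w x ≤ c :=
  Finset.sup'_le _ _ (fun j _ => h j)

theorem lagPot_eq_of_mem {y : ι → EuclideanSpace ℝ (Fin d)} {w : ι → ℝ}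
    {x : EuclideanSpace ℝ (Fin d)} {i : ι} (h : x ∈ lagCell y w i) :
    lagPot y w x = inner ℝ x (y i) - w i :=
  le_antisymm (lagPot_le h) (le_lagPot y w x i)

theorem continuous_lagPot (y : ι → EuclideanSpace ℝ (Fin d)) (w : ι → ℝ) :
    Continuous (lagPot y w) := by
  unfold lagPot
  exact Continuous.finset_sup'_apply _ (fun j _ => by fun_prop)

theorem abs_lagPot_le (y : ι → EuclideanSpace ℝ (Fin d)) (w : ι → ℝ)
    (x : EuclideanSpace ℝ (Fin d)) :
    |lagPot y w x| ≤ ‖x‖ * (∑ j, ‖y j‖) + ∑ j, |w j| := by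
  have hterm : ∀ j, |inner ℝ x (y j) - w j| ≤ ‖x‖ * (∑ j, ‖y j‖) + ∑ j, |w j| := by
    intro j
    have h1 : |inner ℝ x (y j)| ≤ ‖x‖ * ‖y j‖ := abs_real_inner_le_norm x (y j)
    have h2 : ‖y j‖ ≤ ∑ j, ‖y j‖ :=
      Finset.single_le_sum (f := fun j => ‖y j‖) (fun _ _ => norm_nonneg _) (Finset.mem_univ j)
    have h3 : |w j| ≤ ∑ j, |w j| :=
      Finset.single_le_sum (f := fun j => |w j|) (fun _ _ => abs_nonneg _) (Finset.mem_univ j)
    have h4 : ‖x‖ * ‖y j‖ ≤ ‖x‖ * (∑ j, ‖y j‖) := mul_le_mul_of_nonneg_left h2 (norm_nonneg _)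
    calc |inner ℝ x (y j) - w j| ≤ |inner ℝ x (y j)| + |w j| := abs_sub _ _
      _ ≤ _ := by linarith
  rw [abs_le]
  constructor
  · obtain ⟨j0⟩ := ‹Nonempty ι›
    have := le_lagPot y w x j0
    have h := (abs_le.1 (hterm j0)).1
    linarith
  · exact lagPot_le (fun j => (abs_le.1 (hterm j)).2)

theorem lagPot_le_add_norm (y : ι → EuclideanSpace ℝ (Fin d)) (w w' : ι → ℝ)
    (x : EuclideanSpace ℝ (Fin d)) : lagPot y w x ≤ lagPot y w' x + ‖w - w'‖ := by
  refine lagPot_le (fun j => ?_)
  have h1 := le_lagPot y w' x j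
  have h2 : ‖(w - w') j‖ ≤ ‖w - w'‖ := norm_le_pi_norm (w - w') j
  rw [Real.norm_eq_abs, Pi.sub_apply] at h2
  have h3 := (abs_le.1 h2).1
  linarith

theorem lagPot_add_const (y : ι → EuclideanSpace ℝ (Fin d)) (w : ι → ℝ) (c : ℝ)
    (x : EuclideanSpace ℝ (Fin d)) : lagPot y (fun j => w j + c) x = lagPot y w x - c := by
  apply le_antisymm
  · refine lagPot_le (fun j => ?_)
    have := le_lagPot y w x j
    linarith
  · have : lagPot y w x ≤ lagPot y (fun j => w j + c) x + c := by
      refine lagPot_le (fun j => ?_)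
      have := le_lagPot y (fun j => w j + c) x j
      linarith
    linarith

theorem integrable_lagPot (σ : Measure (EuclideanSpace ℝ (Fin d))) [IsFiniteMeasure σ]
    {K : Set (EuclideanSpace ℝ (Fin d))} (hK : Bornology.IsBounded K) (hσK : σ Kᶜ = 0)
    (y : ι → EuclideanSpace ℝ (Fin d)) (w : ι → ℝ) : Integrable (lagPot y w) σ := by
  obtain ⟨r, hr⟩ := hK.exists_norm_le
  refine Integrable.of_bound (continuous_lagPot y w).aestronglyMeasurable
    (r * (∑ j, ‖y j‖) + ∑ j, |w j|) ?_
  have hae : ∀ᵐ x ∂σ, x ∈ K := by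
    rw [ae_iff]; exact hσK
  filter_upwards [hae] with x hx
  rw [Real.norm_eq_abs]
  refine (abs_lagPot_le y w x).trans ?_
  have : ‖x‖ * (∑ j, ‖y j‖) ≤ r * (∑ j, ‖y j‖) :=
    mul_le_mul_of_nonneg_right (hr x hx) (Finset.sum_nonneg fun _ _ => norm_nonneg _)
  linarith

/-- The Kantorovich functional. -/
noncomputable def kantFun (σ : Measure (EuclideanSpace ℝ (Fin d)))
    (y : ι → EuclideanSpace ℝ (Fin d)) (m : ι → ℝ) (w : ι → ℝ) : ℝ :=
  ∫ x, lagPot y w x ∂σ + ∑ i, m i * w i

theorem continuous_kantFun (σ : Measure (EuclideanSpace ℝ (Fin d))) [IsFiniteMeasure σ]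
    {K : Set (EuclideanSpace ℝ (Fin d))} (hK : Bornology.IsBounded K) (hσK : σ Kᶜ = 0)
    (y : ι → EuclideanSpace ℝ (Fin d)) (m : ι → ℝ) : Continuous (kantFun σ y m) := by
  unfold kantFun
  refine Continuous.add ?_ (by fun_prop)
  have : LipschitzWith (σ.real univ).toNNReal (fun w : ι → ℝ => ∫ x, lagPot y w x ∂σ) := by
    refine LipschitzWith.of_dist_le_mul (fun w w' => ?_)
    rw [Real.dist_eq, ← integral_sub (integrable_lagPot σ hK hσK y w)
      (integrable_lagPot σ hK hσK y w'), dist_eq_norm, ← Real.norm_eq_abs,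
      Real.coe_toNNReal _ measureReal_nonneg, mul_comm]
    refine norm_integral_le_of_norm_le_const (Eventually.of_forall fun x => ?_)
    rw [Real.norm_eq_abs, abs_le]
    have h1 := lagPot_le_add_norm y w w' x
    have h2 := lagPot_le_add_norm y w' w x
    rw [norm_sub_rev] at h2
    constructor <;> linarith
  exact this.continuous

theorem kantFun_add_const (σ : Measure (EuclideanSpace ℝ (Fin d))) [IsFiniteMeasure σ]
    {K : Set (EuclideanSpace ℝ (Fin d))} (hK : Bornology.IsBounded K) (hσK : σ Kᶜ = 0)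
    (y : ι → EuclideanSpace ℝ (Fin d)) (m : ι → ℝ) (hsum : ∑ i, m i = σ.real univ)
    (w : ι → ℝ) (c : ℝ) : kantFun σ y m (fun j => w j + c) = kantFun σ y m w := by
  unfold kantFun
  simp only [lagPot_add_const]
  rw [integral_sub (integrable_lagPot σ hK hσK y w) (integrable_const c), integral_const]
  simp only [mul_add, Finset.sum_add_distrib, ← Finset.sum_mul, hsum, smul_eq_mul]
  ring

theorem exists_kantFun_min (σ : Measure (EuclideanSpace ℝ (Fin d))) [IsFiniteMeasure σ]
    {K : Set (EuclideanSpace ℝ (Fin d))} (hK : Bornology.IsBounded K) (hσK : σ Kᶜ = 0)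
    (y : ι → EuclideanSpace ℝ (Fin d)) (m : ι → ℝ) (hm : ∀ i, 0 < m i)
    (hsum : ∑ i, m i = σ.real univ) :
    ∃ w : ι → ℝ, ∀ w' : ι → ℝ, kantFun σ y m w ≤ kantFun σ y m w' := by
  obtain ⟨r, hr⟩ := hK.exists_norm_le
  have hae : ∀ᵐ x ∂σ, x ∈ K := by
    rw [ae_iff]; exact hσK
  set R : ℝ := max r 0 * (∑ j, ‖y j‖) with hR
  have hR0 : 0 ≤ R := mul_nonneg (le_max_right _ _) (Finset.sum_nonneg fun _ _ => norm_nonneg _)
  have hxR : ∀ x ∈ K, ‖x‖ * (∑ j, ‖y j‖) ≤ R := fun x hx =>
    mul_le_mul_of_nonneg_right ((hr x hx).trans (le_max_left _ _))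
      (Finset.sum_nonneg fun _ _ => norm_nonneg _)
  set M : ℝ := σ.real univ with hM
  have hM0 : 0 ≤ M := measureReal_nonneg
  set B : ℝ := ∑ i, 2 * R * M / m i with hB
  have hBi : ∀ i, 2 * R * M / m i ≤ B := fun i =>
    Finset.single_le_sum (f := fun i => 2 * R * M / m i)
      (fun j _ => div_nonneg (by positivity) (hm j).le) (Finset.mem_univ i)
  have hB0 : 0 ≤ B := Finset.sum_nonneg fun j _ => div_nonneg (by positivity) (hm j).le
  have hcomp : IsCompact (Icc (0 : ι → ℝ) (fun _ => B)) := isCompact_Icc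
  have hne : (Icc (0 : ι → ℝ) (fun _ => B)).Nonempty :=
    ⟨0, le_refl _, fun _ => hB0⟩
  obtain ⟨w, hwmem, hw⟩ := hcomp.exists_isMinOn hne (continuous_kantFun σ hK hσK y m).continuousOn
  refine ⟨w, fun w' => ?_⟩
  obtain ⟨j0, hj0⟩ := Finite.exists_min w'
  set wt : ι → ℝ := fun j => w' j + (-w' j0) with hwt
  have hwt0 : ∀ j, 0 ≤ wt j := fun j => by simp only [hwt]; linarith [hj0 j]
  have hEq : kantFun σ y m wt = kantFun σ y m w' := kantFun_add_const σ hK hσK y m hsum w' _
  rw [← hEq]
  by_cases h : ∀ i, wt i ≤ B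
  · exact hw ⟨fun j => hwt0 j, fun j => h j⟩
  · push Not at h
    obtain ⟨i0, hi0⟩ := h
    have h0 : kantFun σ y m w ≤ kantFun σ y m 0 := hw ⟨le_refl _, fun _ => hB0⟩
    have h1 : kantFun σ y m 0 ≤ R * M := by
      unfold kantFun
      have : ∫ x, lagPot y (0 : ι → ℝ) x ∂σ ≤ ∫ _x, R ∂σ := by
        refine integral_mono_ae (integrable_lagPot σ hK hσK y 0) (integrable_const R) ?_
        filter_upwards [hae] with x hx
        have := (abs_le.1 (abs_lagPot_le y 0 x)).2
        simp only [Pi.zero_apply, abs_zero, Finset.sum_const_zero, add_zero] at this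
        exact this.trans (hxR x hx)
      rw [integral_const, smul_eq_mul] at this
      simp only [Pi.zero_apply, mul_zero, Finset.sum_const_zero, add_zero]
      linarith [mul_comm M R]
    have h2 : -(R * M) + m i0 * wt i0 ≤ kantFun σ y m wt := by
      unfold kantFun
      have ha : ∫ _x, -R ∂σ ≤ ∫ x, lagPot y wt x ∂σ := by
        refine integral_mono_ae (integrable_const (-R)) (integrable_lagPot σ hK hσK y wt) ?_
        filter_upwards [hae] with x hx
        have h3 := le_lagPot y wt x j0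
        have h4 : wt j0 = 0 := by simp [hwt]
        have h5 : |inner ℝ x (y j0)| ≤ ‖x‖ * ‖y j0‖ := abs_real_inner_le_norm x (y j0)
        have h6 : ‖y j0‖ ≤ ∑ j, ‖y j‖ :=
          Finset.single_le_sum (f := fun j => ‖y j‖) (fun _ _ => norm_nonneg _)
            (Finset.mem_univ j0)
        have h7 : ‖x‖ * ‖y j0‖ ≤ ‖x‖ * (∑ j, ‖y j‖) :=
          mul_le_mul_of_nonneg_left h6 (norm_nonneg _)
        have h8 := hxR x hx
        have h9 := (abs_le.1 h5).1
        rw [h4] at h3
        linarith
      rw [integral_const, smul_eq_mul] at ha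
      have hb : m i0 * wt i0 ≤ ∑ i, m i * wt i :=
        Finset.single_le_sum (f := fun i => m i * wt i)
          (fun j _ => mul_nonneg (hm j).le (hwt0 j)) (Finset.mem_univ i0)
      nlinarith [mul_comm M R]
    have h3 : 2 * R * M ≤ m i0 * wt i0 := by
      have := hBi i0
      rw [div_le_iff₀ (hm i0)] at this
      nlinarith [hm i0]
    linarith

theorem sum_measure_lagCell (σ : Measure (EuclideanSpace ℝ (Fin d))) (hac : σ ≪ volume)
    (y : ι → EuclideanSpace ℝ (Fin d)) (hy : Function.Injective y) (w : ι → ℝ) :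
    ∑ i, σ (lagCell y w i) = σ univ := by
  rw [← iUnion_lagCell y w, ← measure_biUnion_finset₀ (μ := σ) (s := Finset.univ)]
  · simp
  · intro i _ j _ hij
    exact hac (volume_lagCell_inter_eq_zero y hy w hij)
  · intro i _
    exact (measurableSet_lagCell y w i).nullMeasurableSet

open Classical in
theorem le_measure_lagCell_of_min (σ : Measure (EuclideanSpace ℝ (Fin d))) [IsFiniteMeasure σ]
    {K : Set (EuclideanSpace ℝ (Fin d))} (hK : Bornology.IsBounded K) (hσK : σ Kᶜ = 0)
    (y : ι → EuclideanSpace ℝ (Fin d)) (m : ι → ℝ) (w : ι → ℝ)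
    (hw : ∀ w' : ι → ℝ, kantFun σ y m w ≤ kantFun σ y m w') (i : ι) :
    ENNReal.ofReal (m i) ≤ σ (lagCell y w i) := by
  -- perturbed weights
  set wt : ℝ → ι → ℝ := fun t j => w j - if j = i then t else 0 with hwt
  have hwti : ∀ t, wt t i = w i - t := fun t => by simp [hwt]
  have hwtj : ∀ t j, j ≠ i → wt t j = w j := fun t j hj => by simp [hwt, hj]
  have key : ∀ t : ℝ, 0 < t → m i ≤ σ.real (lagCell y (wt t) i) := by
    intro t ht
    have hpt : ∀ x, lagPot y (wt t) x ≤
        lagPot y w x + (lagCell y (wt t) i).indicator (fun _ => t) x := by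
      intro x
      by_cases hx : x ∈ lagCell y (wt t) i
      · rw [indicator_of_mem hx, lagPot_eq_of_mem hx, hwti]
        have := le_lagPot y w x i
        linarith
      · rw [indicator_of_notMem hx, add_zero]
        rw [mem_lagCell] at hx
        push Not at hx
        obtain ⟨j, hj⟩ := hx
        have hji : j ≠ i := fun h => by rw [h] at hj; exact lt_irrefl _ hj
        refine lagPot_le (fun k => ?_)
        by_cases hk : k = i
        · rw [hk]
          refine hj.le.trans ?_
          rw [hwtj t j hji]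
          exact le_lagPot y w x j
        · rw [hwtj t k hk]
          exact le_lagPot y w x k
    have hind : Integrable ((lagCell y (wt t) i).indicator (fun _ => t)) σ :=
      (integrable_const t).indicator (measurableSet_lagCell y (wt t) i)
    have hint : ∫ x, lagPot y (wt t) x ∂σ ≤
        ∫ x, lagPot y w x ∂σ + t * σ.real (lagCell y (wt t) i) := by
      have h1 : ∫ x, lagPot y (wt t) x ∂σ ≤
          ∫ x, (lagPot y w x + (lagCell y (wt t) i).indicator (fun _ => t) x) ∂σ :=
        integral_mono (integrable_lagPot σ hK hσK y _)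
          ((integrable_lagPot σ hK hσK y _).add hind) hpt
      rw [integral_add (integrable_lagPot σ hK hσK y _) hind,
        integral_indicator (measurableSet_lagCell y (wt t) i), setIntegral_const,
        smul_eq_mul, mul_comm] at h1
      exact h1
    have hsumw : ∑ j, m j * wt t j = ∑ j, m j * w j - m i * t := by
      simp only [hwt, mul_sub, Finset.sum_sub_distrib, mul_ite, mul_zero, Finset.sum_ite_eq',
        Finset.mem_univ, if_true]
    have := hw (wt t)
    unfold kantFun at this
    rw [hsumw] at this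
    have h2 : t * m i ≤ t * σ.real (lagCell y (wt t) i) := by linarith
    exact le_of_mul_le_mul_left h2 ht
  -- pass to the limit
  set C : ℕ → Set (EuclideanSpace ℝ (Fin d)) := fun n => lagCell y (wt (1 / ((n : ℝ) + 1))) i
    with hC
  have hmemC : ∀ t x, x ∈ lagCell y (wt t) i ↔
      ∀ j, j ≠ i → inner ℝ x (y j) - w j ≤ inner ℝ x (y i) - w i + t := by
    intro t x
    rw [mem_lagCell]
    constructor
    · intro h j hj
      have := h j
      rw [hwtj t j hj, hwti] at this
      linarith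
    · intro h j
      by_cases hj : j = i
      · rw [hj]
      · rw [hwtj t j hj, hwti]
        linarith [h j hj]
  have hanti : Antitone C := by
    intro a b hab x hx
    simp only [hC] at hx ⊢
    rw [hmemC] at hx ⊢
    intro j hj
    have h1 := hx j hj
    have h2 : (1 : ℝ) / ((b : ℝ) + 1) ≤ 1 / ((a : ℝ) + 1) := by
      apply one_div_le_one_div_of_le (by positivity)
      have : (a : ℝ) ≤ b := by exact_mod_cast hab
      linarith
    linarith
  have hInter : ⋂ n, C n = lagCell y w i := by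
    ext x
    simp only [mem_iInter, hC]
    constructor
    · intro h j
      by_cases hj : j = i
      · rw [hj]
      · refine le_of_forall_pos_le_add (fun ε hε => ?_)
        obtain ⟨n, hn⟩ := exists_nat_one_div_lt hε
        have := (hmemC _ x).1 (h n) j hj
        linarith
    · intro h n
      rw [hmemC]
      intro j _
      have h1 := h j
      have h2 : (0 : ℝ) < 1 / ((n : ℝ) + 1) := by positivity
      linarith
  rw [← hInter, hanti.measure_iInter
    (fun n => (measurableSet_lagCell y _ i).nullMeasurableSet) ⟨0, measure_ne_top σ _⟩]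
  refine le_iInf (fun n => ?_)
  have := key (1 / ((n : ℝ) + 1)) (by positivity)
  rw [ENNReal.ofReal_le_iff_le_toReal (measure_ne_top σ _)]
  exact this

/-- **Existence of Laguerre weights.** -/
theorem exists_laguerre_weights (σ : Measure (EuclideanSpace ℝ (Fin d))) [IsFiniteMeasure σ]
    (hac : σ ≪ volume) (K : Set (EuclideanSpace ℝ (Fin d))) (hK : Bornology.IsBounded K)
    (hσK : σ Kᶜ = 0) (y : ι → EuclideanSpace ℝ (Fin d)) (hy : Function.Injective y)
    (m : ι → ℝ) (hm : ∀ i, 0 < m i) (hsum : ∑ i, m i = (σ univ).toReal) :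
    ∃ w : ι → ℝ, ∀ i, σ (lagCell y w i) = ENNReal.ofReal (m i) := by
  obtain ⟨w, hw⟩ := exists_kantFun_min σ hK hσK y m hm hsum
  refine ⟨w, ?_⟩
  have hle : ∀ i ∈ (Finset.univ : Finset ι), m i ≤ σ.real (lagCell y w i) := fun i _ =>
    (ENNReal.ofReal_le_iff_le_toReal (measure_ne_top σ _)).1
      (le_measure_lagCell_of_min σ hK hσK y m w hw i)
  have htot : ∑ i, m i = ∑ i, σ.real (lagCell y w i) := by
    rw [hsum, ← sum_measure_lagCell σ hac y hy w,
      ENNReal.toReal_sum (fun i _ => measure_ne_top σ _)]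
    rfl
  intro i
  have := (Finset.sum_eq_sum_iff_of_le hle).1 htot i (Finset.mem_univ i)
  rw [this, measureReal_def, ENNReal.ofReal_toReal (measure_ne_top σ _)]

end pot

end Crest.Agent.OT
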