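import Crest.Agent.OT.Basic
import Crest.Agent.OT.Laguerre

/-! # Task CELLS: glue from `Laguerre.lean` (`lagCell`, `exists_laguerre_weights`) to `cell`, `IsWeights` of Defs.lean. -/

set_option autoImplicit false
open MeasureTheory
open scoped ENNReal NNReal RealInnerProductSpace
open Crest.AnalysisR.OT

namespace Crest.Agent.OT
variable {d : ℕ} {K : Set (E d)} {x₀ : E d} {r₀ r : ℝ} {N : ℕ}

theorem cell_subset (y : Fin N → E d) (c : Fin N → ℝ) (i : Fin N) : cell K y c i ⊆ K :=
  fun _ hx => hx.1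

theorem cell_eq_inter_lagCell (y : Fin N → E d) (c : Fin N → ℝ) (i : Fin N) :
    cell K y c i = K ∩ lagCell y c i := rfl

theorem measurableSet_cell (hK : Body K x₀ r₀ r) (y : Fin N → E d) (c : Fin N → ℝ) (i : Fin N) :
    MeasurableSet (cell K y c i) :=
  hK.measurableSet.inter (measurableSet_lagCell y c i)

/-- every point of `K` is in some cell. -/
theorem exists_mem_cell (hN : 0 < N) (y : Fin N → E d) (c : Fin N → ℝ) (x : E d) (hx : x ∈ K) :
    ∃ i, x ∈ cell K y c i := by
  haveI : Nonempty (Fin N) := ⟨⟨0, hN⟩⟩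
  have : x ∈ ⋃ i, lagCell y c i := by rw [iUnion_lagCell]; trivial
  obtain ⟨i, hi⟩ := Set.mem_iUnion.1 this
  exact ⟨i, hx, hi⟩

/-- distinct atoms: two different cells overlap in a null set (a hyperplane). -/
theorem ae_not_mem_two_cells (hK : Body K x₀ r₀ r) (y : Fin N → E d) (hy : Function.Injective y)
    (c : Fin N → ℝ) : ∀ᵐ x ∂(unif K), ∀ i j, x ∈ cell K y c i → x ∈ cell K y c j → i = j := by
  rw [hK.ae_iff]
  have h : ∀ i j : Fin N, ∀ᵐ x ∂(volume : Measure (E d)),
      i ≠ j → x ∉ lagCell y c i ∩ lagCell y c j := by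
    intro i j
    by_cases hij : i = j
    · exact Filter.Eventually.of_forall fun _ h => absurd hij h
    · have := volume_lagCell_inter_eq_zero y hy c hij
      rw [measure_eq_zero_iff_ae_notMem] at this
      exact this.mono fun x hx _ => hx
  have h2 : ∀ᵐ x ∂(volume : Measure (E d)), ∀ i j : Fin N,
      i ≠ j → x ∉ lagCell y c i ∩ lagCell y c j := by
    rw [ae_all_iff]; intro i
    rw [ae_all_iff]; intro j
    exact h i j
  filter_upwards [h2] with x hx _ i j hi hj
  by_contra hij
  exact hx i j hij ⟨hi.2, hj.2⟩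

/-- midpoints of cells for `c0`, `c1` lie in the cell for the averaged weights. -/
theorem midpoint_mem_cell (hK : Body K x₀ r₀ r) (y : Fin N → E d) (c0 c1 : Fin N → ℝ) (i : Fin N)
    (a b : E d) (ha : a ∈ cell K y c0 i) (hb : b ∈ cell K y c1 i) :
    (1 / 2 : ℝ) • (a + b) ∈ cell K y (fun j => (c0 j + c1 j) / 2) i := by
  refine ⟨?_, midpoint_mem_lagCell ha.2 hb.2⟩
  have := hK.convex ha.1 hb.1 (by norm_num : (0 : ℝ) ≤ 1 / 2) (by norm_num : (0 : ℝ) ≤ 1 / 2)
    (by norm_num)
  rwa [← smul_add] at this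

/-- **Existence of Laguerre weights.** Minimise
`Φ c = ∫ max_i (⟪x, y i⟫ - c i) ϱ + ∑ m i * c i` (invariant under adding constants, coercive modulo
constants because `m i > 0`); at a minimiser, `Φ (c + t e_i) ≥ Φ c` for `t > 0` gives
`∫_{cell (c + t e_i) i} ϱ ≤ m i`; let `t ↓ 0`, use null overlaps and `∑ m i = 1 = ∫ ϱ`. -/
theorem exists_weights (hK : Body K x₀ r₀ r) (m : Fin N → ℝ) (hm : ∀ i, 0 < m i)
    (hsum : ∑ i, m i = 1) (y : Fin N → E d) (hy : Function.Injective y)
    (ϱ : E d → ℝ) (hϱ : Measurable ϱ) (h0 : ∀ x, 0 ≤ ϱ x) (h2 : ∀ x, ϱ x ≤ 2)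
    (hint : ∫ x, ϱ x ∂(unif K) = 1) : ∃ c, IsWeights K m ϱ y c := by
  haveI := hK.isProbabilityMeasure
  haveI : Nonempty (Fin N) := by
    by_contra hne
    rw [not_nonempty_iff] at hne
    simp at hsum
  set σ : Measure (E d) := (unif K).withDensity (fun x => ENNReal.ofReal (ϱ x)) with hσ
  have hmeas : Measurable (fun x => ENNReal.ofReal (ϱ x)) := hϱ.ennreal_ofReal
  have happly : ∀ S, MeasurableSet S → (σ S).toReal = ∫ x in S, ϱ x ∂(unif K) := by
    intro S hS
    rw [hσ, withDensity_apply _ hS,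
      integral_eq_lintegral_of_nonneg_ae (Filter.Eventually.of_forall fun x => h0 x)
        hϱ.aestronglyMeasurable]
  have hint' : Integrable ϱ (unif K) :=
    hK.integrable_of_bdd ϱ hϱ.aestronglyMeasurable 2
      (Filter.Eventually.of_forall fun x => by rw [Real.norm_eq_abs, abs_of_nonneg (h0 x)]; exact h2 x)
  have huniv : σ Set.univ = 1 := by
    rw [hσ, withDensity_apply _ MeasurableSet.univ, Measure.restrict_univ,
      ← ofReal_integral_eq_lintegral_ofReal hint' (Filter.Eventually.of_forall fun x => h0 x), hint,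
      ENNReal.ofReal_one]
  haveI : IsFiniteMeasure σ := ⟨by rw [huniv]; exact ENNReal.one_lt_top⟩
  have hacK : σ ≪ unif K := withDensity_absolutelyContinuous _ _
  have hKvol : unif K ≪ (volume : Measure (E d)) := by
    intro S hS
    rw [hK.unif_apply, measure_mono_null Set.inter_subset_left hS, mul_zero]
  have hσK : σ Kᶜ = 0 := by
    apply hacK
    rw [hK.unif_apply, Set.compl_inter_self, measure_empty, mul_zero]
  obtain ⟨c, hc⟩ := exists_laguerre_weights σ (hacK.trans hKvol) K hK.compact.isBounded hσK y hy m hm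
    (by rw [hsum, huniv, ENNReal.toReal_one])
  refine ⟨c, fun i => ?_⟩
  rw [← happly _ (measurableSet_cell hK y c i)]
  have hEq : σ (cell K y c i) = σ (lagCell y c i) := by
    apply le_antisymm (measure_mono Set.inter_subset_right)
    calc σ (lagCell y c i) ≤ σ (cell K y c i ∪ Kᶜ) := by
          apply measure_mono
          intro x hx
          by_cases hxK : x ∈ K
          · exact Or.inl ⟨hxK, hx⟩
          · exact Or.inr hxK
      _ ≤ σ (cell K y c i) + σ Kᶜ := measure_union_le _ _
      _ = σ (cell K y c i) := by rw [hσK, add_zero]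
  rw [hEq, hc i, ENNReal.toReal_ofReal (hm i).le]

end Crest.Agent.OT
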