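import Mathlib
import Crest.Prelude.Def_QuadraticTransport

/-!
# Row 82 (S0109): common definitions.   FROZEN FILE (only helper14 edits it).
-/

set_option autoImplicit false
open MeasureTheory
open scoped ENNReal NNReal RealInnerProductSpace
open Crest.AnalysisR.OT

namespace Crest.Agent.OT

/-- Euclidean space. -/
abbrev E (d : ℕ) := EuclideanSpace ℝ (Fin d)

variable {d : ℕ}

/-- the uniform probability measure on `K` (the frozen definition). -/
noncomputable abbrev unif (K : Set (E d)) : Measure (E d) := uniformProbOn K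

/-- standing hypotheses on `K`: compact, convex, contains `closedBall x₀ r₀`, inside `closedBall 0 r`. -/
structure Body (K : Set (E d)) (x₀ : E d) (r₀ r : ℝ) : Prop where
  compact : IsCompact K
  convex : Convex ℝ K
  r₀_pos : 0 < r₀
  ball_sub : Metric.closedBall x₀ r₀ ⊆ K
  sub_ball : ∀ x ∈ K, ‖x‖ ≤ r

/-- `φ` is a (Rockafellar) potential of the map `T` on `K`. -/
structure IsPotential (K : Set (E d)) (R : ℝ) (T : E d → E d) (φ : E d → ℝ) : Prop where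
  lip : ∀ x x', |φ x - φ x'| ≤ R * ‖x - x'‖
  subgrad : ∀ᵐ x ∂(unif K), ∀ x' ∈ K, φ x + ⟪T x, x' - x⟫ ≤ φ x'

/-- Laguerre cell of the atom `i` (positions `y`, weights `c`), inside `K`. -/
def cell (K : Set (E d)) {N : ℕ} (y : Fin N → E d) (c : Fin N → ℝ) (i : Fin N) : Set (E d) :=
  {x | x ∈ K ∧ ∀ j, ⟪x, y j⟫ - c j ≤ ⟪x, y i⟫ - c i}

/-- `c` are Laguerre weights for the density `ϱ` (w.r.t. `unif K`) and the masses `m`. -/
def IsWeights (K : Set (E d)) {N : ℕ} (m : Fin N → ℝ) (ϱ : E d → ℝ) (y : Fin N → E d)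
    (c : Fin N → ℝ) : Prop :=
  ∀ i, ∫ x in cell K y c i, ϱ x ∂(unif K) = m i

/-- sub-densities `b i` (w.r.t. `unif K`) splitting the density `ϱ` into pieces of masses `m i`
(= a transport plan from `ϱ · unif K` to labelled atoms of masses `m i`). -/
structure Admissible (K : Set (E d)) {N : ℕ} (m : Fin N → ℝ) (ϱ : E d → ℝ)
    (b : Fin N → E d → ℝ) : Prop where
  meas : ∀ i, Measurable (b i)
  nonneg : ∀ i x, 0 ≤ b i x
  sum_eq : ∀ᵐ x ∂(unif K), ∑ i, b i x = ϱ x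
  mass : ∀ i, ∫ x, b i x ∂(unif K) = m i

/-- correlation value of the plan `b` when the atoms sit at `y`. -/
noncomputable def val (K : Set (E d)) {N : ℕ} (y : Fin N → E d) (b : Fin N → E d → ℝ) : ℝ :=
  ∑ i, ∫ x, ⟪x, y i⟫ * b i x ∂(unif K)

/-- maximal correlation between `ϱ · unif K` and the labelled atoms `(y i, m i)`. -/
noncomputable def optVal (K : Set (E d)) {N : ℕ} (m : Fin N → ℝ) (ϱ : E d → ℝ)
    (y : Fin N → E d) : ℝ :=
  sSup {v | ∃ b, Admissible K m ϱ b ∧ v = val K y b}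

/-- **F-bound** with constant `C`: barycentres of Laguerre cells are `L²`-Lipschitz in the density. -/
def FBound (K : Set (E d)) (C : ℝ) : Prop :=
  ∀ (N : ℕ) (m : Fin N → ℝ) (y : Fin N → E d) (η : E d → ℝ) (c0 c1 : Fin N → ℝ),
    (∀ i, 0 < m i) → Function.Injective y → Measurable η → (∀ x, |η x| ≤ 1 / 2) →
    IsWeights K m (fun _ => 1) y c0 → IsWeights K m (fun x => 1 + η x) y c1 →
    ∑ i, (m i)⁻¹ * ‖(∫ x in cell K y c1 i, (1 + η x) • x ∂(unif K))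
        - ∫ x in cell K y c0 i, x ∂(unif K)‖ ^ 2 ≤ C ^ 2 * ∫ x, η x ^ 2 ∂(unif K)

/-- **Path bound** with constant `C`. -/
def PathBound (K : Set (E d)) (C : ℝ) : Prop :=
  ∀ (N : ℕ) (m : Fin N → ℝ) (p0 p1 : Fin N → E d) (η : E d → ℝ),
    (∀ i, 0 < m i) → ∑ i, m i = 1 → Function.Injective p0 → Function.Injective p1 →
    Measurable η → (∀ x, |η x| ≤ 1 / 2) → ∫ x, η x ∂(unif K) = 0 →
    optVal K m (fun x => 1 + η x) p0 - optVal K m (fun _ => 1) p0 ≤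
      optVal K m (fun x => 1 + η x) p1 - optVal K m (fun _ => 1) p1 +
        C * Real.sqrt (∫ x, η x ^ 2 ∂(unif K)) * Real.sqrt (∑ i, m i * ‖p1 i - p0 i‖ ^ 2)

/-- a `δ`-discretisation of a coupling of cost `≤ ε²` between `T0 # unif K` and `T1 # unif K`. -/
def Discretizable (K : Set (E d)) (T0 T1 : E d → E d) (ε : ℝ) : Prop :=
  ∀ δ : ℝ, 0 < δ → ∃ (N : ℕ) (m : Fin N → ℝ) (p0 p1 : Fin N → E d) (a0 a1 : Fin N → E d → ℝ),
    (∀ i, 0 < m i) ∧ ∑ i, m i = 1 ∧ Function.Injective p0 ∧ Function.Injective p1 ∧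
    Admissible K m (fun _ => 1) a0 ∧ Admissible K m (fun _ => 1) a1 ∧
    (∀ᵐ x ∂(unif K), ∀ i, a0 i x ≠ 0 → ‖T0 x - p0 i‖ ≤ δ) ∧
    (∀ᵐ x ∂(unif K), ∀ i, a1 i x ≠ 0 → ‖T1 x - p1 i‖ ≤ δ) ∧
    Real.sqrt (∑ i, m i * ‖p1 i - p0 i‖ ^ 2) ≤ ε + δ

/-- the set of points of `K` whose translate by `v` stays in `K`. -/
def Kv (K : Set (E d)) (v : E d) : Set (E d) := {x | x ∈ K ∧ x + v ∈ K}

/-- **Key inequality** with constant `C` for the pair of maps `T0, T1` at distance `ε`. -/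
def KeyIneq (K : Set (E d)) (C : ℝ) (T0 T1 : E d → E d) (ε : ℝ) : Prop :=
  ∀ (v : E d) (w : E d → ℝ) (W : ℝ), Measurable w → (∀ x, |w x| ≤ W) → (∀ x, x ∉ Kv K v → w x = 0) →
    ∫ x, (max (w x) 0 * ⟪v, T0 x - T1 (x + v)⟫ + max (- w x) 0 * ⟪v, T1 x - T0 (x + v)⟫) ∂(unif K)
      ≤ C * ε * Real.sqrt (∫ x, (w (x - v) - w x) ^ 2 ∂(unif K))

end Crest.Agent.OT
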