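import Crest.Agent.OT.Defs

/-! # Task DISC (row 82): discretisation of a coupling.  Auxiliary lemmas. -/

set_option autoImplicit false
open MeasureTheory
open scoped ENNReal NNReal RealInnerProductSpace
open Crest.AnalysisR.OT

namespace Crest.Agent.OT.Disc
variable {d : ℕ}

/-- a measurable finite-valued rounding map, `δ`-close to the identity on the compact set `Y`. -/
theorem exists_rounding (Y : Set (E d)) (hY : IsCompact Y) (δ : ℝ) (hδ : 0 < δ) :
    ∃ q : SimpleFunc (E d) (E d), ∀ y ∈ Y, ‖q y - y‖ ≤ δ := by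
  classical
  obtain ⟨t, ht⟩ := hY.elim_finite_subcover (fun n : ℕ => Metric.ball (TopologicalSpace.denseSeq (E d) n) δ)
    (fun n => Metric.isOpen_ball) (by
      intro y _
      obtain ⟨n, hn⟩ := (TopologicalSpace.denseRange_denseSeq (E d)).exists_dist_lt y hδ
      exact Set.mem_iUnion.2 ⟨n, by simpa [Metric.mem_ball] using hn⟩)
  refine ⟨SimpleFunc.nearestPt (TopologicalSpace.denseSeq (E d)) (t.sup id), fun y hy => ?_⟩
  obtain ⟨n, hn⟩ := Set.mem_iUnion.1 (ht hy)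
  obtain ⟨hnt, hn⟩ := Set.mem_iUnion.1 hn
  have hle : n ≤ t.sup id := Finset.le_sup (f := id) hnt
  have h1 := SimpleFunc.edist_nearestPt_le (TopologicalSpace.denseSeq (E d)) y hle
  rw [edist_dist, edist_dist, ENNReal.ofReal_le_ofReal_iff dist_nonneg] at h1
  rw [← dist_eq_norm]
  refine h1.trans ?_
  rw [dist_comm]
  exact (Metric.mem_ball.1 hn).le

/-- generic small `κ` making both perturbed label maps injective. -/
theorem exists_kappa (L : Finset (E d × E d)) (κ0 : ℝ) (hκ0 : 0 < κ0) :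
    ∃ κ : ℝ, 0 < κ ∧ κ ≤ κ0 ∧ Set.InjOn (fun p : E d × E d => p.1 + κ • p.2) L ∧
      Set.InjOn (fun p : E d × E d => p.2 + κ • p.1) L := by
  classical
  set bad : Set ℝ := ⋃ ab ∈ (L ×ˢ L).filter (fun ab => ab.1 ≠ ab.2),
    ({κ : ℝ | ab.1.1 + κ • ab.1.2 = ab.2.1 + κ • ab.2.2} ∪
      {κ : ℝ | ab.1.2 + κ • ab.1.1 = ab.2.2 + κ • ab.2.1}) with hbad
  have key : ∀ (u v u' v' : E d), (u, v) ≠ (u', v') →
      ({κ : ℝ | u + κ • v = u' + κ • v'} : Set ℝ).Subsingleton := by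
    intro u v u' v' hne κ hκ κ' hκ'
    simp only [Set.mem_ofPred_eq] at hκ hκ'
    by_contra hcon
    have h1 : (κ - κ') • (v - v') = 0 := by
      have : (κ - κ') • (v - v') = (u + κ • v) - (u' + κ • v') - ((u + κ' • v) - (u' + κ' • v')) := by
        module
      rw [this, hκ, hκ']; simp
    have h2 : v - v' = 0 := by
      rcases smul_eq_zero.1 h1 with h | h
      · exact absurd (sub_eq_zero.1 h) hcon
      · exact h
    have h3 : v = v' := sub_eq_zero.1 h2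
    subst h3
    have h4 : u = u' := by simpa using hκ
    exact hne (by rw [h4])
  have hfin : bad.Finite := by
    refine Set.Finite.biUnion (Finset.finite_toSet _) ?_
    rintro ⟨⟨u, v⟩, ⟨u', v'⟩⟩ hab
    have hne : (u, v) ≠ (u', v') := by
      have := (Finset.mem_filter.1 (Finset.mem_coe.1 hab)).2
      simpa using this
    refine Set.Finite.union (key u v u' v' hne).finite (key v u v' u' ?_).finite
    intro h
    apply hne
    simp only [Prod.mk.injEq] at h ⊢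
    exact ⟨h.2, h.1⟩
  obtain ⟨κ, hκ, hκb⟩ := (Set.Ioc_infinite hκ0).exists_notMem_finite hfin
  refine ⟨κ, hκ.1, hκ.2, ?_, ?_⟩
  · intro a ha b hb hab
    by_contra hne
    apply hκb
    refine Set.mem_biUnion (x := (a, b)) ?_ (Or.inl hab)
    simp only [Finset.coe_filter, Finset.mem_product, Set.mem_ofPred_eq]
    exact ⟨⟨ha, hb⟩, hne⟩
  · intro a ha b hb hab
    by_contra hne
    apply hκb
    refine Set.mem_biUnion (x := (a, b)) ?_ (Or.inr hab)
    simp only [Finset.coe_filter, Finset.mem_product, Set.mem_ofPred_eq]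
    exact ⟨⟨ha, hb⟩, hne⟩


/-- reindexing a sum over a finset by `Fin card`. -/
theorem sum_reindex {Λ M : Type*} [AddCommMonoid M] (L : Finset Λ) (F : Λ → M) :
    ∑ i : Fin L.card, F (L.equivFin.symm i : Λ) = ∑ l ∈ L, F l := by
  rw [← Finset.sum_coe_sort L F]
  exact Equiv.sum_comp L.equivFin.symm (fun l : L => F l)

/-- sub-density attached to the value `u` of the rounding map, total mass `c`. -/
noncomputable def dens (q : SimpleFunc (E d) (E d)) (μ : Measure (E d)) (T : E d → E d)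
    (u : E d) (c : ℝ) : E d → ℝ :=
  Set.indicator (T ⁻¹' (q ⁻¹' {u})) (fun _ => c / (μ (q ⁻¹' {u})).toReal)

theorem dens_apply (q : SimpleFunc (E d) (E d)) (μ : Measure (E d)) (T : E d → E d)
    (u : E d) (c : ℝ) (x : E d) :
    dens q μ T u c x = if q (T x) = u then c / (μ (q ⁻¹' {q (T x)})).toReal else 0 := by
  classical
  unfold dens
  rw [Set.indicator_apply]
  by_cases h : q (T x) = u
  · rw [if_pos h, if_pos (by simpa using h), h]
  · rw [if_neg h, if_neg (by simpa using h)]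

theorem measurable_dens (q : SimpleFunc (E d) (E d)) (μ : Measure (E d)) (T : E d → E d)
    (hT : Measurable T) (u : E d) (c : ℝ) : Measurable (dens q μ T u c) :=
  measurable_const.indicator (hT (q.measurableSet_fiber u))

theorem dens_nonneg (q : SimpleFunc (E d) (E d)) (μ : Measure (E d)) (T : E d → E d)
    (u : E d) (c : ℝ) (hc : 0 ≤ c) (x : E d) : 0 ≤ dens q μ T u c x := by
  rw [dens_apply]
  split_ifs
  · positivity
  · exact le_rfl

section oneSided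
variable {Ω : Type*} [MeasurableSpace Ω] {Λ : Type*}

theorem oneSided {ρ : Measure (E d)} [IsProbabilityMeasure ρ] (q : SimpleFunc (E d) (E d))
    (μ : Measure (E d)) (T : E d → E d) (hT : Measurable T) (hmap : ρ.map T = μ)
    (π : Measure Ω) (pr : Ω → E d) (hpr : Measurable pr) (hπ : π.map pr = μ)
    (Q : Ω → Λ) (hQ : ∀ l, MeasurableSet (Q ⁻¹' {l})) (S0 : Finset Λ) (hS0 : ∀ ω, Q ω ∈ S0)
    (lab : Λ → E d) (hlab : ∀ ω, lab (Q ω) = q (pr ω)) :
    (∀ᵐ x ∂ρ, ∑ l ∈ S0.filter (fun l => π (Q ⁻¹' {l}) ≠ 0),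
        dens q μ T (lab l) (π (Q ⁻¹' {l})).toReal x = 1) ∧
    (∀ l ∈ S0.filter (fun l => π (Q ⁻¹' {l}) ≠ 0),
      ∫ x, dens q μ T (lab l) (π (Q ⁻¹' {l})).toReal x ∂ρ = (π (Q ⁻¹' {l})).toReal) := by
  classical
  have hμp : IsProbabilityMeasure μ := by
    rw [← hmap]; exact Measure.isProbabilityMeasure_map hT.aemeasurable
  have hπp : IsProbabilityMeasure π := by
    constructor
    have h1 : μ Set.univ = 1 := measure_univ
    rw [← hπ, Measure.map_apply hpr MeasurableSet.univ] at h1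
    simpa using h1
  have hρT : ∀ u, ρ (T ⁻¹' (q ⁻¹' {u})) = μ (q ⁻¹' {u}) := by
    intro u
    rw [← hmap, Measure.map_apply hT (q.measurableSet_fiber u)]
  have hmass : ∀ u, ∑ l ∈ S0.filter (fun l => u = lab l), (π (Q ⁻¹' {l})).toReal
      = (μ (q ⁻¹' {u})).toReal := by
    intro u
    rw [← ENNReal.toReal_sum (fun l _ => measure_ne_top π _)]
    congr 1
    rw [sum_measure_preimage_singleton _ (fun l _ => hQ l), ← hπ,
      Measure.map_apply hpr (q.measurableSet_fiber u)]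
    congr 1
    ext ω
    simp only [Finset.coe_filter, Set.mem_preimage, Set.mem_ofPred_eq, Set.mem_singleton_iff,
      hS0, true_and, hlab]
    exact eq_comm
  constructor
  · have hnull : ∀ᵐ x ∂ρ, μ (q ⁻¹' {q (T x)}) ≠ 0 := by
      rw [ae_iff]
      refine measure_mono_null (t := ⋃ u ∈ q.range.filter (fun u => μ (q ⁻¹' {u}) = 0),
        T ⁻¹' (q ⁻¹' {u})) ?_ ?_
      · intro x hx
        simp only [ne_eq, not_not, Set.mem_ofPred_eq] at hx
        refine Set.mem_biUnion (x := q (T x)) ?_ (by simp)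
        simp only [Finset.coe_filter, Set.mem_ofPred_eq]
        exact ⟨SimpleFunc.mem_range_self _ _, hx⟩
      · refine (measure_biUnion_null_iff (Finset.countable_toSet _)).2 ?_
        intro u hu
        rw [hρT]
        exact (Finset.mem_filter.1 (Finset.mem_coe.1 hu)).2
    filter_upwards [hnull] with x hx
    have h1 : ∑ l ∈ S0.filter (fun l => π (Q ⁻¹' {l}) ≠ 0),
        dens q μ T (lab l) (π (Q ⁻¹' {l})).toReal x
        = ∑ l ∈ S0, dens q μ T (lab l) (π (Q ⁻¹' {l})).toReal x := by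
      apply Finset.sum_filter_of_ne
      intro l _ hne hzero
      apply hne
      rw [dens_apply, hzero]
      simp
    rw [h1]
    simp only [dens_apply]
    rw [← Finset.sum_filter, ← Finset.sum_div, hmass]
    exact div_self (ENNReal.toReal_ne_zero.2 ⟨hx, measure_ne_top μ _⟩)
  · intro l hl
    have hl0 : π (Q ⁻¹' {l}) ≠ 0 := (Finset.mem_filter.1 hl).2
    have hsub : Q ⁻¹' {l} ⊆ pr ⁻¹' (q ⁻¹' {lab l}) := by
      intro ω hω
      simp only [Set.mem_preimage, Set.mem_singleton_iff] at hω ⊢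
      rw [← hlab, hω]
    have hM : μ (q ⁻¹' {lab l}) ≠ 0 := by
      rw [← hπ, Measure.map_apply hpr (q.measurableSet_fiber _)]
      intro h0
      exact hl0 (measure_mono_null hsub h0)
    unfold dens
    rw [integral_indicator_const _ (hT (q.measurableSet_fiber _)), Measure.real, hρT, smul_eq_mul]
    exact mul_div_cancel₀ _ (ENNReal.toReal_ne_zero.2 ⟨hM, measure_ne_top μ _⟩)

end oneSided

theorem dens_close {ρ : Measure (E d)} (q : SimpleFunc (E d) (E d))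
    (μ : Measure (E d)) (T : E d → E d) (hT : Measurable T) (hmap : ρ.map T = μ)
    (Y : Set (E d)) (hY : MeasurableSet Y) (hμY : μ Yᶜ = 0) (δ : ℝ)
    (hq : ∀ y ∈ Y, ‖q y - y‖ ≤ δ) :
    ∀ᵐ x ∂ρ, ∀ (u : E d) (c : ℝ), dens q μ T u c x ≠ 0 → ‖T x - u‖ ≤ δ := by
  have h1 : ∀ᵐ x ∂ρ, T x ∈ Y := by
    rw [ae_iff]
    rw [← hmap, Measure.map_apply hT hY.compl] at hμY
    exact hμY
  filter_upwards [h1] with x hx u c hne
  rw [dens_apply] at hne
  have hu : q (T x) = u := by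
    by_contra h
    exact hne (if_neg h)
  rw [← hu, norm_sub_rev]
  exact hq _ hx


/-- weighted finite Minkowski inequality. -/
theorem sqrt_sum_le {Λ : Type*} (L : Finset Λ) (m D g : Λ → ℝ) (c ε : ℝ) (hc : 0 ≤ c) (hε : 0 ≤ ε)
    (hm : ∀ l ∈ L, 0 ≤ m l) (hm1 : ∑ l ∈ L, m l ≤ 1) (hg : ∀ l ∈ L, 0 ≤ g l)
    (hD0 : ∀ l ∈ L, 0 ≤ D l) (hD : ∀ l ∈ L, D l ≤ g l + c) (hcost : ∑ l ∈ L, m l * g l ^ 2 ≤ ε ^ 2) :
    Real.sqrt (∑ l ∈ L, m l * D l ^ 2) ≤ ε + c := by
  have hm0 : 0 ≤ ∑ l ∈ L, m l := Finset.sum_nonneg hm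
  have hmg0 : 0 ≤ ∑ l ∈ L, m l * g l := Finset.sum_nonneg (fun l hl => mul_nonneg (hm l hl) (hg l hl))
  have hcs : (∑ l ∈ L, m l * g l) ^ 2 ≤ (∑ l ∈ L, m l) * ∑ l ∈ L, m l * g l ^ 2 := by
    apply Finset.sum_sq_le_sum_mul_sum_of_sq_le_mul L hm
      (fun l hl => mul_nonneg (hm l hl) (sq_nonneg _))
    intro l _
    apply le_of_eq
    ring
  have hq0 : 0 ≤ ∑ l ∈ L, m l * g l ^ 2 :=
    Finset.sum_nonneg (fun l hl => mul_nonneg (hm l hl) (sq_nonneg _))
  have hmg : ∑ l ∈ L, m l * g l ≤ ε := by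
    have h1 : (∑ l ∈ L, m l * g l) ^ 2 ≤ ε ^ 2 := by
      calc (∑ l ∈ L, m l * g l) ^ 2 ≤ (∑ l ∈ L, m l) * ∑ l ∈ L, m l * g l ^ 2 := hcs
        _ ≤ 1 * ∑ l ∈ L, m l * g l ^ 2 := mul_le_mul_of_nonneg_right hm1 hq0
        _ ≤ ε ^ 2 := by rw [one_mul]; exact hcost
    exact (sq_le_sq₀ hmg0 hε).1 h1
  have h2 : ∑ l ∈ L, m l * D l ^ 2 ≤ (ε + c) ^ 2 := by
    calc ∑ l ∈ L, m l * D l ^ 2 ≤ ∑ l ∈ L, m l * (g l + c) ^ 2 := by
          apply Finset.sum_le_sum
          intro l hl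
          exact mul_le_mul_of_nonneg_left (pow_le_pow_left₀ (hD0 l hl) (hD l hl) 2) (hm l hl)
      _ = ∑ l ∈ L, m l * g l ^ 2 + 2 * c * ∑ l ∈ L, m l * g l + c ^ 2 * ∑ l ∈ L, m l := by
          rw [Finset.mul_sum, Finset.mul_sum, ← Finset.sum_add_distrib, ← Finset.sum_add_distrib]
          apply Finset.sum_congr rfl
          intro l _
          ring
      _ ≤ ε ^ 2 + 2 * c * ε + c ^ 2 * 1 := by
          have h3 : 2 * c * ∑ l ∈ L, m l * g l ≤ 2 * c * ε :=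
            mul_le_mul_of_nonneg_left hmg (by positivity)
          have h4 : c ^ 2 * ∑ l ∈ L, m l ≤ c ^ 2 * 1 :=
            mul_le_mul_of_nonneg_left hm1 (by positivity)
          linarith
      _ = (ε + c) ^ 2 := by ring
  calc Real.sqrt (∑ l ∈ L, m l * D l ^ 2) ≤ Real.sqrt ((ε + c) ^ 2) := Real.sqrt_le_sqrt h2
    _ = ε + c := Real.sqrt_sq (by positivity)

/-- the pair rounding map. -/
def QQ (q : SimpleFunc (E d) (E d)) (p : E d × E d) : E d × E d := (q p.1, q p.2)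

theorem measurableSet_QQ (q : SimpleFunc (E d) (E d)) (l : E d × E d) :
    MeasurableSet (QQ q ⁻¹' {l}) := by
  have : QQ q ⁻¹' {l} = (q ⁻¹' {l.1}) ×ˢ (q ⁻¹' {l.2}) := by
    ext p
    simp [QQ, Prod.ext_iff]
  rw [this]
  exact (q.measurableSet_fiber _).prod (q.measurableSet_fiber _)

theorem cost_bound (π : Measure (E d × E d)) [IsProbabilityMeasure π] (Y : Set (E d))
    (hπY : ∀ᵐ p ∂π, p.1 ∈ Y ∧ p.2 ∈ Y)
    (q : SimpleFunc (E d) (E d)) (δ : ℝ) (hδ : 0 ≤ δ) (hq : ∀ y ∈ Y, ‖q y - y‖ ≤ δ)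
    (L : Finset (E d × E d)) (P0 P1 : E d × E d → E d) (hP0 : ∀ l ∈ L, ‖P0 l - l.1‖ ≤ δ)
    (hP1 : ∀ l ∈ L, ‖P1 l - l.2‖ ≤ δ) (ε : ℝ) (hε : 0 ≤ ε)
    (hcost : quadCost π ≤ ENNReal.ofReal (ε ^ 2)) :
    Real.sqrt (∑ l ∈ L, (π (QQ q ⁻¹' {l})).toReal * ‖P1 l - P0 l‖ ^ 2) ≤ ε + 4 * δ := by
  classical
  set g : E d × E d → ℝ := fun l => max (‖P1 l - P0 l‖ - 4 * δ) 0 with hg
  have hcell : ∀ l ∈ L, ENNReal.ofReal (g l ^ 2) * π (QQ q ⁻¹' {l})
      ≤ ∫⁻ p in QQ q ⁻¹' {l}, ‖p.1 - p.2‖ₑ ^ 2 ∂π := by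
    intro l hl
    rw [← setLIntegral_const]
    apply setLIntegral_mono_ae' (measurableSet_QQ q l)
    filter_upwards [hπY] with p hp hpl
    have hpl' : QQ q p = l := hpl
    have h1 : ‖q p.1 - p.1‖ ≤ δ := hq _ hp.1
    have h2 : ‖q p.2 - p.2‖ ≤ δ := hq _ hp.2
    have h3 : ‖P0 l - q p.1‖ ≤ δ := by have := hP0 l hl; rw [← hpl'] at this ⊢; exact this
    have h4 : ‖P1 l - q p.2‖ ≤ δ := by have := hP1 l hl; rw [← hpl'] at this ⊢; exact this
    have h5 : ‖P1 l - P0 l‖ ≤ ‖p.1 - p.2‖ + 4 * δ := by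
      have : P1 l - P0 l = (P1 l - q p.2) + (q p.2 - p.2) - (p.1 - p.2) - (q p.1 - p.1)
          - (P0 l - q p.1) := by abel
      rw [this]
      calc _ ≤ ‖(P1 l - q p.2) + (q p.2 - p.2) - (p.1 - p.2) - (q p.1 - p.1)‖ + ‖P0 l - q p.1‖ :=
            norm_sub_le _ _
        _ ≤ ‖(P1 l - q p.2) + (q p.2 - p.2) - (p.1 - p.2)‖ + ‖q p.1 - p.1‖ + ‖P0 l - q p.1‖ := by
            gcongr; exact norm_sub_le _ _
        _ ≤ ‖(P1 l - q p.2) + (q p.2 - p.2)‖ + ‖p.1 - p.2‖ + ‖q p.1 - p.1‖ + ‖P0 l - q p.1‖ := by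
            gcongr; exact norm_sub_le _ _
        _ ≤ ‖P1 l - q p.2‖ + ‖q p.2 - p.2‖ + ‖p.1 - p.2‖ + ‖q p.1 - p.1‖ + ‖P0 l - q p.1‖ := by
            gcongr; exact norm_add_le _ _
        _ ≤ ‖p.1 - p.2‖ + 4 * δ := by linarith
    have h6 : g l ≤ ‖p.1 - p.2‖ := by
      rw [hg]
      exact max_le (by linarith) (norm_nonneg _)
    have h7 : 0 ≤ g l := le_max_right _ _
    rw [← ofReal_norm, ← ENNReal.ofReal_pow (norm_nonneg _)]
    exact ENNReal.ofReal_le_ofReal (pow_le_pow_left₀ h7 h6 2)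
  have hsum : ∑ l ∈ L, ENNReal.ofReal (g l ^ 2) * π (QQ q ⁻¹' {l}) ≤ ENNReal.ofReal (ε ^ 2) := by
    calc ∑ l ∈ L, ENNReal.ofReal (g l ^ 2) * π (QQ q ⁻¹' {l})
        ≤ ∑ l ∈ L, ∫⁻ p in QQ q ⁻¹' {l}, ‖p.1 - p.2‖ₑ ^ 2 ∂π := Finset.sum_le_sum hcell
      _ = ∫⁻ p in ⋃ l ∈ L, QQ q ⁻¹' {l}, ‖p.1 - p.2‖ₑ ^ 2 ∂π := by
          rw [lintegral_biUnion_finset (Set.pairwiseDisjoint_fiber (QQ q) _)
            (fun l _ => measurableSet_QQ q l)]
      _ ≤ ∫⁻ p, ‖p.1 - p.2‖ₑ ^ 2 ∂π := setLIntegral_le_lintegral _ _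
      _ ≤ ENNReal.ofReal (ε ^ 2) := hcost
  have hreal : ∑ l ∈ L, (π (QQ q ⁻¹' {l})).toReal * g l ^ 2 ≤ ε ^ 2 := by
    have h1 := ENNReal.toReal_mono ENNReal.ofReal_ne_top hsum
    rw [ENNReal.toReal_ofReal (sq_nonneg _), ENNReal.toReal_sum
      (fun l _ => ENNReal.mul_ne_top ENNReal.ofReal_ne_top (measure_ne_top π _))] at h1
    refine le_trans (le_of_eq ?_) h1
    apply Finset.sum_congr rfl
    intro l _
    rw [ENNReal.toReal_mul, ENNReal.toReal_ofReal (sq_nonneg _), mul_comm]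
  have hm1 : ∑ l ∈ L, (π (QQ q ⁻¹' {l})).toReal ≤ 1 := by
    rw [← ENNReal.toReal_sum (fun l _ => measure_ne_top π _),
      sum_measure_preimage_singleton _ (fun l _ => measurableSet_QQ q l)]
    have := ENNReal.toReal_mono ENNReal.one_ne_top (prob_le_one (μ := π) (s := QQ q ⁻¹' ↑L))
    simpa using this
  refine sqrt_sum_le L _ (fun l => ‖P1 l - P0 l‖) g (4 * δ) ε (by positivity) hε
    (fun l _ => ENNReal.toReal_nonneg) hm1 (fun l _ => le_max_right _ _)
    (fun l _ => norm_nonneg _) (fun l _ => ?_) hreal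
  have : ‖P1 l - P0 l‖ - 4 * δ ≤ g l := le_max_left _ _
  linarith


theorem discretizable {K : Set (E d)} (hρ : IsProbabilityMeasure (unif K))
    (Y : Set (E d)) (hYc : IsCompact Y)
    (μ ν : Measure (E d)) (hμ : μ Yᶜ = 0) (hν : ν Yᶜ = 0)
    (T0 T1 : E d → E d) (hT0 : Measurable T0) (hT1 : Measurable T1)
    (h0 : (unif K).map T0 = μ) (h1 : (unif K).map T1 = ν)
    (π : Measure (E d × E d)) (hπ : IsPairCoupling μ ν π) (ε : ℝ) (hε : 0 ≤ ε)
    (hcost : quadCost π ≤ ENNReal.ofReal (ε ^ 2)) : Discretizable K T0 T1 ε := by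
  classical
  intro δ hδ
  have hYm : MeasurableSet Y := hYc.measurableSet
  have hδ4 : 0 < δ / 4 := by positivity
  obtain ⟨q, hq⟩ := exists_rounding Y hYc (δ / 4) hδ4
  have hμp : IsProbabilityMeasure μ := by
    rw [← h0]; exact Measure.isProbabilityMeasure_map hT0.aemeasurable
  have hπp : IsProbabilityMeasure π := by
    constructor
    have h1 : μ Set.univ = 1 := measure_univ
    rw [← hπ.1, Measure.map_apply measurable_fst MeasurableSet.univ] at h1
    simpa using h1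
  set S0 : Finset (E d × E d) := q.range ×ˢ q.range with hS0def
  have hS0 : ∀ p, QQ q p ∈ S0 := fun p =>
    Finset.mem_product.2 ⟨SimpleFunc.mem_range_self _ _, SimpleFunc.mem_range_self _ _⟩
  set L : Finset (E d × E d) := S0.filter (fun l => π (QQ q ⁻¹' {l}) ≠ 0) with hL
  set mL : E d × E d → ℝ := fun l => (π (QQ q ⁻¹' {l})).toReal with hmL
  obtain ⟨hs0, hi0⟩ := oneSided (ρ := unif K) q μ T0 hT0 h0 π Prod.fst measurable_fst hπ.1 (QQ q)
    (measurableSet_QQ q) S0 hS0 Prod.fst (fun _ => rfl)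
  obtain ⟨hs1, hi1⟩ := oneSided (ρ := unif K) q ν T1 hT1 h1 π Prod.snd measurable_snd hπ.2 (QQ q)
    (measurableSet_QQ q) S0 hS0 Prod.snd (fun _ => rfl)
  have hc0 := dens_close (ρ := unif K) q μ T0 hT0 h0 Y hYm hμ (δ / 4) hq
  have hc1 := dens_close (ρ := unif K) q ν T1 hT1 h1 Y hYm hν (δ / 4) hq
  -- the perturbation
  set B : ℝ := ∑ l ∈ L, (‖l.1‖ + ‖l.2‖) with hB
  have hB0 : 0 ≤ B := Finset.sum_nonneg (fun l _ => by positivity)
  have hBl : ∀ l ∈ L, ‖l.1‖ + ‖l.2‖ ≤ B := fun l hl =>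
    Finset.single_le_sum (f := fun l : E d × E d => ‖l.1‖ + ‖l.2‖) (fun l _ => by positivity) hl
  obtain ⟨κ, hκ0, hκ1, hinj0, hinj1⟩ := exists_kappa L (δ / 4 / (B + 1)) (by positivity)
  have hκB : κ * B ≤ δ / 4 := by
    calc κ * B ≤ δ / 4 / (B + 1) * B := mul_le_mul_of_nonneg_right hκ1 hB0
      _ = δ / 4 * (B / (B + 1)) := by ring
      _ ≤ δ / 4 * 1 := by
          apply mul_le_mul_of_nonneg_left _ hδ4.le
          rw [div_le_one (by positivity)]
          linarith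
      _ = δ / 4 := mul_one _
  set P0 : E d × E d → E d := fun p => p.1 + κ • p.2 with hP0
  set P1 : E d × E d → E d := fun p => p.2 + κ • p.1 with hP1
  have hP0c : ∀ l ∈ L, ‖P0 l - l.1‖ ≤ δ / 4 := by
    intro l hl
    have : P0 l - l.1 = κ • l.2 := by simp [hP0]
    rw [this, norm_smul, Real.norm_of_nonneg hκ0.le]
    have h2 : ‖l.2‖ ≤ B := le_trans (by linarith [norm_nonneg l.1]) (hBl l hl)
    exact le_trans (mul_le_mul_of_nonneg_left h2 hκ0.le) hκB
  have hP1c : ∀ l ∈ L, ‖P1 l - l.2‖ ≤ δ / 4 := by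
    intro l hl
    have : P1 l - l.2 = κ • l.1 := by simp [hP1]
    rw [this, norm_smul, Real.norm_of_nonneg hκ0.le]
    have h2 : ‖l.1‖ ≤ B := le_trans (by linarith [norm_nonneg l.2]) (hBl l hl)
    exact le_trans (mul_le_mul_of_nonneg_left h2 hκ0.le) hκB
  have hπY : ∀ᵐ p ∂π, p.1 ∈ Y ∧ p.2 ∈ Y := by
    have ha : ∀ᵐ p ∂π, p.1 ∈ Y := by
      rw [ae_iff]
      have := hμ
      rw [← hπ.1, Measure.map_apply measurable_fst hYm.compl] at this
      exact this
    have hb : ∀ᵐ p ∂π, p.2 ∈ Y := by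
      rw [ae_iff]
      have := hν
      rw [← hπ.2, Measure.map_apply measurable_snd hYm.compl] at this
      exact this
    filter_upwards [ha, hb] with p h1 h2 using ⟨h1, h2⟩
  have hcb := cost_bound π Y hπY q (δ / 4) hδ4.le hq L P0 P1 hP0c hP1c ε hε hcost
  have hmpos : ∀ l ∈ L, 0 < mL l := fun l hl =>
    ENNReal.toReal_pos (Finset.mem_filter.1 hl).2 (measure_ne_top π _)
  have hmsum : ∑ l ∈ L, mL l = 1 := by
    have h1 : ∑ l ∈ L, mL l = ∑ l ∈ S0, mL l := by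
      apply Finset.sum_filter_of_ne
      intro l _ hne hzero
      apply hne
      simp [hmL, hzero]
    rw [h1, hmL, ← ENNReal.toReal_sum (fun l _ => measure_ne_top π _),
      sum_measure_preimage_singleton _ (fun l _ => measurableSet_QQ q l)]
    have : QQ q ⁻¹' (↑S0 : Set (E d × E d)) = Set.univ := by
      ext p; simpa using hS0 p
    rw [this, measure_univ, ENNReal.toReal_one]
  set e : Fin L.card ≃ L := L.equivFin.symm with he
  refine ⟨L.card, fun i => mL (e i), fun i => P0 (e i), fun i => P1 (e i),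
    fun i => dens q μ T0 (e i : E d × E d).1 (mL (e i)),
    fun i => dens q ν T1 (e i : E d × E d).2 (mL (e i)), ?_, ?_, ?_, ?_, ?_, ?_, ?_, ?_, ?_⟩
  · exact fun i => hmpos _ (e i).2
  · rw [← hmsum]; exact sum_reindex L mL
  · intro i j hij
    exact e.injective (Subtype.ext (hinj0 (e i).2 (e j).2 hij))
  · intro i j hij
    exact e.injective (Subtype.ext (hinj1 (e i).2 (e j).2 hij))
  · refine ⟨fun i => measurable_dens q μ T0 hT0 _ _,
      fun i x => dens_nonneg q μ T0 _ _ ENNReal.toReal_nonneg x, ?_, fun i => hi0 _ (e i).2⟩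
    filter_upwards [hs0] with x hx
    rw [← hx]
    exact sum_reindex L (fun l => dens q μ T0 l.1 (mL l) x)
  · refine ⟨fun i => measurable_dens q ν T1 hT1 _ _,
      fun i x => dens_nonneg q ν T1 _ _ ENNReal.toReal_nonneg x, ?_, fun i => hi1 _ (e i).2⟩
    filter_upwards [hs1] with x hx
    rw [← hx]
    exact sum_reindex L (fun l => dens q ν T1 l.2 (mL l) x)
  · filter_upwards [hc0] with x hx i hne
    have h2 := hx _ _ hne
    have h3 := hP0c _ (e i).2
    calc ‖T0 x - P0 (e i)‖ = ‖(T0 x - (e i : E d × E d).1) - (P0 (e i) - (e i : E d × E d).1)‖ := by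
          congr 1; abel
      _ ≤ ‖T0 x - (e i : E d × E d).1‖ + ‖P0 (e i) - (e i : E d × E d).1‖ := norm_sub_le _ _
      _ ≤ δ := by linarith
  · filter_upwards [hc1] with x hx i hne
    have h2 := hx _ _ hne
    have h3 := hP1c _ (e i).2
    calc ‖T1 x - P1 (e i)‖ = ‖(T1 x - (e i : E d × E d).2) - (P1 (e i) - (e i : E d × E d).2)‖ := by
          congr 1; abel
      _ ≤ ‖T1 x - (e i : E d × E d).2‖ + ‖P1 (e i) - (e i : E d × E d).2‖ := norm_sub_le _ _
      _ ≤ δ := by linarith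
  · have h2 : ∑ i : Fin L.card, mL (e i) * ‖P1 (e i) - P0 (e i)‖ ^ 2
        = ∑ l ∈ L, mL l * ‖P1 l - P0 l‖ ^ 2 :=
      sum_reindex L (fun l => mL l * ‖P1 l - P0 l‖ ^ 2)
    rw [h2]
    refine hcb.trans (le_of_eq ?_)
    ring


theorem exists_injective_perturbation (hd : 0 < d) (N : ℕ) (q : Fin N → E d) (δ : ℝ) (hδ : 0 < δ) :
    ∃ q' : Fin N → E d, Function.Injective q' ∧ ∀ i, ‖q' i - q i‖ ≤ δ := by
  classical
  set w : E d := EuclideanSpace.single ⟨0, hd⟩ (1 : ℝ) with hw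
  have hw1 : ‖w‖ = 1 := by simp [hw]
  have hw0 : w ≠ 0 := by
    intro h; rw [h, norm_zero] at hw1; exact zero_ne_one hw1
  set f : Fin N → E d × E d := fun i => (q i, ((i : ℕ) : ℝ) • w) with hf
  have hfinj : Function.Injective f := by
    intro i j hij
    have h2 : (((i : ℕ) : ℝ)) • w = ((j : ℕ) : ℝ) • w := (Prod.ext_iff.1 hij).2
    have h3 : ((i : ℕ) : ℝ) = ((j : ℕ) : ℝ) := smul_left_injective ℝ hw0 h2
    exact Fin.ext (by exact_mod_cast h3)
  obtain ⟨κ, hκ0, hκ1, hinj, -⟩ := exists_kappa (Finset.univ.image f) (δ / (N + 1)) (by positivity)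
  refine ⟨fun i => (f i).1 + κ • (f i).2, ?_, ?_⟩
  · intro i j hij
    exact hfinj (hinj (by simp) (by simp) hij)
  · intro i
    have : (f i).1 + κ • (f i).2 - q i = κ • (((i : ℕ) : ℝ) • w) := by simp [hf]
    rw [this, norm_smul, norm_smul, hw1, mul_one, Real.norm_of_nonneg hκ0.le,
      Real.norm_of_nonneg (Nat.cast_nonneg _)]
    have hi : ((i : ℕ) : ℝ) ≤ N + 1 := by
      have : (i : ℕ) ≤ N := i.2.le
      have h' : ((i : ℕ) : ℝ) ≤ (N : ℝ) := by exact_mod_cast this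
      linarith
    calc κ * ((i : ℕ) : ℝ) ≤ δ / (N + 1) * (N + 1) :=
          mul_le_mul hκ1 hi (Nat.cast_nonneg _) (by positivity)
      _ = δ := by field_simp

end Crest.Agent.OT.Disc
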