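import Crest.Agent.OT.Basic
import Crest.Agent.OT.DiscAux

/-! # Task DISC: discretisation of a coupling. -/

set_option autoImplicit false
open MeasureTheory
open scoped ENNReal NNReal RealInnerProductSpace
open Crest.AnalysisR.OT

namespace Crest.Agent.OT
variable {d : ℕ} {K : Set (E d)} {x₀ : E d} {r₀ r : ℝ}

/-- DISC-1: a finite family of points can be made injective by an arbitrarily small perturbation
(needs `0 < d`). -/
theorem exists_injective_perturbation (hd : 0 < d) (N : ℕ) (q : Fin N → E d) (δ : ℝ) (hδ : 0 < δ) :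
    ∃ q' : Fin N → E d, Function.Injective q' ∧ ∀ i, ‖q' i - q i‖ ≤ δ :=
  Disc.exists_injective_perturbation hd N q δ hδ

/-- DISC. Finite Borel partition `E_j` of `Y` of diameter `≤ δ/2`, labels `(j,k)` with
`π (E_j ×ˢ E_k) > 0`, `a0 (j,k) = 1_{T0⁻¹ E_j} * π (E_j ×ˢ E_k) / μ E_j`, etc. -/
theorem discretizable (hd : 0 < d) (hK : Body K x₀ r₀ r) (Y : Set (E d)) (hYc : IsCompact Y)
    (μ ν : Measure (E d)) (hμ : IsProbabilityOn Y μ) (hν : IsProbabilityOn Y ν)
    (T0 T1 : E d → E d) (hT0 : Measurable T0) (hT1 : Measurable T1)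
    (h0 : (unif K).map T0 = μ) (h1 : (unif K).map T1 = ν)
    (π : Measure (E d × E d)) (hπ : IsPairCoupling μ ν π) (ε : ℝ) (hε : 0 ≤ ε)
    (hcost : quadCost π ≤ ENNReal.ofReal (ε ^ 2)) : Discretizable K T0 T1 ε :=
  Disc.discretizable hK.isProbabilityMeasure Y hYc μ ν hμ.2 hν.2 T0 T1 hT0 hT1 h0 h1 π hπ ε hε hcost

end Crest.Agent.OT
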