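import Mathlib

/-! # Row 82, task FB: pure real algebra lemmas requested by helper23 (#337). -/

set_option autoImplicit false

namespace Crest.Agent.OT.FB

theorem alg_cell (p q m X w : ℝ) (hm : 0 < m) (hp : 0.99 * m ≤ p) (hq : 0.66 * m ≤ q)
    (hw : 0 ≤ w) (hX : 0 ≤ X) (h : p * q * Real.exp (2 * w) ≤ X ^ 2) :
    (p + q) / 2 - (p - q) ^ 2 / (3.3 * m) + 0.66 * m * w ≤ X := by
  have hp0 : 0 < p := by nlinarith
  have hq0 : 0 < q := by nlinarith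
  obtain ⟨a, ha0, rfl⟩ : ∃ a : ℝ, 0 < a ∧ p = a ^ 2 :=
    ⟨Real.sqrt p, Real.sqrt_pos.2 hp0, (Real.sq_sqrt hp0.le).symm⟩
  obtain ⟨b, hb0, rfl⟩ : ∃ b : ℝ, 0 < b ∧ q = b ^ 2 :=
    ⟨Real.sqrt q, Real.sqrt_pos.2 hq0, (Real.sq_sqrt hq0.le).symm⟩
  have hexp : Real.exp (2 * w) = Real.exp w ^ 2 := by
    rw [← Real.exp_nat_mul]; push_cast; ring_nf
  have h1 : (a * b * Real.exp w) ^ 2 ≤ X ^ 2 := by
    rw [hexp] at h; nlinarith [h]
  have h2 : a * b * Real.exp w ≤ X := by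
    have := abs_le_of_sq_le_sq h1 hX
    exact (le_abs_self _).trans this
  have h3 : a * b * (1 + w) ≤ a * b * Real.exp w := by
    have := Real.add_one_le_exp w
    have hab : 0 < a * b := mul_pos ha0 hb0
    nlinarith
  have hab : 0.66 * m ≤ a * b := by
    have h4 : (0.66 * m) ^ 2 ≤ (a * b) ^ 2 := by nlinarith
    have := abs_le_of_sq_le_sq h4 (mul_pos ha0 hb0).le
    exact (le_abs_self _).trans this
  have h5 : (a - b) ^ 2 / 2 ≤ (a ^ 2 - b ^ 2) ^ 2 / (3.3 * m) := by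
    rw [le_div_iff₀ (by positivity)]
    have e : (a ^ 2 - b ^ 2) ^ 2 = (a - b) ^ 2 * (a + b) ^ 2 := by ring
    rw [e]
    have h6 : 1.65 * m ≤ (a + b) ^ 2 := by nlinarith [mul_pos ha0 hb0]
    nlinarith [sq_nonneg (a - b)]
  nlinarith [mul_nonneg (sub_nonneg.2 hab) hw]

theorem alg_closure (p q m H D : ℝ) (hm : 0 < m) (hp0 : 0 < p) (hp : p ≤ m) (hq0 : 0 < q)
    (hq : q ≤ 2 * m) (hD : D = m / p - (m - H) / q) :
    (p - q) ^ 2 / m ≤ 8 * m * D ^ 2 + 2 * H ^ 2 / m := by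
  have h1 : m * (q - p) = D * (p * q) - H * p := by
    rw [hD]; field_simp; ring
  have h2 : (m * (q - p)) ^ 2 ≤ 2 * (D * (p * q)) ^ 2 + 2 * (H * p) ^ 2 := by
    rw [h1]; nlinarith [sq_nonneg (D * (p * q) + H * p)]
  have h3 : (p * q) ^ 2 ≤ (m * (2 * m)) ^ 2 := by
    have : p * q ≤ m * (2 * m) := mul_le_mul hp hq hq0.le hm.le
    exact pow_le_pow_left₀ (mul_pos hp0 hq0).le this 2
  have h4 : p ^ 2 ≤ m ^ 2 := pow_le_pow_left₀ hp0.le hp 2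
  have h5 : (m * (q - p)) ^ 2 ≤ 8 * m ^ 4 * D ^ 2 + 2 * H ^ 2 * m ^ 2 := by
    have e1 : (D * (p * q)) ^ 2 = D ^ 2 * (p * q) ^ 2 := by ring
    have e2 : (H * p) ^ 2 = H ^ 2 * p ^ 2 := by ring
    rw [e1, e2] at h2
    nlinarith [mul_le_mul_of_nonneg_left h3 (sq_nonneg D), mul_le_mul_of_nonneg_left h4 (sq_nonneg H)]
  have e3 : 8 * m * D ^ 2 + 2 * H ^ 2 / m = (8 * m ^ 2 * D ^ 2 + 2 * H ^ 2) / m := by
    field_simp
  rw [e3]
  apply div_le_div_of_nonneg_right _ hm.le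
  have hm2 : 0 < m ^ 2 := by positivity
  have : m ^ 2 * (p - q) ^ 2 ≤ m ^ 2 * (8 * m ^ 2 * D ^ 2 + 2 * H ^ 2) := by nlinarith [h5]
  exact le_of_mul_le_mul_left this hm2

end Crest.Agent.OT.FB
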