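import Crest.Agent.OT.FBTilt

/-! # Task FB, part 2: Jensen and the per-cell inequality. -/

set_option autoImplicit false
open MeasureTheory
open scoped ENNReal NNReal RealInnerProductSpace
open Crest.AnalysisR.OT

namespace Crest.Agent.OT.FB
variable {d : ℕ} {K : Set (E d)} {x₀ : E d} {r₀ r : ℝ}

theorem integrable_of_bddK (hK : Body K x₀ r₀ r) (F : E d → ℝ) (hF : Measurable F) (C : ℝ)
    (hC : ∀ x ∈ K, |F x| ≤ C) : Integrable F (unif K) := by
  refine hK.integrable_of_bdd F hF.aestronglyMeasurable C ?_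
  filter_upwards [hK.ae_mem] with x hx
  simpa using hC x hx

/-- Jensen for `exp` by the tangent line. -/
theorem jensen_exp (hK : Body K x₀ r₀ r) (κ : ℝ) (hκ : 0 ≤ κ) (S : Set (E d))
    (u : E d → ℝ) (hu : Measurable u) (C : ℝ) (hC : ∀ x ∈ K, |u x| ≤ C)
    (hp : 0 < ∫ x in S, gw κ x ∂(unif K)) :
    (∫ x in S, gw κ x ∂(unif K)) *
        Real.exp ((∫ x in S, u x * gw κ x ∂(unif K)) / (∫ x in S, gw κ x ∂(unif K)))
      ≤ ∫ x in S, gw κ x * Real.exp (u x) ∂(unif K) := by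
  set p := ∫ x in S, gw κ x ∂(unif K) with hpdef
  set a := ∫ x in S, u x * gw κ x ∂(unif K) with hadef
  set u0 := a / p with hu0
  have iG : Integrable (gw κ) (unif K) := by
    refine integrable_of_bddK hK _ (measurable_gw κ) 1 ?_
    intro x _
    rw [abs_of_nonneg (gw_pos κ x).le]
    exact gw_le_one κ hκ x
  have iuG : Integrable (fun x => u x * gw κ x) (unif K) := by
    refine integrable_of_bddK hK _ (hu.mul (measurable_gw κ)) (C * 1) ?_
    intro x hx
    rw [abs_mul, abs_of_nonneg (gw_pos κ x).le]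
    exact mul_le_mul (hC x hx) (gw_le_one κ hκ x) (gw_pos κ x).le
      (le_trans (abs_nonneg _) (hC x hx))
  have iGe : Integrable (fun x => gw κ x * Real.exp (u x)) (unif K) := by
    refine integrable_of_bddK hK _ ((measurable_gw κ).mul hu.exp) (1 * Real.exp C) ?_
    intro x hx
    rw [abs_of_nonneg (mul_nonneg (gw_pos κ x).le (Real.exp_pos _).le)]
    exact mul_le_mul (gw_le_one κ hκ x)
      (Real.exp_le_exp.mpr (le_trans (le_abs_self _) (hC x hx))) (Real.exp_pos _).le zero_le_one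
  have hpt : ∀ x, Real.exp u0 * (gw κ x + (u x * gw κ x - u0 * gw κ x))
      ≤ gw κ x * Real.exp (u x) := by
    intro x
    have h1 : (u x - u0) + 1 ≤ Real.exp (u x - u0) := Real.add_one_le_exp _
    have h2 : Real.exp (u x) = Real.exp u0 * Real.exp (u x - u0) := by
      rw [← Real.exp_add]; congr 1; ring
    rw [h2]
    have h3 : 0 < Real.exp u0 * gw κ x := mul_pos (Real.exp_pos _) (gw_pos κ x)
    nlinarith [mul_le_mul_of_nonneg_left h1 h3.le]
  have hint : ∫ x in S, Real.exp u0 * (gw κ x + (u x * gw κ x - u0 * gw κ x)) ∂(unif K)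
      = Real.exp u0 * (p + (a - u0 * p)) := by
    have i1 : IntegrableOn (fun x => gw κ x) S (unif K) := iG.integrableOn
    have i2 : IntegrableOn (fun x => u x * gw κ x) S (unif K) := iuG.integrableOn
    have i3 : IntegrableOn (fun x => u0 * gw κ x) S (unif K) := iG.integrableOn.const_mul u0
    have i4 : IntegrableOn (fun x => u x * gw κ x - u0 * gw κ x) S (unif K) := i2.sub i3
    rw [integral_const_mul, integral_add i1 i4, integral_sub i2 i3, integral_const_mul]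
  have hmono : ∫ x in S, Real.exp u0 * (gw κ x + (u x * gw κ x - u0 * gw κ x)) ∂(unif K)
      ≤ ∫ x in S, gw κ x * Real.exp (u x) ∂(unif K) := by
    apply integral_mono _ iGe.integrableOn hpt
    exact (iG.integrableOn.add ((iuG.integrableOn).sub (iG.integrableOn.const_mul u0))).const_mul _
  rw [hint] at hmono
  have hz : a - u0 * p = 0 := by
    rw [hu0]; field_simp; ring
  rw [hz, add_zero, mul_comm] at hmono
  exact hmono

/-- the per-cell inequality. -/
theorem cell_ineq (hK : Body K x₀ r₀ r) (κ : ℝ) (hκ : 0 < κ) (A B M : Set (E d))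
    (hA : MeasurableSet A) (hB : MeasurableSet B) (hM : MeasurableSet M)
    (hAK : A ⊆ K) (hBK : B ⊆ K) (hMK : M ⊆ K)
    (hmid : ∀ x ∈ A, ∀ y ∈ B, (1 / 2 : ℝ) • (x + y) ∈ M)
    (θ : E d → ℝ) (hθ : Measurable θ) (L : ℝ) (hLpos : 0 < L)
    (hL : ∀ x ∈ K, ∀ y ∈ K, |θ x - θ y| ≤ L * ‖x - y‖)
    (hp : 0 < ∫ x in A, gw κ x ∂(unif K)) (hq : 0 < ∫ x in B, gw κ x ∂(unif K)) :
    (∫ x in A, gw κ x ∂(unif K)) * (∫ x in B, gw κ x ∂(unif K)) *
      Real.exp (κ * ((∫ x in A, θ x * gw κ x ∂(unif K)) / (∫ x in A, gw κ x ∂(unif K))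
        - (∫ x in B, θ x * gw κ x ∂(unif K)) / (∫ x in B, gw κ x ∂(unif K))) ^ 2 / (4 * L ^ 2))
      ≤ (∫ x in M, gw κ x ∂(unif K)) ^ 2 := by
  set p := ∫ x in A, gw κ x ∂(unif K) with hpdef
  set q := ∫ x in B, gw κ x ∂(unif K) with hqdef
  set a := ∫ x in A, θ x * gw κ x ∂(unif K) with hadef
  set b := ∫ x in B, θ x * gw κ x ∂(unif K) with hbdef
  set X := ∫ x in M, gw κ x ∂(unif K) with hXdef
  set D := a / p - b / q with hD
  set t := κ * D / (2 * L ^ 2) with ht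
  -- boundedness of θ on K
  have hθb : ∀ x ∈ K, |θ x| ≤ |θ x₀| + L * (2 * r) := by
    intro x hx
    have h1 := hL x hx x₀ (x₀_mem hK)
    have h2 : ‖x - x₀‖ ≤ 2 * r := by
      calc ‖x - x₀‖ ≤ ‖x‖ + ‖x₀‖ := norm_sub_le _ _
        _ ≤ r + r := add_le_add (hK.sub_ball x hx) (hK.sub_ball x₀ (x₀_mem hK))
        _ = 2 * r := by ring
    have h3 : |θ x| ≤ |θ x₀| + |θ x - θ x₀| := by
      have := abs_add_le (θ x₀) (θ x - θ x₀)
      simpa using this
    have h4 : L * ‖x - x₀‖ ≤ L * (2 * r) := mul_le_mul_of_nonneg_left h2 hLpos.le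
    linarith
  set Cθ := |θ x₀| + L * (2 * r) with hCθ
  have hub : ∀ x ∈ K, |t * θ x| ≤ |t| * Cθ := by
    intro x hx
    rw [abs_mul]
    exact mul_le_mul_of_nonneg_left (hθb x hx) (abs_nonneg t)
  have hub' : ∀ x ∈ K, |-(t * θ x)| ≤ |t| * Cθ := by
    intro x hx
    rw [abs_neg]; exact hub x hx
  have hLu : ∀ x ∈ K, ∀ y ∈ K, t * θ x - t * θ y ≤ (|t| * L) * ‖x - y‖ := by
    intro x hx y hy
    calc t * θ x - t * θ y = t * (θ x - θ y) := by ring
      _ ≤ |t * (θ x - θ y)| := le_abs_self _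
      _ = |t| * |θ x - θ y| := abs_mul _ _
      _ ≤ |t| * (L * ‖x - y‖) := mul_le_mul_of_nonneg_left (hL x hx y hy) (abs_nonneg t)
      _ = (|t| * L) * ‖x - y‖ := by ring
  have hpl := pl_tilt hK κ hκ A B M hA hB hM hAK hBK hMK hmid (fun x => t * θ x)
    (hθ.const_mul t) (|t| * L) hLu
  have hj1 := jensen_exp hK κ hκ.le A (fun x => t * θ x) (hθ.const_mul t) _ hub hp
  have hj2 := jensen_exp hK κ hκ.le B (fun x => -(t * θ x)) (hθ.const_mul t).neg _ hub' hq
  have ea : ∫ x in A, t * θ x * gw κ x ∂(unif K) = t * a := by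
    rw [hadef, ← integral_const_mul]; congr 1; ext x; ring
  have eb : ∫ x in B, -(t * θ x) * gw κ x ∂(unif K) = -(t * b) := by
    rw [hbdef, ← integral_const_mul, ← integral_neg]; congr 1; ext x; ring
  rw [ea] at hj1
  rw [eb] at hj2
  have hprod : (p * Real.exp (t * a / p)) * (q * Real.exp (-(t * b) / q))
      ≤ Real.exp ((|t| * L) ^ 2 / κ) * X ^ 2 := by
    refine le_trans (mul_le_mul hj1 hj2 ?_ ?_) hpl
    · exact mul_nonneg hq.le (Real.exp_pos _).le
    · exact le_trans (mul_nonneg hp.le (Real.exp_pos _).le) hj1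
  have hexp : Real.exp (κ * D ^ 2 / (4 * L ^ 2)) * Real.exp ((|t| * L) ^ 2 / κ)
      = Real.exp (t * a / p) * Real.exp (-(t * b) / q) := by
    rw [← Real.exp_add, ← Real.exp_add]
    congr 1
    rw [mul_pow, sq_abs, ht, hD]
    field_simp
    ring
  have hpos : 0 < Real.exp ((|t| * L) ^ 2 / κ) := Real.exp_pos _
  have : (p * q * Real.exp (κ * D ^ 2 / (4 * L ^ 2))) * Real.exp ((|t| * L) ^ 2 / κ)
      ≤ X ^ 2 * Real.exp ((|t| * L) ^ 2 / κ) := by
    calc (p * q * Real.exp (κ * D ^ 2 / (4 * L ^ 2))) * Real.exp ((|t| * L) ^ 2 / κ)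
        = p * q * (Real.exp (κ * D ^ 2 / (4 * L ^ 2)) * Real.exp ((|t| * L) ^ 2 / κ)) := by ring
      _ = (p * Real.exp (t * a / p)) * (q * Real.exp (-(t * b) / q)) := by rw [hexp]; ring
      _ ≤ Real.exp ((|t| * L) ^ 2 / κ) * X ^ 2 := hprod
      _ = X ^ 2 * Real.exp ((|t| * L) ^ 2 / κ) := mul_comm _ _
  exact le_of_mul_le_mul_right this hpos

end Crest.Agent.OT.FB
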