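import Crest.Agent.OT.FBFinal

/-! # Task FB, part 6: assembly of the F-bound. -/

set_option autoImplicit false
open MeasureTheory
open scoped ENNReal NNReal RealInnerProductSpace
open Crest.AnalysisR.OT

namespace Crest.Agent.OT.FB
variable {d : ℕ} {K : Set (E d)} {x₀ : E d} {r₀ r : ℝ} {N : ℕ}

theorem measurable_inner_right (e : E d) : Measurable (fun x : E d => ⟪x, e⟫) :=
  (continuous_id.inner continuous_const).measurable

theorem abs_inner_le (hK : Body K x₀ r₀ r) (hr : 0 < r) (e : E d) (he : ‖e‖ ≤ 1) (x : E d)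
    (hx : x ∈ K) : |⟪x, e⟫| ≤ r := by
  calc |⟪x, e⟫| ≤ ‖x‖ * ‖e‖ := abs_real_inner_le_norm _ _
    _ ≤ r * 1 := mul_le_mul (hK.sub_ball x hx) he (norm_nonneg _) hr.le
    _ = r := mul_one _

/-- the component of the barycentre displacement in direction `e`. -/
theorem inner_bary (hK : Body K x₀ r₀ r) (hr : 0 < r) (A B : Set (E d)) (η : E d → ℝ)
    (hη : Measurable η) (hηb : ∀ x, |η x| ≤ 1 / 2) (e : E d) (he : ‖e‖ ≤ 1) :
    ⟪(∫ x in B, (1 + η x) • x ∂(unif K)) - ∫ x in A, x ∂(unif K), e⟫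
      = (∫ x in B, η x * ⟪x, e⟫ ∂(unif K)) + (∫ x in B, ⟪x, e⟫ ∂(unif K))
        - ∫ x in A, ⟪x, e⟫ ∂(unif K) := by
  have ix : Integrable (fun x : E d => x) (unif K) := by
    refine hK.integrable_of_bdd _ measurable_id.aestronglyMeasurable r ?_
    filter_upwards [hK.ae_mem] with x hx
    exact hK.sub_ball x hx
  have ihx : Integrable (fun x : E d => (1 + η x) • x) (unif K) := by
    refine hK.integrable_of_bdd _ ((measurable_const.add hη).smul measurable_id).aestronglyMeasurable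
      (2 * r) ?_
    filter_upwards [hK.ae_mem] with x hx
    rw [norm_smul]
    have h1 : ‖1 + η x‖ ≤ 2 := by
      rw [Real.norm_eq_abs]
      have := abs_le.mp (hηb x)
      rw [abs_le]; constructor <;> linarith
    exact mul_le_mul h1 (hK.sub_ball x hx) (norm_nonneg _) (by norm_num)
  have ie : Integrable (fun x : E d => ⟪x, e⟫) (unif K) :=
    integrable_of_bddK hK _ (measurable_inner_right e) r (fun x hx => abs_inner_le hK hr e he x hx)
  have ihe : Integrable (fun x : E d => η x * ⟪x, e⟫) (unif K) := by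
    refine integrable_of_bddK hK _ (hη.mul (measurable_inner_right e)) (1 / 2 * r) ?_
    intro x hx
    rw [abs_mul]
    exact mul_le_mul (hηb x) (abs_inner_le hK hr e he x hx) (abs_nonneg _) (by norm_num)
  rw [inner_sub_left, real_inner_comm, real_inner_comm e (∫ x in A, x ∂(unif K)),
    ← integral_inner ihx.integrableOn e, ← integral_inner ix.integrableOn e]
  have e1 : ∫ x in B, ⟪e, (1 + η x) • x⟫ ∂(unif K)
      = ∫ x in B, (η x * ⟪x, e⟫ + ⟪x, e⟫) ∂(unif K) := by
    congr 1; ext x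
    rw [real_inner_smul_right, real_inner_comm]; ring
  have e2 : ∫ x in A, ⟪e, x⟫ ∂(unif K) = ∫ x in A, ⟪x, e⟫ ∂(unif K) := by
    congr 1; ext x; rw [real_inner_comm]
  rw [e1, e2, integral_add ihe.integrableOn ie.integrableOn]

theorem abs_setIntegral_inner_le (hK : Body K x₀ r₀ r) (hr : 0 < r) (B : Set (E d))
    (hB : MeasurableSet B) (hBK : B ⊆ K) (e : E d) (he : ‖e‖ ≤ 1) :
    |∫ x in B, ⟪x, e⟫ ∂(unif K)| ≤ r * ∫ _x in B, (1 : ℝ) ∂(unif K) := by
  have ie : Integrable (fun x : E d => ⟪x, e⟫) (unif K) :=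
    integrable_of_bddK hK _ (measurable_inner_right e) r (fun x hx => abs_inner_le hK hr e he x hx)
  have i1 := integrable_one hK
  rw [abs_le]
  constructor
  · rw [← neg_mul, ← integral_const_mul]
    exact setIntegral_mono_on (i1.integrableOn.const_mul _) ie.integrableOn hB
      (fun x hx => by have := (abs_le.mp (abs_inner_le hK hr e he x (hBK hx))).1; linarith)
  · rw [← integral_const_mul]
    exact setIntegral_mono_on ie.integrableOn (i1.integrableOn.const_mul _) hB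
      (fun x hx => by have := (abs_le.mp (abs_inner_le hK hr e he x (hBK hx))).2; linarith)

theorem sq_setIntegral_eta_inner_le (hK : Body K x₀ r₀ r) (hr : 0 < r) (B : Set (E d))
    (hB : MeasurableSet B) (hBK : B ⊆ K) (η : E d → ℝ) (hη : Measurable η)
    (hηb : ∀ x, |η x| ≤ 1 / 2) (e : E d) (he : ‖e‖ ≤ 1) :
    (∫ x in B, η x * ⟪x, e⟫ ∂(unif K)) ^ 2
      ≤ (∫ _x in B, (1 : ℝ) ∂(unif K)) * (r ^ 2 * ∫ x in B, η x ^ 2 ∂(unif K)) := by
  have h1 := cs_set hK B (fun x => η x * ⟪x, e⟫) (hη.mul (measurable_inner_right e)) (1 / 2 * r)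
    (by
      intro x hx
      rw [abs_mul]
      exact mul_le_mul (hηb x) (abs_inner_le hK hr e he x hx) (abs_nonneg _) (by norm_num))
  refine le_trans h1 (mul_le_mul_of_nonneg_left ?_ (integral_nonneg (fun _ => zero_le_one)))
  rw [← integral_const_mul]
  have iη2 : Integrable (fun x => η x ^ 2) (unif K) := by
    refine integrable_of_bddK hK _ (hη.pow_const 2) ((1 / 2) ^ 2) ?_
    intro x _
    rw [abs_pow]
    exact pow_le_pow_left₀ (abs_nonneg _) (hηb x) 2
  have i2 : Integrable (fun x => (η x * ⟪x, e⟫) ^ 2) (unif K) := by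
    refine integrable_of_bddK hK _ ((hη.mul (measurable_inner_right e)).pow_const 2)
      ((1 / 2 * r) ^ 2) ?_
    intro x hx
    rw [abs_pow, abs_mul]
    exact pow_le_pow_left₀ (by positivity)
      (mul_le_mul (hηb x) (abs_inner_le hK hr e he x hx) (abs_nonneg _) (by norm_num)) 2
  refine setIntegral_mono_on i2.integrableOn (iη2.integrableOn.const_mul _) hB (fun x hx => ?_)
  have h2 : ⟪x, e⟫ ^ 2 ≤ r ^ 2 := by
    rw [← sq_abs]
    exact pow_le_pow_left₀ (abs_nonneg _) (abs_inner_le hK hr e he x (hBK hx)) 2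
  rw [mul_pow]
  nlinarith [sq_nonneg (η x)]

theorem fbound_of_pos (hK : Body K x₀ r₀ r) (hr : 0 < r) : FBound K (100 * r) := by
  intro N m y η c0 c1 hm hy hη hηb hw0 hw1
  have hI0 : 0 ≤ ∫ x, η x ^ 2 ∂(unif K) := integral_nonneg (fun x => sq_nonneg _)
  rcases Nat.eq_zero_or_pos N with hN0 | hN
  · subst hN0
    simp only [Finset.univ_eq_empty, Finset.sum_empty]
    positivity
  have mf := massFacts hK hr m y η c0 c1 hm hη hηb hw0 hw1
  set κ := kap r with hκdef
  have hκ : 0 < κ := kap_pos hr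
  set p : Fin N → ℝ := fun i => gm K κ y c0 i with hpdef
  set q : Fin N → ℝ := fun i => gm K κ y c1 i with hqdef
  set bm : Fin N → ℝ := fun i => ∫ _x in cell K y c1 i, (1 : ℝ) ∂(unif K) with hbmdef
  set H : Fin N → ℝ := fun i => ∫ x in cell K y c1 i, η x ∂(unif K) with hHdef
  set Q : Fin N → ℝ := fun i => ∫ x in cell K y c1 i, η x ^ 2 ∂(unif K) with hQdef
  have hκr : κ * r ^ 2 = 1 / 100 := by
    rw [hκdef]; unfold kap; field_simp
  have iη2 : Integrable (fun x => η x ^ 2) (unif K) := by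
    refine integrable_of_bddK hK _ (hη.pow_const 2) ((1 / 2) ^ 2) ?_
    intro x _
    rw [abs_pow]
    exact pow_le_pow_left₀ (abs_nonneg _) (hηb x) 2
  have hQsum : ∑ i, Q i = ∫ x, η x ^ 2 ∂(unif K) := sum_setIntegral_cell hK hN y hy c1 _ iη2
  -- Step A : absorption
  have hA := hell_sum hK hN κ hκ y hy c0 c1 m hm mf.p_ge mf.q_ge (fun _ => rw' κ)
    (fun _ => measurable_rw' κ) (1.01 * (κ * r)) (by positivity)
    (fun _ x hx z hz => rw'_lip hK hr x z hx hz)
  have g0 : ∀ i, gi K κ y c0 (rw' κ) i = m i := by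
    intro i; unfold gi; simp_rw [rw'_mul_gw]; exact hw0 i
  have g1 : ∀ i, gi K κ y c1 (rw' κ) i = bm i := by
    intro i; unfold gi; simp_rw [rw'_mul_gw]; rfl
  simp_rw [g0, g1] at hA
  have hS : ∑ i, (p i - q i) ^ 2 / m i ≤ 6 * ∑ i, Q i := by
    apply closure_S m p q bm H Q mf (0.66 * (κ / (8 * (1.01 * (κ * r)) ^ 2))) ?_ ?_
    · have e1 : (1.01 * (κ * r)) ^ 2 = 1.0201 * κ * (κ * r ^ 2) := by ring
      rw [e1, hκr]
      have e2 : κ / (8 * (1.0201 * κ * (1 / 100))) = 100 / (8 * 1.0201) := by field_simp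
      rw [e2]; norm_num
    · refine le_trans (le_of_eq ?_) hA
      apply Finset.sum_congr rfl
      intro i _
      ring
  -- Step B : barycentres
  set v : Fin N → E d := fun i => (∫ x in cell K y c1 i, (1 + η x) • x ∂(unif K))
    - ∫ x in cell K y c0 i, x ∂(unif K) with hvdef
  set e : Fin N → E d := fun i => (‖v i‖)⁻¹ • v i with hedef
  have he : ∀ i, ‖e i‖ ≤ 1 := by
    intro i
    simp only [hedef]
    rw [norm_smul, norm_inv, norm_norm]
    by_cases h : ‖v i‖ = 0
    · simp [h]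
    · rw [inv_mul_cancel₀ h]
  have hve : ∀ i, ⟪v i, e i⟫ = ‖v i‖ := by
    intro i
    simp only [hedef]
    rw [real_inner_smul_right, real_inner_self_eq_norm_sq]
    by_cases h : ‖v i‖ = 0
    · simp [h]
    · field_simp
  set ξ : Fin N → E d → ℝ := fun i x => ⟪x, e i⟫ * rw' κ x with hξdef
  have hB := hell_sum hK hN κ hκ y hy c0 c1 m hm mf.p_ge mf.q_ge ξ
    (fun i => (measurable_inner_right (e i)).mul (measurable_rw' κ)) 1.03 (by norm_num)
    (fun i x hx z hz => xi_lip hK hr (e i) (he i) x z hx hz)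
  set a : Fin N → ℝ := fun i => ∫ x in cell K y c0 i, ⟪x, e i⟫ ∂(unif K) with hadef
  set b : Fin N → ℝ := fun i => ∫ x in cell K y c1 i, ⟪x, e i⟫ ∂(unif K) with hbdef
  set J : Fin N → ℝ := fun i => ∫ x in cell K y c1 i, η x * ⟪x, e i⟫ ∂(unif K) with hJdef
  have ga : ∀ i, gi K κ y c0 (ξ i) i = a i := by
    intro i; unfold gi
    simp only [hadef, hξdef]
    congr 1; ext x; rw [mul_assoc, rw'_mul_gw, mul_one]
  have gb : ∀ i, gi K κ y c1 (ξ i) i = b i := by
    intro i; unfold gi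
    simp only [hbdef, hξdef]
    congr 1; ext x; rw [mul_assoc, rw'_mul_gw, mul_one]
  simp_rw [ga, gb] at hB
  set D : Fin N → ℝ := fun i => a i / p i - b i / q i with hDdef
  have hnorm : ∀ i, ‖v i‖ = J i + b i - a i := by
    intro i
    rw [← hve i]
    exact inner_bary hK hr _ _ η hη hηb (e i) (he i)
  have hcell : ∀ i, (m i)⁻¹ * ‖v i‖ ^ 2
      ≤ 3 * (2 * r ^ 2 * Q i + 1.05 * r ^ 2 * ((p i - q i) ^ 2 / m i) + m i * D i ^ 2) := by
    intro i
    have hp0 : 0 < p i := by have := mf.p_ge i; have := hm i; nlinarith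
    have hq0 : 0 < q i := by have := mf.q_ge i; have := hm i; nlinarith
    apply alg_final (‖v i‖) (J i) (b i / q i) (p i) (q i) (m i) (D i) (Q i) r (hm i) hr hp0
      (mf.p_le i)
    · rw [hnorm i]
      simp only [hDdef]
      field_simp
      ring
    · rw [abs_div, abs_of_pos hq0, div_le_iff₀ hq0]
      have h1 := abs_setIntegral_inner_le hK hr (cell K y c1 i) (measurableSet_cell hK y c1 i)
        (cell_subset y c1 i) (e i) (he i)
      have h2 := mf.q_ge' i
      have h3 : r * bm i ≤ 1.02 * r * q i := by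
        have : bm i ≤ 1.02 * q i := by nlinarith [mf.bm_nonneg i]
        nlinarith
      exact le_trans h1 h3
    · have h1 := sq_setIntegral_eta_inner_le hK hr (cell K y c1 i) (measurableSet_cell hK y c1 i)
        (cell_subset y c1 i) η hη hηb (e i) (he i)
      have h2 : bm i * (r ^ 2 * Q i) ≤ (2 * m i) * (r ^ 2 * Q i) :=
        mul_le_mul_of_nonneg_right (mf.bm_le i) (mul_nonneg (sq_nonneg r) (mf.Q_nonneg i))
      calc J i ^ 2 ≤ bm i * (r ^ 2 * Q i) := h1
        _ ≤ (2 * m i) * (r ^ 2 * Q i) := h2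
        _ = 2 * m i * r ^ 2 * Q i := by ring
  have hDsum : ∑ i, m i * D i ^ 2 ≤ 390 * r ^ 2 * ∑ i, (p i - q i) ^ 2 / m i := by
    have e1 : ∀ i, m i * D i ^ 2 = (r ^ 2 * (8 * 1.03 ^ 2 * 100 / 0.66)) *
        (0.66 * m i * (κ * D i ^ 2 / (8 * 1.03 ^ 2))) := by
      intro i
      have : κ = 1 / (100 * r ^ 2) := by rw [hκdef]; rfl
      rw [this]
      field_simp
    have e2 : ∑ i, (p i - q i) ^ 2 / (3.3 * m i) = (∑ i, (p i - q i) ^ 2 / m i) / 3.3 := by
      rw [Finset.sum_div]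
      apply Finset.sum_congr rfl
      intro i _
      have := (hm i).ne'
      field_simp
    have hS0 : 0 ≤ ∑ i, (p i - q i) ^ 2 / m i :=
      Finset.sum_nonneg (fun i _ => div_nonneg (sq_nonneg _) (hm i).le)
    calc ∑ i, m i * D i ^ 2
        = (r ^ 2 * (8 * 1.03 ^ 2 * 100 / 0.66)) *
          ∑ i, (0.66 * m i * (κ * D i ^ 2 / (8 * 1.03 ^ 2))) := by
          rw [Finset.mul_sum]; exact Finset.sum_congr rfl (fun i _ => e1 i)
      _ ≤ (r ^ 2 * (8 * 1.03 ^ 2 * 100 / 0.66)) * ∑ i, (p i - q i) ^ 2 / (3.3 * m i) :=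
          mul_le_mul_of_nonneg_left hB (by positivity)
      _ = (r ^ 2 * (8 * 1.03 ^ 2 * 100 / 0.66) / 3.3) * ∑ i, (p i - q i) ^ 2 / m i := by
          rw [e2]; ring
      _ ≤ 390 * r ^ 2 * ∑ i, (p i - q i) ^ 2 / m i := by
          apply mul_le_mul_of_nonneg_right _ hS0
          have : (0 : ℝ) ≤ r ^ 2 := sq_nonneg r
          norm_num
          nlinarith
  have hsum := Finset.sum_le_sum (fun i (_ : i ∈ Finset.univ) => hcell i)
  have hexp : ∑ i, 3 * (2 * r ^ 2 * Q i + 1.05 * r ^ 2 * ((p i - q i) ^ 2 / m i) + m i * D i ^ 2)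
      = 3 * (2 * r ^ 2 * ∑ i, Q i + 1.05 * r ^ 2 * ∑ i, (p i - q i) ^ 2 / m i
        + ∑ i, m i * D i ^ 2) := by
    rw [← Finset.mul_sum, Finset.sum_add_distrib, Finset.sum_add_distrib, ← Finset.mul_sum,
      ← Finset.mul_sum]
  rw [hexp] at hsum
  rw [hQsum] at hS hsum
  refine le_trans hsum ?_
  generalize (∑ i, (p i - q i) ^ 2 / m i) = S at *
  generalize (∑ i, m i * D i ^ 2) = DD at *
  generalize (∫ x, η x ^ 2 ∂(unif K)) = I at *
  have hr2 : 0 ≤ r ^ 2 := sq_nonneg r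
  have h1 : r ^ 2 * S ≤ r ^ 2 * (6 * I) := mul_le_mul_of_nonneg_left hS hr2
  have h2 : 0 ≤ r ^ 2 * I := mul_nonneg hr2 hI0
  nlinarith

/-- **Task FB.** -/
theorem exists_FBound' (hK : Body K x₀ r₀ r) : ∃ C : ℝ, 0 ≤ C ∧ FBound K C := by
  have hr0 := hK.r_nonneg
  have hK' : Body K x₀ r₀ (r + 1) :=
    ⟨hK.compact, hK.convex, hK.r₀_pos, hK.ball_sub, fun x hx => by
      have := hK.sub_ball x hx; linarith⟩
  exact ⟨100 * (r + 1), by positivity, fbound_of_pos hK' (by linarith)⟩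

end Crest.Agent.OT.FB
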