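import Crest.Agent.OT.FBMain

/-! # Task FB, part 5: the F-bound. -/

set_option autoImplicit false
open MeasureTheory
open scoped ENNReal NNReal RealInnerProductSpace
open Crest.AnalysisR.OT

namespace Crest.Agent.OT.FB
variable {d : ℕ} {K : Set (E d)} {x₀ : E d} {r₀ r : ℝ} {N : ℕ}

/-- all scalar facts about the masses of the two families of cells. -/
structure MassFacts (m p q bm H Q : Fin N → ℝ) : Prop where
  m_pos : ∀ i, 0 < m i
  bmH : ∀ i, bm i + H i = m i
  p_le : ∀ i, p i ≤ m i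
  p_ge : ∀ i, 0.99 * m i ≤ p i
  q_le : ∀ i, q i ≤ 2 * m i
  q_ge : ∀ i, 0.66 * m i ≤ q i
  q_ge' : ∀ i, 0.99 * bm i ≤ q i
  bm_le : ∀ i, bm i ≤ 2 * m i
  bm_nonneg : ∀ i, 0 ≤ bm i
  HQ : ∀ i, H i ^ 2 ≤ bm i * Q i
  Q_nonneg : ∀ i, 0 ≤ Q i

theorem massFacts (hK : Body K x₀ r₀ r) (hr : 0 < r) (m : Fin N → ℝ) (y : Fin N → E d)
    (η : E d → ℝ) (c0 c1 : Fin N → ℝ) (hm : ∀ i, 0 < m i) (hη : Measurable η)
    (hηb : ∀ x, |η x| ≤ 1 / 2) (hw0 : IsWeights K m (fun _ => 1) y c0)
    (hw1 : IsWeights K m (fun x => 1 + η x) y c1) :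
    MassFacts m (fun i => gm K (kap r) y c0 i) (fun i => gm K (kap r) y c1 i)
      (fun i => ∫ _x in cell K y c1 i, (1 : ℝ) ∂(unif K))
      (fun i => ∫ x in cell K y c1 i, η x ∂(unif K))
      (fun i => ∫ x in cell K y c1 i, η x ^ 2 ∂(unif K)) := by
  have iη : Integrable η (unif K) := integrable_of_bddK hK η hη (1 / 2) (fun x _ => hηb x)
  have i1 := integrable_one hK
  have mB : ∀ i, MeasurableSet (cell K y c1 i) := fun i => measurableSet_cell hK y c1 i
  have F1 : ∀ i, ∫ _x in cell K y c0 i, (1 : ℝ) ∂(unif K) = m i := fun i => hw0 i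
  have F2 : ∀ i, (∫ _x in cell K y c1 i, (1 : ℝ) ∂(unif K))
      + ∫ x in cell K y c1 i, η x ∂(unif K) = m i := by
    intro i
    have h := hw1 i
    rw [integral_add i1.integrableOn iη.integrableOn] at h
    exact h
  have F3a : ∀ i, ∫ x in cell K y c1 i, η x ∂(unif K)
      ≤ (1 / 2) * ∫ _x in cell K y c1 i, (1 : ℝ) ∂(unif K) := by
    intro i
    rw [← integral_const_mul]
    exact setIntegral_mono_on iη.integrableOn (i1.integrableOn.const_mul _) (mB i)
      (fun x _ => by have := (abs_le.mp (hηb x)).2; linarith)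
  have F3b : ∀ i, -(1 / 2) * ∫ _x in cell K y c1 i, (1 : ℝ) ∂(unif K)
      ≤ ∫ x in cell K y c1 i, η x ∂(unif K) := by
    intro i
    rw [← integral_const_mul]
    exact setIntegral_mono_on (i1.integrableOn.const_mul _) iη.integrableOn (mB i)
      (fun x _ => by have := (abs_le.mp (hηb x)).1; linarith)
  have hpl : ∀ i, gm K (kap r) y c0 i ≤ m i := by
    intro i
    have := gm_le_mass hK hr (cell K y c0 i) (measurableSet_cell hK y c0 i)
    rw [F1 i] at this; exact this
  have hpg : ∀ i, 0.99 * m i ≤ gm K (kap r) y c0 i := by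
    intro i
    have := gm_ge_mass hK hr (cell K y c0 i) (measurableSet_cell hK y c0 i) (cell_subset y c0 i)
    rw [F1 i] at this; exact this
  have hql : ∀ i, gm K (kap r) y c1 i ≤ ∫ _x in cell K y c1 i, (1 : ℝ) ∂(unif K) :=
    fun i => gm_le_mass hK hr (cell K y c1 i) (mB i)
  have hqg : ∀ i, 0.99 * (∫ _x in cell K y c1 i, (1 : ℝ) ∂(unif K)) ≤ gm K (kap r) y c1 i :=
    fun i => gm_ge_mass hK hr (cell K y c1 i) (mB i) (cell_subset y c1 i)
  refine ⟨hm, F2, hpl, hpg, ?_, ?_, hqg, ?_, ?_, ?_, ?_⟩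
  · intro i
    have := F2 i; have := F3b i; have := hql i
    linarith
  · intro i
    have := F2 i; have := F3a i; have := hqg i
    linarith
  · intro i
    have := F2 i; have := F3b i
    linarith
  · intro i
    exact integral_nonneg (fun _ => zero_le_one)
  · intro i
    exact cs_set hK (cell K y c1 i) η hη (1 / 2) (fun x _ => hηb x)
  · intro i
    exact integral_nonneg (fun x => sq_nonneg _)

/-- absorption. -/
theorem closure_S (m p q bm H Q : Fin N → ℝ) (mf : MassFacts m p q bm H Q) (c : ℝ) (hc : 8 ≤ c)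
    (h : ∑ i, c * (m i * (m i / p i - bm i / q i) ^ 2) ≤ ∑ i, (p i - q i) ^ 2 / (3.3 * m i)) :
    ∑ i, (p i - q i) ^ 2 / m i ≤ 6 * ∑ i, Q i := by
  have hterm : ∀ i, (p i - q i) ^ 2 / m i
      ≤ c * (m i * (m i / p i - bm i / q i) ^ 2) + 4 * Q i := by
    intro i
    have hm := mf.m_pos i
    have hp0 : 0 < p i := by have := mf.p_ge i; nlinarith
    have hq0 : 0 < q i := by have := mf.q_ge i; nlinarith
    have hD : m i / p i - bm i / q i = m i / p i - (m i - H i) / q i := by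
      have := mf.bmH i
      have e : bm i = m i - H i := by linarith
      rw [e]
    have h1 := alg_closure (p i) (q i) (m i) (H i) _ hm hp0 (mf.p_le i) hq0 (mf.q_le i) hD
    have h2 : H i ^ 2 / m i ≤ 2 * Q i := by
      rw [div_le_iff₀ hm]
      calc H i ^ 2 ≤ bm i * Q i := mf.HQ i
        _ ≤ (2 * m i) * Q i := mul_le_mul_of_nonneg_right (mf.bm_le i) (mf.Q_nonneg i)
        _ = 2 * Q i * m i := by ring
    have h3 : 8 * (m i * (m i / p i - bm i / q i) ^ 2) ≤ c * (m i * (m i / p i - bm i / q i) ^ 2) :=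
      mul_le_mul_of_nonneg_right hc (by positivity)
    have h4 : 2 * H i ^ 2 / m i = 2 * (H i ^ 2 / m i) := by ring
    rw [h4] at h1
    linarith
  have hsum := Finset.sum_le_sum (fun i (_ : i ∈ Finset.univ) => hterm i)
  rw [Finset.sum_add_distrib, ← Finset.mul_sum (f := Q)] at hsum
  have hQ0 : 0 ≤ ∑ i, Q i := Finset.sum_nonneg (fun i _ => mf.Q_nonneg i)
  have e : ∑ i, (p i - q i) ^ 2 / (3.3 * m i) = (∑ i, (p i - q i) ^ 2 / m i) / 3.3 := by
    rw [Finset.sum_div]
    apply Finset.sum_congr rfl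
    intro i _
    have := (mf.m_pos i).ne'
    field_simp
  rw [e, le_div_iff₀ (by norm_num)] at h
  generalize (∑ i, (p i - q i) ^ 2 / m i) = S at *
  generalize (∑ i, c * (m i * (m i / p i - bm i / q i) ^ 2)) = X at *
  generalize (∑ i, Q i) = Q' at *
  norm_num at h
  linarith

end Crest.Agent.OT.FB
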