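import Crest.Agent.OT.FBSum

/-! # Task FB, part 4: closure and the F-bound. -/

set_option autoImplicit false
open MeasureTheory
open scoped ENNReal NNReal RealInnerProductSpace
open Crest.AnalysisR.OT

namespace Crest.Agent.OT.FB
variable {d : ℕ} {K : Set (E d)} {x₀ : E d} {r₀ r : ℝ} {N : ℕ}

/-- the parameter `κ = 1/(100 r²)`. -/
noncomputable def kap (r : ℝ) : ℝ := 1 / (100 * r ^ 2)

theorem kap_pos (hr : 0 < r) : 0 < kap r := by unfold kap; positivity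

theorem kap_sq_le (hK : Body K x₀ r₀ r) (hr : 0 < r) (x : E d) (hx : x ∈ K) :
    kap r * ‖x‖ ^ 2 / 2 ≤ 1 / 200 := by
  have h1 : ‖x‖ ^ 2 ≤ r ^ 2 := pow_le_pow_left₀ (norm_nonneg _) (hK.sub_ball x hx) 2
  unfold kap
  rw [div_mul_eq_mul_div, one_mul, div_div, div_le_div_iff₀ (by positivity) (by norm_num)]
  nlinarith

theorem gw_ge (hK : Body K x₀ r₀ r) (hr : 0 < r) (x : E d) (hx : x ∈ K) :
    0.99 ≤ gw (kap r) x := by
  unfold gw
  have h1 := kap_sq_le hK hr x hx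
  have h2 := Real.add_one_le_exp (-(kap r * ‖x‖ ^ 2 / 2))
  linarith

/-- reciprocal weight. -/
noncomputable def rw' (κ : ℝ) (x : E d) : ℝ := Real.exp (κ * ‖x‖ ^ 2 / 2)

theorem rw'_mul_gw (κ : ℝ) (x : E d) : rw' κ x * gw κ x = 1 := by
  unfold rw' gw
  rw [← Real.exp_add]; simp

theorem measurable_rw' (κ : ℝ) : Measurable (rw' κ : E d → ℝ) := by
  unfold rw'; fun_prop

theorem exp_small : Real.exp (1 / 200) ≤ 1.01 := by
  have h2 := Real.add_one_le_exp (-(1 / 200 : ℝ))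
  have h3 : Real.exp (1 / 200) * Real.exp (-(1 / 200 : ℝ)) = 1 := by
    rw [← Real.exp_add]; simp
  have h4 : 0 < Real.exp (1 / 200 : ℝ) := Real.exp_pos _
  nlinarith

theorem rw'_le (hK : Body K x₀ r₀ r) (hr : 0 < r) (x : E d) (hx : x ∈ K) :
    rw' (kap r) x ≤ 1.01 := by
  unfold rw'
  exact le_trans (Real.exp_le_exp.mpr (kap_sq_le hK hr x hx)) exp_small

theorem rw'_pos (κ : ℝ) (x : E d) : 0 < rw' κ x := Real.exp_pos _

theorem exp_sub_le (a b C : ℝ) (ha : a ≤ C) (hb : b ≤ C) :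
    |Real.exp a - Real.exp b| ≤ Real.exp C * |a - b| := by
  wlog hab : b ≤ a generalizing a b
  · have := this b a hb ha (le_of_not_ge hab)
    rw [abs_sub_comm, abs_sub_comm a b]; exact this
  have h1 : Real.exp b ≤ Real.exp a := Real.exp_le_exp.mpr hab
  rw [abs_of_nonneg (by linarith), abs_of_nonneg (by linarith)]
  have h2 := Real.add_one_le_exp (b - a)
  have h3 : Real.exp b = Real.exp a * Real.exp (b - a) := by
    rw [← Real.exp_add]; congr 1; ring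
  have h4 : 0 < Real.exp a := Real.exp_pos _
  have h5 : Real.exp a ≤ Real.exp C := Real.exp_le_exp.mpr ha
  have h6 : Real.exp a - Real.exp b ≤ Real.exp a * (a - b) := by
    rw [h3]; nlinarith
  calc Real.exp a - Real.exp b ≤ Real.exp a * (a - b) := h6
    _ ≤ Real.exp C * (a - b) := mul_le_mul_of_nonneg_right h5 (by linarith)

theorem sq_norm_sub_le (hK : Body K x₀ r₀ r) (x z : E d) (hx : x ∈ K) (hz : z ∈ K) :
    |‖x‖ ^ 2 - ‖z‖ ^ 2| ≤ 2 * r * ‖x - z‖ := by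
  have h1 : ‖x‖ ^ 2 - ‖z‖ ^ 2 = (‖x‖ - ‖z‖) * (‖x‖ + ‖z‖) := by ring
  rw [h1, abs_mul]
  have h2 : |‖x‖ - ‖z‖| ≤ ‖x - z‖ := abs_norm_sub_norm_le x z
  have h3 : |‖x‖ + ‖z‖| ≤ 2 * r := by
    rw [abs_of_nonneg (by positivity)]
    have := hK.sub_ball x hx; have := hK.sub_ball z hz; linarith
  calc |‖x‖ - ‖z‖| * |‖x‖ + ‖z‖| ≤ ‖x - z‖ * (2 * r) :=
        mul_le_mul h2 h3 (abs_nonneg _) (norm_nonneg _)
    _ = 2 * r * ‖x - z‖ := by ring

/-- Lipschitz bound for the reciprocal weight. -/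
theorem rw'_lip (hK : Body K x₀ r₀ r) (hr : 0 < r) (x z : E d) (hx : x ∈ K) (hz : z ∈ K) :
    |rw' (kap r) x - rw' (kap r) z| ≤ (1.01 * (kap r * r)) * ‖x - z‖ := by
  unfold rw'
  have h1 := exp_sub_le _ _ _ (kap_sq_le hK hr x hx) (kap_sq_le hK hr z hz)
  have h2 : |kap r * ‖x‖ ^ 2 / 2 - kap r * ‖z‖ ^ 2 / 2| ≤ kap r * r * ‖x - z‖ := by
    have e : kap r * ‖x‖ ^ 2 / 2 - kap r * ‖z‖ ^ 2 / 2 = kap r / 2 * (‖x‖ ^ 2 - ‖z‖ ^ 2) := by ring
    rw [e, abs_mul, abs_of_pos (by have := kap_pos hr; positivity)]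
    calc kap r / 2 * |‖x‖ ^ 2 - ‖z‖ ^ 2| ≤ kap r / 2 * (2 * r * ‖x - z‖) :=
          mul_le_mul_of_nonneg_left (sq_norm_sub_le hK x z hx hz)
            (by have := kap_pos hr; positivity)
      _ = kap r * r * ‖x - z‖ := by ring
  calc _ ≤ Real.exp (1 / 200) * |kap r * ‖x‖ ^ 2 / 2 - kap r * ‖z‖ ^ 2 / 2| := h1
    _ ≤ 1.01 * (kap r * r * ‖x - z‖) :=
        mul_le_mul exp_small h2 (abs_nonneg _) (by norm_num)
    _ = (1.01 * (kap r * r)) * ‖x - z‖ := by ring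

/-- Lipschitz bound for `⟪x, e⟫ / g`. -/
theorem xi_lip (hK : Body K x₀ r₀ r) (hr : 0 < r) (e : E d) (he : ‖e‖ ≤ 1) (x z : E d)
    (hx : x ∈ K) (hz : z ∈ K) :
    |⟪x, e⟫ * rw' (kap r) x - ⟪z, e⟫ * rw' (kap r) z| ≤ 1.03 * ‖x - z‖ := by
  have e1 : ⟪x, e⟫ * rw' (kap r) x - ⟪z, e⟫ * rw' (kap r) z
      = ⟪x - z, e⟫ * rw' (kap r) x + ⟪z, e⟫ * (rw' (kap r) x - rw' (kap r) z) := by
    rw [inner_sub_left]; ring
  rw [e1]
  have h1 : |⟪x - z, e⟫| ≤ ‖x - z‖ := by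
    calc |⟪x - z, e⟫| ≤ ‖x - z‖ * ‖e‖ := abs_real_inner_le_norm _ _
      _ ≤ ‖x - z‖ * 1 := mul_le_mul_of_nonneg_left he (norm_nonneg _)
      _ = ‖x - z‖ := mul_one _
  have h2 : |⟪z, e⟫| ≤ r := by
    calc |⟪z, e⟫| ≤ ‖z‖ * ‖e‖ := abs_real_inner_le_norm _ _
      _ ≤ r * 1 := mul_le_mul (hK.sub_ball z hz) he (norm_nonneg _) hr.le
      _ = r := mul_one _
  have h3 := rw'_lip hK hr x z hx hz
  have h4 := rw'_le hK hr x hx
  have h5 : kap r * r * r = 1 / 100 := by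
    unfold kap; field_simp
  calc |⟪x - z, e⟫ * rw' (kap r) x + ⟪z, e⟫ * (rw' (kap r) x - rw' (kap r) z)|
      ≤ |⟪x - z, e⟫ * rw' (kap r) x| + |⟪z, e⟫ * (rw' (kap r) x - rw' (kap r) z)| := abs_add_le _ _
    _ = |⟪x - z, e⟫| * rw' (kap r) x + |⟪z, e⟫| * |rw' (kap r) x - rw' (kap r) z| := by
        rw [abs_mul, abs_mul, abs_of_pos (rw'_pos _ x)]
    _ ≤ ‖x - z‖ * 1.01 + r * ((1.01 * (kap r * r)) * ‖x - z‖) :=
        add_le_add (mul_le_mul h1 h4 (rw'_pos _ x).le (norm_nonneg _))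
          (mul_le_mul h2 h3 (abs_nonneg _) hr.le)
    _ = (1.01 + 1.01 * (kap r * r * r)) * ‖x - z‖ := by ring
    _ ≤ 1.03 * ‖x - z‖ := by
        rw [h5]; apply mul_le_mul_of_nonneg_right _ (norm_nonneg _); norm_num

/-- Cauchy–Schwarz on a set. -/
theorem cs_set (hK : Body K x₀ r₀ r) (S : Set (E d)) (f : E d → ℝ) (hf : Measurable f) (C : ℝ)
    (hC : ∀ x ∈ K, |f x| ≤ C) :
    (∫ x in S, f x ∂(unif K)) ^ 2
      ≤ (∫ _x in S, (1 : ℝ) ∂(unif K)) * ∫ x in S, f x ^ 2 ∂(unif K) := by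
  have := hK.isProbabilityMeasure
  have i1 : Integrable f (unif K) := integrable_of_bddK hK f hf C hC
  have i2 : Integrable (fun x => f x ^ 2) (unif K) := by
    refine integrable_of_bddK hK _ (hf.pow_const 2) (C ^ 2) ?_
    intro x hx
    rw [abs_pow]
    exact pow_le_pow_left₀ (abs_nonneg _) (hC x hx) 2
  have i0 : Integrable (fun _ : E d => (1 : ℝ)) (unif K) := integrable_const _
  have hq : ∀ t : ℝ, 0 ≤ (∫ _x in S, (1 : ℝ) ∂(unif K)) * (t * t)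
      + (-2 * ∫ x in S, f x ∂(unif K)) * t + ∫ x in S, f x ^ 2 ∂(unif K) := by
    intro t
    have h1 : 0 ≤ ∫ x in S, (f x - t) ^ 2 ∂(unif K) := integral_nonneg (fun x => sq_nonneg _)
    have h2 : ∫ x in S, (f x - t) ^ 2 ∂(unif K)
        = ∫ x in S, (f x ^ 2 + ((-2 * t) * f x + (t * t) * 1)) ∂(unif K) := by
      congr 1; ext x; ring
    have j1 : IntegrableOn (fun x => f x ^ 2) S (unif K) := i2.integrableOn
    have j2 : IntegrableOn (fun x => (-2 * t) * f x) S (unif K) := i1.integrableOn.const_mul _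
    have j3 : IntegrableOn (fun _ : E d => (t * t) * (1 : ℝ)) S (unif K) :=
      i0.integrableOn.const_mul _
    have j4 : IntegrableOn (fun x => (-2 * t) * f x + (t * t) * 1) S (unif K) := j2.add j3
    rw [h2, integral_add j1 j4, integral_add j2 j3, integral_const_mul,
      integral_const_mul] at h1
    linarith
  have := discrim_le_zero hq
  unfold discrim at this
  nlinarith

theorem integrable_one (hK : Body K x₀ r₀ r) : Integrable (fun _ : E d => (1 : ℝ)) (unif K) := by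
  have := hK.isProbabilityMeasure
  exact integrable_const _

theorem gm_le_mass (hK : Body K x₀ r₀ r) (hr : 0 < r) (S : Set (E d)) (hS : MeasurableSet S) :
    ∫ x in S, gw (kap r) x ∂(unif K) ≤ ∫ _x in S, (1 : ℝ) ∂(unif K) :=
  setIntegral_mono_on (integrable_gw hK _ (kap_pos hr).le).integrableOn
    (integrable_one hK).integrableOn hS (fun x _ => gw_le_one _ (kap_pos hr).le x)

theorem gm_ge_mass (hK : Body K x₀ r₀ r) (hr : 0 < r) (S : Set (E d)) (hS : MeasurableSet S)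
    (hSK : S ⊆ K) :
    0.99 * ∫ _x in S, (1 : ℝ) ∂(unif K) ≤ ∫ x in S, gw (kap r) x ∂(unif K) := by
  rw [← integral_const_mul]
  refine setIntegral_mono_on ((integrable_one hK).integrableOn.const_mul _)
    (integrable_gw hK _ (kap_pos hr).le).integrableOn hS (fun x hx => ?_)
  rw [mul_one]
  exact gw_ge hK hr x (hSK hx)

/-- final per-cell algebra. -/
theorem alg_final (nv J bq p q m D Q r : ℝ) (hm : 0 < m) (hr : 0 < r) (hp0 : 0 < p) (hp : p ≤ m)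
    (hnv : nv = J + bq * (q - p) - p * D) (hbq : |bq| ≤ 1.02 * r) (hJ : J ^ 2 ≤ 2 * m * r ^ 2 * Q) :
    m⁻¹ * nv ^ 2 ≤ 3 * (2 * r ^ 2 * Q + 1.05 * r ^ 2 * ((p - q) ^ 2 / m) + m * D ^ 2) := by
  have h1 : nv ^ 2 ≤ 3 * (J ^ 2 + (bq * (q - p)) ^ 2 + (p * D) ^ 2) := by
    rw [hnv]
    nlinarith [sq_nonneg (J - bq * (q - p)), sq_nonneg (J + p * D), sq_nonneg (bq * (q - p) + p * D)]
  have h2 : (bq * (q - p)) ^ 2 ≤ 1.05 * r ^ 2 * (p - q) ^ 2 := by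
    have e1 : bq ^ 2 ≤ (1.02 * r) ^ 2 := by
      rw [← sq_abs bq]; exact pow_le_pow_left₀ (abs_nonneg _) hbq 2
    have e2 : (bq * (q - p)) ^ 2 = bq ^ 2 * (p - q) ^ 2 := by ring
    rw [e2]
    have e3 : bq ^ 2 ≤ 1.05 * r ^ 2 := by nlinarith [sq_nonneg r]
    exact mul_le_mul_of_nonneg_right e3 (sq_nonneg _)
  have h3 : (p * D) ^ 2 ≤ m ^ 2 * D ^ 2 := by
    rw [mul_pow]
    exact mul_le_mul_of_nonneg_right (pow_le_pow_left₀ hp0.le hp 2) (sq_nonneg _)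
  have h4 : nv ^ 2 ≤ 3 * (2 * m * r ^ 2 * Q + 1.05 * r ^ 2 * (p - q) ^ 2 + m ^ 2 * D ^ 2) := by
    linarith
  rw [inv_mul_le_iff₀ hm]
  have e : m * (3 * (2 * r ^ 2 * Q + 1.05 * r ^ 2 * ((p - q) ^ 2 / m) + m * D ^ 2))
      = 3 * (2 * m * r ^ 2 * Q + 1.05 * r ^ 2 * (p - q) ^ 2 + m ^ 2 * D ^ 2) := by
    field_simp
  rw [e]
  exact h4

end Crest.Agent.OT.FB
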