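import Crest.Agent.OT.FBCell
import Crest.Agent.OT.Cells
import Crest.Agent.OT.FBAlg

/-! # Task FB, part 3: sums over the cells. -/

set_option autoImplicit false
open MeasureTheory
open scoped ENNReal NNReal RealInnerProductSpace
open Crest.AnalysisR.OT

namespace Crest.Agent.OT.FB
variable {d : ℕ} {K : Set (E d)} {x₀ : E d} {r₀ r : ℝ} {N : ℕ}

/-- the cells partition `K` up to null sets. -/
theorem sum_setIntegral_cell (hK : Body K x₀ r₀ r) (hN : 0 < N) (y : Fin N → E d)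
    (hy : Function.Injective y) (c : Fin N → ℝ) (F : E d → ℝ) (hF : Integrable F (unif K)) :
    ∑ i, ∫ x in cell K y c i, F x ∂(unif K) = ∫ x, F x ∂(unif K) := by
  have h1 : ∀ i, ∫ x in cell K y c i, F x ∂(unif K)
      = ∫ x, (cell K y c i).indicator F x ∂(unif K) := by
    intro i
    rw [integral_indicator (measurableSet_cell hK y c i)]
  simp_rw [h1]
  rw [← integral_finsetSum]
  · apply integral_congr_ae
    filter_upwards [hK.ae_mem, ae_not_mem_two_cells hK y hy c] with x hx hu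
    obtain ⟨i, hi⟩ := exists_mem_cell hN y c x hx
    rw [Finset.sum_eq_single i]
    · exact Set.indicator_of_mem hi F
    · intro j _ hji
      apply Set.indicator_of_notMem
      intro hj
      exact hji (hu j i hj hi)
    · intro h; exact absurd (Finset.mem_univ i) h
  · intro i _
    exact hF.indicator (measurableSet_cell hK y c i)

/-- Gaussian mass of a cell. -/
noncomputable def gm (K : Set (E d)) (κ : ℝ) (y : Fin N → E d) (c : Fin N → ℝ) (i : Fin N) : ℝ :=
  ∫ x in cell K y c i, gw κ x ∂(unif K)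

/-- Gaussian integral of `θ` over a cell. -/
noncomputable def gi (K : Set (E d)) (κ : ℝ) (y : Fin N → E d) (c : Fin N → ℝ) (θ : E d → ℝ)
    (i : Fin N) : ℝ :=
  ∫ x in cell K y c i, θ x * gw κ x ∂(unif K)

theorem integrable_gw (hK : Body K x₀ r₀ r) (κ : ℝ) (hκ : 0 ≤ κ) : Integrable (gw κ) (unif K) := by
  refine integrable_of_bddK hK _ (measurable_gw κ) 1 ?_
  intro x _
  rw [abs_of_nonneg (gw_pos κ x).le]
  exact gw_le_one κ hκ x

theorem sum_gm (hK : Body K x₀ r₀ r) (hN : 0 < N) (κ : ℝ) (hκ : 0 ≤ κ) (y : Fin N → E d)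
    (hy : Function.Injective y) (c : Fin N → ℝ) :
    ∑ i, gm K κ y c i = ∫ x, gw κ x ∂(unif K) :=
  sum_setIntegral_cell hK hN y hy c _ (integrable_gw hK κ hκ)

/-- the Hellinger-type sum inequality. -/
theorem hell_sum (hK : Body K x₀ r₀ r) (hN : 0 < N) (κ : ℝ) (hκ : 0 < κ) (y : Fin N → E d)
    (hy : Function.Injective y) (c0 c1 : Fin N → ℝ) (m : Fin N → ℝ) (hm : ∀ i, 0 < m i)
    (hp : ∀ i, 0.99 * m i ≤ gm K κ y c0 i) (hq : ∀ i, 0.66 * m i ≤ gm K κ y c1 i)
    (θ : Fin N → E d → ℝ) (hθ : ∀ i, Measurable (θ i)) (L : ℝ) (hL : 0 < L)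
    (hLip : ∀ i, ∀ x ∈ K, ∀ z ∈ K, |θ i x - θ i z| ≤ L * ‖x - z‖) :
    ∑ i, 0.66 * m i * (κ * (gi K κ y c0 (θ i) i / gm K κ y c0 i
        - gi K κ y c1 (θ i) i / gm K κ y c1 i) ^ 2 / (8 * L ^ 2))
      ≤ ∑ i, (gm K κ y c0 i - gm K κ y c1 i) ^ 2 / (3.3 * m i) := by
  set cm : Fin N → ℝ := fun j => (c0 j + c1 j) / 2 with hcm
  have hcell : ∀ i, (gm K κ y c0 i + gm K κ y c1 i) / 2
      - (gm K κ y c0 i - gm K κ y c1 i) ^ 2 / (3.3 * m i)
      + 0.66 * m i * (κ * (gi K κ y c0 (θ i) i / gm K κ y c0 i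
        - gi K κ y c1 (θ i) i / gm K κ y c1 i) ^ 2 / (8 * L ^ 2)) ≤ gm K κ y cm i := by
    intro i
    have hp0 : 0 < gm K κ y c0 i := by have := hp i; have := hm i; nlinarith
    have hq0 : 0 < gm K κ y c1 i := by have := hq i; have := hm i; nlinarith
    apply alg_cell _ _ _ _ _ (hm i) (hp i) (hq i) (by positivity)
    · exact integral_nonneg (fun x => (gw_pos κ x).le)
    · have h := cell_ineq hK κ hκ (cell K y c0 i) (cell K y c1 i) (cell K y cm i)
        (measurableSet_cell hK y c0 i) (measurableSet_cell hK y c1 i) (measurableSet_cell hK y cm i)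
        (cell_subset y c0 i) (cell_subset y c1 i) (cell_subset y cm i)
        (fun a ha b hb => midpoint_mem_cell hK y c0 c1 i a b ha hb)
        (θ i) (hθ i) L hL (hLip i) hp0 hq0
      have e : ∀ D : ℝ, 2 * (κ * D ^ 2 / (8 * L ^ 2)) = κ * D ^ 2 / (4 * L ^ 2) := by
        intro D; field_simp; ring
      rw [e]
      exact h
  have hsum := Finset.sum_le_sum (fun i (_ : i ∈ Finset.univ) => hcell i)
  rw [Finset.sum_add_distrib, Finset.sum_sub_distrib, ← Finset.sum_div, Finset.sum_add_distrib,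
    sum_gm hK hN κ hκ.le y hy c0, sum_gm hK hN κ hκ.le y hy c1, sum_gm hK hN κ hκ.le y hy cm] at hsum
  linarith

end Crest.Agent.OT.FB
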