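import Mathlib

open MeasureTheory Set
open scoped ENNReal Pointwise

namespace Crest.Agent.OT

/-- 1-D Brunn–Minkowski for nonempty compact sets. -/
theorem bm1d_compact {A B : Set ℝ} (hA : IsCompact A) (hB : IsCompact B)
    (hAn : A.Nonempty) (hBn : B.Nonempty) :
    volume A + volume B ≤ volume (A + B) := by
  set a := sSup A with ha_def
  set b := sInf B with hb_def
  have ha : a ∈ A := hA.sSup_mem hAn
  have hb : b ∈ B := hB.sInf_mem hBn
  have h1 : volume ((A + B) ∩ Iic (a + b)) + volume ((A + B) \ Iic (a + b)) = volume (A + B) :=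
    measure_inter_add_sdiff _ measurableSet_Iic
  rw [← h1]
  refine add_le_add ?_ ?_
  · have hsub : (fun x => x + b) '' A ⊆ (A + B) ∩ Iic (a + b) := by
      rintro _ ⟨x, hx, rfl⟩
      refine ⟨Set.add_mem_add hx hb, ?_⟩
      have : x ≤ a := le_csSup hA.bddAbove hx
      simp only [mem_Iic]
      linarith
    calc volume A = volume ((fun x => x + b) '' A) := by
          simp
      _ ≤ _ := measure_mono hsub
  · have hsub : ((fun x => a + x) '' B) \ {a + b} ⊆ (A + B) \ Iic (a + b) := by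
      rintro _ ⟨⟨x, hx, rfl⟩, hne⟩
      refine ⟨Set.add_mem_add ha hx, ?_⟩
      have h2 : b ≤ x := csInf_le hB.bddBelow hx
      simp only [mem_Iic, not_le]
      have h3 : x ≠ b := by
        intro h
        apply hne
        simp [h]
      have : b < x := lt_of_le_of_ne h2 (Ne.symm h3)
      linarith
    calc volume B = volume ((fun x => a + x) '' B) := by
          simp
      _ = volume (((fun x => a + x) '' B) \ {a + b}) := by
          rw [measure_sdiff_null]
          simp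
      _ ≤ _ := measure_mono hsub

/-- 1-D Brunn–Minkowski, midpoint form, for nonempty measurable sets. -/
theorem bm1d {A B C : Set ℝ} (hA : MeasurableSet A) (hB : MeasurableSet B)
    (hAn : A.Nonempty) (hBn : B.Nonempty)
    (h : ∀ x ∈ A, ∀ y ∈ B, (1 / 2 : ℝ) * (x + y) ∈ C) :
    volume A + volume B ≤ 2 * volume C := by
  obtain ⟨x0, hx0⟩ := hAn
  obtain ⟨y0, hy0⟩ := hBn
  have H : ∀ K : Set ℝ, (K ⊆ A ∧ IsCompact K) → ∀ L : Set ℝ, (L ⊆ B ∧ IsCompact L) →
      volume K + volume L ≤ 2 * volume C := by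
    rintro K ⟨hKA, hK⟩ L ⟨hLB, hL⟩
    have hK' : IsCompact (insert x0 K) := hK.insert x0
    have hL' : IsCompact (insert y0 L) := hL.insert y0
    have h1 := bm1d_compact hK' hL' (insert_nonempty _ _) (insert_nonempty _ _)
    have hsub : insert x0 K + insert y0 L ⊆ (2 : ℝ) • C := by
      rintro _ ⟨x, hx, y, hy, rfl⟩
      have hxA : x ∈ A := (insert_subset hx0 hKA) hx
      have hyB : y ∈ B := (insert_subset hy0 hLB) hy
      refine ⟨_, h x hxA y hyB, ?_⟩
      simp only [smul_eq_mul]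
      ring
    calc volume K + volume L ≤ volume (insert x0 K) + volume (insert y0 L) :=
          add_le_add (measure_mono (subset_insert _ _)) (measure_mono (subset_insert _ _))
      _ ≤ volume (insert x0 K + insert y0 L) := h1
      _ ≤ volume ((2 : ℝ) • C) := measure_mono hsub
      _ = 2 * volume C := by
          rw [Measure.addHaar_smul]
          simp
  rw [hA.measure_eq_iSup_isCompact, hB.measure_eq_iSup_isCompact]
  simp only [iSup_and']
  exact ENNReal.biSup_add_biSup_le' ⟨∅, empty_subset _, isCompact_empty⟩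
    ⟨∅, empty_subset _, isCompact_empty⟩ H

/-- Layer cake for finite `ℝ≥0∞`-valued functions. -/
theorem layercake {α : Type*} [MeasurableSpace α] (μ : Measure α) (f : α → ℝ≥0∞)
    (hf : Measurable f) (hfin : ∀ x, f x ≠ ∞) :
    ∫⁻ x, f x ∂μ = ∫⁻ t in Ioi (0 : ℝ), μ {a | ENNReal.ofReal t < f a} := by
  have h := lintegral_eq_lintegral_meas_lt μ (f := fun x => (f x).toReal)
    (Filter.Eventually.of_forall fun _ => ENNReal.toReal_nonneg) hf.ennreal_toReal.aemeasurable
  simp only [ENNReal.ofReal_toReal (hfin _)] at h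
  rw [h]
  refine setLIntegral_congr_fun measurableSet_Ioi ?_
  intro t ht
  have ht' : (0 : ℝ) ≤ t := le_of_lt ht
  refine congrArg μ ?_
  ext a
  exact (ENNReal.ofReal_lt_iff_lt_toReal ht' (hfin a)).symm

theorem measurable_meas_lt {α : Type*} [MeasurableSpace α] (μ : Measure α) (f : α → ℝ≥0∞) :
    Measurable (fun t : ℝ => μ {a | ENNReal.ofReal t < f a}) := by
  apply Antitone.measurable
  intro s t hst
  apply measure_mono
  intro a ha
  exact lt_of_le_of_lt (ENNReal.ofReal_le_ofReal hst) ha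

/-- Normalised 1-D Prékopa–Leindler: `sup f = sup g = 1`. -/
theorem pl1d_normalised (f g m : ℝ → ℝ≥0∞) (hf : Measurable f) (hg : Measurable g)
    (hm : Measurable m) (hf1 : ∀ x, f x ≤ 1) (hg1 : ∀ x, g x ≤ 1)
    (hfs : ∀ t < (1 : ℝ≥0∞), ∃ x, t < f x) (hgs : ∀ t < (1 : ℝ≥0∞), ∃ x, t < g x)
    (h : ∀ x y, f x * g y ≤ m ((1 / 2 : ℝ) * (x + y)) ^ 2) :
    (∫⁻ x, f x) + (∫⁻ x, g x) ≤ 2 * ∫⁻ x, m x := by
  -- truncate m
  set m' : ℝ → ℝ≥0∞ := fun x => min (m x) 1 with hm'_def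
  have hm' : Measurable m' := hm.min measurable_const
  have hm'1 : ∀ x, m' x ≠ ∞ := fun x =>
    ne_top_of_le_ne_top ENNReal.one_ne_top (min_le_right _ _)
  have hle : ∫⁻ x, m' x ≤ ∫⁻ x, m x := lintegral_mono fun x => min_le_left _ _
  have key : ∀ t ∈ Ioi (0 : ℝ), volume {a | ENNReal.ofReal t < f a}
      + volume {a | ENNReal.ofReal t < g a} ≤ 2 * volume {a | ENNReal.ofReal t < m' a} := by
    intro t ht
    by_cases ht1 : ENNReal.ofReal t < 1
    · refine bm1d (measurableSet_lt measurable_const hf) (measurableSet_lt measurable_const hg)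
        (hfs _ ht1) (hgs _ ht1) ?_
      intro x hx y hy
      simp only [mem_ofPred_eq] at hx hy ⊢
      refine lt_min ?_ ht1
      have h2 : ENNReal.ofReal t ^ 2 < m ((1 / 2 : ℝ) * (x + y)) ^ 2 := by
        calc ENNReal.ofReal t ^ 2 = ENNReal.ofReal t * ENNReal.ofReal t := sq _
          _ < f x * g y := ENNReal.mul_lt_mul hx hy
          _ ≤ _ := h x y
      exact lt_of_not_ge fun hle => absurd (pow_le_pow_left' hle 2) (not_le.mpr h2)
    · have e1 : {a | ENNReal.ofReal t < f a} = ∅ := by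
        ext a
        simp only [mem_ofPred_eq, mem_empty_iff_false, iff_false, not_lt]
        exact (hf1 a).trans (not_lt.mp ht1)
      have e2 : {a | ENNReal.ofReal t < g a} = ∅ := by
        ext a
        simp only [mem_ofPred_eq, mem_empty_iff_false, iff_false, not_lt]
        exact (hg1 a).trans (not_lt.mp ht1)
      rw [e1, e2]
      simp
  calc (∫⁻ x, f x) + (∫⁻ x, g x)
      = (∫⁻ t in Ioi (0 : ℝ), volume {a | ENNReal.ofReal t < f a})
        + ∫⁻ t in Ioi (0 : ℝ), volume {a | ENNReal.ofReal t < g a} := by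
        rw [layercake volume f hf fun x => ne_top_of_le_ne_top ENNReal.one_ne_top (hf1 x),
          layercake volume g hg fun x => ne_top_of_le_ne_top ENNReal.one_ne_top (hg1 x)]
    _ = ∫⁻ t in Ioi (0 : ℝ), (volume {a | ENNReal.ofReal t < f a}
        + volume {a | ENNReal.ofReal t < g a}) :=
        (lintegral_add_left (measurable_meas_lt volume f) _).symm
    _ ≤ ∫⁻ t in Ioi (0 : ℝ), 2 * volume {a | ENNReal.ofReal t < m' a} :=
        setLIntegral_mono' measurableSet_Ioi key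
    _ = 2 * ∫⁻ t in Ioi (0 : ℝ), volume {a | ENNReal.ofReal t < m' a} :=
        lintegral_const_mul _ (measurable_meas_lt volume m')
    _ = 2 * ∫⁻ x, m' x := by rw [layercake volume m' hm' hm'1]
    _ ≤ 2 * ∫⁻ x, m x := by gcongr

theorem ennreal_amgm (a b : ℝ≥0∞) : 4 * (a * b) ≤ (a + b) ^ 2 := by
  by_cases ha : a = ∞
  · subst ha; simp
  by_cases hb : b = ∞
  · subst hb; simp
  lift a to NNReal using ha
  lift b to NNReal using hb
  norm_cast
  rw [← NNReal.coe_le_coe]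
  push_cast
  nlinarith [sq_nonneg ((a : ℝ) - b)]

/-- 1-D Prékopa–Leindler after scaling to `sup = 1`. -/
theorem pl1d_scaled (f g m : ℝ → ℝ≥0∞) (hf : Measurable f) (hg : Measurable g)
    (hm : Measurable m) (α β γ : ℝ≥0∞) (hα0 : α ≠ 0) (hα : α ≠ ∞) (hβ0 : β ≠ 0) (hβ : β ≠ ∞)
    (hγ : γ ^ 2 = α * β)
    (hf1 : ∀ x, α * f x ≤ 1) (hg1 : ∀ x, β * g x ≤ 1)
    (hfs : ∀ t < (1 : ℝ≥0∞), ∃ x, t < α * f x) (hgs : ∀ t < (1 : ℝ≥0∞), ∃ x, t < β * g x)
    (h : ∀ x y, f x * g y ≤ m ((1 / 2 : ℝ) * (x + y)) ^ 2) :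
    (∫⁻ x, f x) * (∫⁻ x, g x) ≤ (∫⁻ x, m x) ^ 2 := by
  have h1 := pl1d_normalised (fun x => α * f x) (fun x => β * g x) (fun x => γ * m x)
    (hf.const_mul _) (hg.const_mul _) (hm.const_mul _) hf1 hg1 hfs hgs (by
      intro x y
      calc α * f x * (β * g y) = (α * β) * (f x * g y) := by ring
        _ ≤ (α * β) * m ((1 / 2 : ℝ) * (x + y)) ^ 2 := by gcongr; exact h x y
        _ = (γ * m ((1 / 2 : ℝ) * (x + y))) ^ 2 := by rw [mul_pow, hγ])
  rw [lintegral_const_mul _ hf, lintegral_const_mul _ hg, lintegral_const_mul _ hm] at h1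
  set I := ∫⁻ x, f x
  set J := ∫⁻ x, g x
  set N := ∫⁻ x, m x
  have h2 : (4 * (α * β)) * (I * J) ≤ (4 * (α * β)) * N ^ 2 := by
    calc (4 * (α * β)) * (I * J) = 4 * ((α * I) * (β * J)) := by ring
      _ ≤ (α * I + β * J) ^ 2 := ennreal_amgm _ _
      _ ≤ (2 * (γ * N)) ^ 2 := by gcongr
      _ = (4 * γ ^ 2) * N ^ 2 := by ring
      _ = (4 * (α * β)) * N ^ 2 := by rw [hγ]
  have hk0 : 4 * (α * β) ≠ 0 := by
    simp [hα0, hβ0]
  have hk : 4 * (α * β) ≠ ∞ := by
    exact ENNReal.mul_ne_top (by norm_num) (ENNReal.mul_ne_top hα hβ)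
  exact (ENNReal.mul_le_mul_iff_right hk0 hk).mp h2

/-- 1-D Prékopa–Leindler for bounded functions. -/
theorem pl1d_bounded (f g m : ℝ → ℝ≥0∞) (hf : Measurable f) (hg : Measurable g)
    (hm : Measurable m) (C D : ℝ≥0∞) (hC : C ≠ ∞) (hD : D ≠ ∞)
    (hfC : ∀ x, f x ≤ C) (hgD : ∀ x, g x ≤ D)
    (h : ∀ x y, f x * g y ≤ m ((1 / 2 : ℝ) * (x + y)) ^ 2) :
    (∫⁻ x, f x) * (∫⁻ x, g x) ≤ (∫⁻ x, m x) ^ 2 := by
  set F := ⨆ x, f x with hF_def
  set G := ⨆ x, g x with hG_def
  have hF : F ≠ ∞ := ne_top_of_le_ne_top hC (iSup_le hfC)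
  have hG : G ≠ ∞ := ne_top_of_le_ne_top hD (iSup_le hgD)
  by_cases hF0 : F = 0
  · have : ∀ x, f x = 0 := fun x => le_antisymm (hF0 ▸ le_iSup f x) zero_le
    simp [this]
  by_cases hG0 : G = 0
  · have : ∀ x, g x = 0 := fun x => le_antisymm (hG0 ▸ le_iSup g x) zero_le
    simp [this]
  have aux : ∀ (u : ℝ → ℝ≥0∞) (U : ℝ≥0∞), U = ⨆ x, u x → U ≠ 0 → U ≠ ∞ →
      (∀ x, U⁻¹ * u x ≤ 1) ∧ (∀ t < (1 : ℝ≥0∞), ∃ x, t < U⁻¹ * u x) := by
    intro u U hU hU0 hUt
    constructor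
    · intro x
      calc U⁻¹ * u x ≤ U⁻¹ * U := by gcongr; rw [hU]; exact le_iSup u x
        _ = 1 := ENNReal.inv_mul_cancel hU0 hUt
    · intro t ht
      have h1 : t * U < U := by
        calc t * U < 1 * U := (ENNReal.mul_lt_mul_iff_left hU0 hUt).mpr ht
          _ = U := one_mul _
      rw [hU] at h1
      obtain ⟨x, hx⟩ := lt_iSup_iff.mp h1
      refine ⟨x, ?_⟩
      rw [← hU] at hx
      calc t = U⁻¹ * (t * U) := by
            rw [mul_comm t U, ← mul_assoc, ENNReal.inv_mul_cancel hU0 hUt, one_mul]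
        _ < U⁻¹ * u x := (ENNReal.mul_lt_mul_iff_right (ENNReal.inv_ne_zero.mpr hUt)
            (ENNReal.inv_ne_top.mpr hU0)).mpr hx
  obtain ⟨hf1, hfs⟩ := aux f F hF_def hF0 hF
  obtain ⟨hg1, hgs⟩ := aux g G hG_def hG0 hG
  refine pl1d_scaled f g m hf hg hm F⁻¹ G⁻¹ ((F⁻¹ * G⁻¹) ^ (1 / 2 : ℝ))
    (ENNReal.inv_ne_zero.mpr hF) (ENNReal.inv_ne_top.mpr hF0)
    (ENNReal.inv_ne_zero.mpr hG) (ENNReal.inv_ne_top.mpr hG0) ?_ hf1 hg1 hfs hgs h
  rw [← ENNReal.rpow_natCast, ← ENNReal.rpow_mul]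
  norm_num

/-- 1-D Prékopa–Leindler (midpoint form). -/
theorem pl1d (f g m : ℝ → ℝ≥0∞) (hf : Measurable f) (hg : Measurable g)
    (hm : Measurable m)
    (h : ∀ x y, f x * g y ≤ m ((1 / 2 : ℝ) * (x + y)) ^ 2) :
    (∫⁻ x, f x) * (∫⁻ x, g x) ≤ (∫⁻ x, m x) ^ 2 := by
  have trunc : ∀ u : ℝ → ℝ≥0∞, Measurable u →
      ∫⁻ x, u x = ⨆ n : ℕ, ∫⁻ x, min (u x) (n : ℝ≥0∞) := by
    intro u hu
    rw [← lintegral_iSup (fun n => hu.min measurable_const)]
    · refine lintegral_congr fun x => ?_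
      rw [← inf_iSup_eq, ENNReal.iSup_natCast]
      simp
    · intro i j hij x
      exact min_le_min le_rfl (by exact_mod_cast hij)
  rw [trunc f hf, trunc g hg]
  rw [ENNReal.iSup_mul]
  refine iSup_le fun i => ?_
  rw [ENNReal.mul_iSup]
  refine iSup_le fun j => ?_
  refine pl1d_bounded _ _ m (hf.min measurable_const) (hg.min measurable_const) hm i j
    (ENNReal.natCast_ne_top i) (ENNReal.natCast_ne_top j) (fun x => min_le_right _ _)
    (fun x => min_le_right _ _) ?_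
  intro x y
  exact (mul_le_mul' (min_le_left _ _) (min_le_left _ _)).trans (h x y)

/-- Fubini for `Fin (n+1) → ℝ`. -/
theorem lintegral_fin_succ (n : ℕ) (f : (Fin (n + 1) → ℝ) → ℝ≥0∞) (hf : Measurable f) :
    ∫⁻ x, f x = ∫⁻ t : ℝ, ∫⁻ y : Fin n → ℝ, f (Fin.cons t y) := by
  have e := (volume_preserving_piFinSuccAbove (fun _ : Fin (n + 1) => ℝ) 0).symm
  rw [← e.lintegral_comp hf]
  rw [Measure.volume_eq_prod, lintegral_prod (fun a => f ((MeasurableEquiv.piFinSuccAbove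
    (fun _ : Fin (n + 1) => ℝ) 0).symm a)) (hf.comp e.measurable).aemeasurable]
  refine lintegral_congr fun t => lintegral_congr fun y => ?_
  congr 1
  ext i
  refine Fin.cases ?_ (fun j => ?_) i <;>
    simp [MeasurableEquiv.piFinSuccAbove, Fin.insertNthEquiv]

theorem measurable_fin_cons (n : ℕ) :
    Measurable (fun p : ℝ × (Fin n → ℝ) => (Fin.cons p.1 p.2 : Fin (n + 1) → ℝ)) :=
  measurable_pi_iff.mpr (fun i => Fin.cases (by simpa using measurable_fst)
    (fun j => by simpa [Function.comp_def] using (measurable_pi_apply j).comp measurable_snd) i)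

/-- Prékopa–Leindler (midpoint form) on `Fin n → ℝ`. -/
theorem pl_pi (n : ℕ) : ∀ (f g m : (Fin n → ℝ) → ℝ≥0∞), Measurable f → Measurable g →
    Measurable m → (∀ x y, f x * g y ≤ m ((1 / 2 : ℝ) • (x + y)) ^ 2) →
    (∫⁻ x, f x) * (∫⁻ x, g x) ≤ (∫⁻ x, m x) ^ 2 := by
  induction n with
  | zero =>
    intro f g m _ _ _ h
    rw [lintegral_unique, lintegral_unique, lintegral_unique]
    have h1 : (volume : Measure (Fin 0 → ℝ)) univ = 1 := by
      rw [volume_pi, Measure.pi_of_empty]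
      simp
    rw [h1]
    simp only [mul_one]
    have key : ∀ z : Fin 0 → ℝ, f z * g z ≤ m z ^ 2 := by
      intro z
      have := h z z
      rwa [Subsingleton.elim ((1 / 2 : ℝ) • (z + z)) z] at this
    exact key _
  | succ n ih =>
    intro f g m hf hg hm h
    rw [lintegral_fin_succ n f hf, lintegral_fin_succ n g hg, lintegral_fin_succ n m hm]
    have meas : ∀ u : (Fin (n + 1) → ℝ) → ℝ≥0∞, Measurable u →
        Measurable (fun t : ℝ => ∫⁻ y : Fin n → ℝ, u (Fin.cons t y)) := by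
      intro u hu
      exact (hu.comp (measurable_fin_cons n)).lintegral_prod_right'
    have meas2 : ∀ u : (Fin (n + 1) → ℝ) → ℝ≥0∞, Measurable u → ∀ t : ℝ,
        Measurable (fun y : Fin n → ℝ => u (Fin.cons t y)) := by
      intro u hu t
      exact (hu.comp (measurable_fin_cons n)).comp (measurable_const.prodMk measurable_id)
    refine pl1d _ _ _ (meas f hf) (meas g hg) (meas m hm) ?_
    intro s t
    refine ih _ _ _ (meas2 f hf s) (meas2 g hg t) (meas2 m hm _) ?_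
    intro x y
    have := h (Fin.cons s x) (Fin.cons t y)
    have e : (1 / 2 : ℝ) • ((Fin.cons s x : Fin (n + 1) → ℝ) + Fin.cons t y)
        = Fin.cons ((1 / 2 : ℝ) * (s + t)) ((1 / 2 : ℝ) • (x + y)) := by
      ext i
      refine Fin.cases ?_ (fun j => ?_) i <;> simp [mul_add]
    rwa [e] at this

/-- **Prékopa–Leindler inequality**, midpoint form, on `EuclideanSpace ℝ (Fin d)`. -/
theorem prekopa_leindler_half (d : ℕ) (f g m : EuclideanSpace ℝ (Fin d) → ℝ≥0∞)
    (hf : Measurable f) (hg : Measurable g) (hm : Measurable m)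
    (h : ∀ x y, f x * g y ≤ m ((1 / 2 : ℝ) • (x + y)) ^ 2) :
    (∫⁻ x, f x) * (∫⁻ x, g x) ≤ (∫⁻ x, m x) ^ 2 := by
  have e := PiLp.volume_preserving_toLp (Fin d)
  rw [← e.lintegral_comp hf, ← e.lintegral_comp hg, ← e.lintegral_comp hm]
  refine pl_pi d _ _ _ (hf.comp e.measurable) (hg.comp e.measurable) (hm.comp e.measurable) ?_
  intro x y
  have := h (WithLp.toLp 2 x) (WithLp.toLp 2 y)
  simpa using this

end Crest.Agent.OT
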