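import Crest.Agent.OT.Basic
import Crest.Agent.OT.PL

/-! # Task FB, part 1: Prékopa–Leindler with Gaussian weight and exponential tilt. -/

set_option autoImplicit false
open MeasureTheory
open scoped ENNReal NNReal RealInnerProductSpace
open Crest.AnalysisR.OT

namespace Crest.Agent.OT.FB
variable {d : ℕ} {K : Set (E d)} {x₀ : E d} {r₀ r : ℝ}

/-- Gaussian weight. -/
noncomputable def gw (κ : ℝ) (x : E d) : ℝ := Real.exp (-(κ * ‖x‖ ^ 2 / 2))

theorem gw_pos (κ : ℝ) (x : E d) : 0 < gw κ x := Real.exp_pos _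

theorem measurable_gw (κ : ℝ) : Measurable (gw κ : E d → ℝ) := by
  unfold gw
  fun_prop

theorem x₀_mem (hK : Body K x₀ r₀ r) : x₀ ∈ K :=
  hK.ball_sub (Metric.mem_closedBall_self hK.r₀_pos.le)

/-- pointwise inequality behind the tilt. -/
theorem tilt_pointwise (κ : ℝ) (hκ : 0 < κ) (x y : E d) (ux uy L : ℝ)
    (h : ux - uy ≤ L * ‖x - y‖) :
    (gw κ x * Real.exp ux) * (gw κ y * Real.exp (-uy) * Real.exp (-(L ^ 2 / κ)))
      ≤ (gw κ ((1 / 2 : ℝ) • (x + y))) ^ 2 := by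
  unfold gw
  rw [← Real.exp_add, ← Real.exp_add, ← Real.exp_add, ← Real.exp_add, ← Real.exp_nat_mul]
  apply Real.exp_le_exp.mpr
  have hpar : ‖x + y‖ ^ 2 + ‖x - y‖ ^ 2 = 2 * ‖x‖ ^ 2 + 2 * ‖y‖ ^ 2 := by
    have := parallelogram_law_with_norm ℝ x y
    nlinarith [this]
  have hz : ‖(1 / 2 : ℝ) • (x + y)‖ ^ 2 = ‖x + y‖ ^ 2 / 4 := by
    rw [norm_smul]
    norm_num
    ring
  rw [hz]
  set s := ‖x - y‖ with hs
  have hsq : L * s ≤ κ * s ^ 2 / 4 + L ^ 2 / κ := by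
    have h1 : 0 ≤ (κ * s - 2 * L) ^ 2 / (4 * κ) := by positivity
    have h2 : (κ * s - 2 * L) ^ 2 / (4 * κ) = κ * s ^ 2 / 4 + L ^ 2 / κ - L * s := by
      field_simp
      ring
    linarith
  have hxy : ‖x + y‖ ^ 2 = 2 * ‖x‖ ^ 2 + 2 * ‖y‖ ^ 2 - s ^ 2 := by linarith
  rw [hxy]
  push_cast
  nlinarith [hsq, h]

theorem lintegral_indicator_ofReal (S : Set (E d)) (hS : MeasurableSet S) (F : E d → ℝ)
    (hF : IntegrableOn F S volume) (hnn : ∀ x, 0 ≤ F x) :
    ∫⁻ x, S.indicator (fun x => ENNReal.ofReal (F x)) x = ENNReal.ofReal (∫ x in S, F x) := by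
  rw [lintegral_indicator hS, ofReal_integral_eq_lintegral_ofReal hF (ae_of_all _ hnn)]

/-- bounded measurable functions are integrable on subsets of `K` (volume). -/
theorem integrableOn_of_bdd (hK : Body K x₀ r₀ r) (S : Set (E d)) (hSK : S ⊆ K)
    (F : E d → ℝ) (hF : Measurable F) (C : ℝ) (hC : ∀ x ∈ K, |F x| ≤ C) :
    IntegrableOn F S volume := by
  have hKint : IntegrableOn F K volume := by
    refine Measure.integrableOn_of_bounded (M := C) hK.volume_lt_top.ne hF.aestronglyMeasurable ?_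
    filter_upwards [ae_restrict_mem hK.measurableSet] with x hx
    simpa using hC x hx
  exact hKint.mono_set hSK

theorem gw_le_one (κ : ℝ) (hκ : 0 ≤ κ) (x : E d) : gw κ x ≤ 1 := by
  unfold gw
  rw [Real.exp_le_one_iff]
  have : 0 ≤ κ * ‖x‖ ^ 2 / 2 := by positivity
  linarith

/-- upper bound for a one-sided Lipschitz function on `K`. -/
theorem u_le (hK : Body K x₀ r₀ r) (u : E d → ℝ) (L : ℝ)
    (hL : ∀ x ∈ K, ∀ y ∈ K, u x - u y ≤ L * ‖x - y‖) (x : E d) (hx : x ∈ K) :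
    u x ≤ u x₀ + |L| * (2 * r) := by
  have h1 := hL x hx x₀ (x₀_mem hK)
  have h2 : ‖x - x₀‖ ≤ 2 * r := by
    calc ‖x - x₀‖ ≤ ‖x‖ + ‖x₀‖ := norm_sub_le _ _
      _ ≤ r + r := add_le_add (hK.sub_ball x hx) (hK.sub_ball x₀ (x₀_mem hK))
      _ = 2 * r := by ring
  have h3 : L * ‖x - x₀‖ ≤ |L| * (2 * r) := by
    calc L * ‖x - x₀‖ ≤ |L| * ‖x - x₀‖ := by
          apply mul_le_mul_of_nonneg_right (le_abs_self L) (norm_nonneg _)
      _ ≤ |L| * (2 * r) := by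
          apply mul_le_mul_of_nonneg_left h2 (abs_nonneg L)
  linarith

theorem neg_u_le (hK : Body K x₀ r₀ r) (u : E d → ℝ) (L : ℝ)
    (hL : ∀ x ∈ K, ∀ y ∈ K, u x - u y ≤ L * ‖x - y‖) (x : E d) (hx : x ∈ K) :
    - u x ≤ - u x₀ + |L| * (2 * r) := by
  have h1 := hL x₀ (x₀_mem hK) x hx
  have h2 : ‖x₀ - x‖ ≤ 2 * r := by
    calc ‖x₀ - x‖ ≤ ‖x₀‖ + ‖x‖ := norm_sub_le _ _
      _ ≤ r + r := add_le_add (hK.sub_ball x₀ (x₀_mem hK)) (hK.sub_ball x hx)
      _ = 2 * r := by ring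
  have h3 : L * ‖x₀ - x‖ ≤ |L| * (2 * r) := by
    calc L * ‖x₀ - x‖ ≤ |L| * ‖x₀ - x‖ := by
          apply mul_le_mul_of_nonneg_right (le_abs_self L) (norm_nonneg _)
      _ ≤ |L| * (2 * r) := by
          apply mul_le_mul_of_nonneg_left h2 (abs_nonneg L)
  linarith

/-- `gw * exp u` is integrable on subsets of `K` if `u` is bounded above on `K`. -/
theorem integrableOn_gw_exp (hK : Body K x₀ r₀ r) (κ : ℝ) (hκ : 0 ≤ κ) (S : Set (E d)) (hSK : S ⊆ K)
    (u : E d → ℝ) (hu : Measurable u) (C : ℝ) (hC : ∀ x ∈ K, u x ≤ C) :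
    IntegrableOn (fun x => gw κ x * Real.exp (u x)) S volume := by
  refine integrableOn_of_bdd hK S hSK _ ((measurable_gw κ).mul hu.exp) (Real.exp C) ?_
  intro x hx
  rw [abs_of_nonneg (mul_nonneg (gw_pos κ x).le (Real.exp_pos _).le)]
  calc gw κ x * Real.exp (u x) ≤ 1 * Real.exp C :=
        mul_le_mul (gw_le_one κ hκ x) (Real.exp_le_exp.mpr (hC x hx)) (Real.exp_pos _).le zero_le_one
    _ = Real.exp C := one_mul _

/-- PL + tilt, volume version. -/
theorem pl_tilt_vol (hK : Body K x₀ r₀ r) (κ : ℝ) (hκ : 0 < κ) (A B M : Set (E d))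
    (hA : MeasurableSet A) (hB : MeasurableSet B) (hM : MeasurableSet M)
    (hAK : A ⊆ K) (hBK : B ⊆ K) (hMK : M ⊆ K)
    (hmid : ∀ x ∈ A, ∀ y ∈ B, (1 / 2 : ℝ) • (x + y) ∈ M)
    (u : E d → ℝ) (hu : Measurable u) (L : ℝ)
    (hL : ∀ x ∈ K, ∀ y ∈ K, u x - u y ≤ L * ‖x - y‖) :
    (∫ x in A, gw κ x * Real.exp (u x)) * (∫ x in B, gw κ x * Real.exp (- u x))
      ≤ Real.exp (L ^ 2 / κ) * (∫ x in M, gw κ x) ^ 2 := by
  set F1 : E d → ℝ := fun x => gw κ x * Real.exp (u x) with hF1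
  set F2 : E d → ℝ := fun x => gw κ x * Real.exp (- u x) * Real.exp (-(L ^ 2 / κ)) with hF2
  set F2' : E d → ℝ := fun x => gw κ x * Real.exp (- u x) with hF2'
  have i1 : IntegrableOn F1 A volume :=
    integrableOn_gw_exp hK κ hκ.le A hAK u hu _ (u_le hK u L hL)
  have i2' : IntegrableOn F2' B volume :=
    integrableOn_gw_exp hK κ hκ.le B hBK (fun x => - u x) hu.neg _ (neg_u_le hK u L hL)
  have i2 : IntegrableOn F2 B volume := i2'.mul_const _
  have i3 : IntegrableOn (gw κ) M volume := by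
    refine integrableOn_of_bdd hK M hMK _ (measurable_gw κ) 1 ?_
    intro x _
    rw [abs_of_nonneg (gw_pos κ x).le]
    exact gw_le_one κ hκ.le x
  have n1 : ∀ x, 0 ≤ F1 x := fun x => mul_nonneg (gw_pos κ x).le (Real.exp_pos _).le
  have n2 : ∀ x, 0 ≤ F2 x := fun x =>
    mul_nonneg (mul_nonneg (gw_pos κ x).le (Real.exp_pos _).le) (Real.exp_pos _).le
  have n3 : ∀ x : E d, 0 ≤ gw κ x := fun x => (gw_pos κ x).le
  have key := prekopa_leindler_half d
    (A.indicator (fun x => ENNReal.ofReal (F1 x)))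
    (B.indicator (fun x => ENNReal.ofReal (F2 x)))
    (M.indicator (fun x => ENNReal.ofReal (gw κ x)))
    (((measurable_gw κ).mul hu.exp).ennreal_ofReal.indicator hA)
    ((((measurable_gw κ).mul hu.neg.exp).mul_const _).ennreal_ofReal.indicator hB)
    ((measurable_gw κ).ennreal_ofReal.indicator hM)
    (by
      intro x y
      by_cases hx : x ∈ A
      · by_cases hy : y ∈ B
        · rw [Set.indicator_of_mem hx, Set.indicator_of_mem hy,
            Set.indicator_of_mem (hmid x hx y hy), ← ENNReal.ofReal_mul (n1 x),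
            ← ENNReal.ofReal_pow (n3 _)]
          apply ENNReal.ofReal_le_ofReal
          exact tilt_pointwise κ hκ x y (u x) (u y) L (hL x (hAK hx) y (hBK hy))
        · rw [Set.indicator_of_notMem hy]; simp
      · rw [Set.indicator_of_notMem hx]; simp)
  rw [lintegral_indicator_ofReal A hA F1 i1 n1, lintegral_indicator_ofReal B hB F2 i2 n2,
    lintegral_indicator_ofReal M hM (gw κ) i3 n3,
    ← ENNReal.ofReal_mul (integral_nonneg (fun x => n1 x)),
    ← ENNReal.ofReal_pow (integral_nonneg (fun x => n3 x))] at key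
  have key2 := (ENNReal.ofReal_le_ofReal_iff (by positivity)).mp key
  have e2 : ∫ x in B, F2 x = (∫ x in B, F2' x) * Real.exp (-(L ^ 2 / κ)) := by
    rw [hF2, hF2']
    exact integral_mul_const _ _
  rw [e2] at key2
  have hpos : 0 < Real.exp (L ^ 2 / κ) := Real.exp_pos _
  have hinv : Real.exp (-(L ^ 2 / κ)) * Real.exp (L ^ 2 / κ) = 1 := by
    rw [← Real.exp_add]; simp
  calc (∫ x in A, F1 x) * (∫ x in B, F2' x)
      = ((∫ x in A, F1 x) * ((∫ x in B, F2' x) * Real.exp (-(L ^ 2 / κ)))) * Real.exp (L ^ 2 / κ) := by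
        rw [mul_assoc, mul_assoc, hinv, mul_one]
    _ ≤ (∫ x in M, gw κ x) ^ 2 * Real.exp (L ^ 2 / κ) :=
        mul_le_mul_of_nonneg_right key2 hpos.le
    _ = Real.exp (L ^ 2 / κ) * (∫ x in M, gw κ x) ^ 2 := mul_comm _ _

/-- PL + tilt, `unif K` version. -/
theorem pl_tilt (hK : Body K x₀ r₀ r) (κ : ℝ) (hκ : 0 < κ) (A B M : Set (E d))
    (hA : MeasurableSet A) (hB : MeasurableSet B) (hM : MeasurableSet M)
    (hAK : A ⊆ K) (hBK : B ⊆ K) (hMK : M ⊆ K)
    (hmid : ∀ x ∈ A, ∀ y ∈ B, (1 / 2 : ℝ) • (x + y) ∈ M)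
    (u : E d → ℝ) (hu : Measurable u) (L : ℝ)
    (hL : ∀ x ∈ K, ∀ y ∈ K, u x - u y ≤ L * ‖x - y‖) :
    (∫ x in A, gw κ x * Real.exp (u x) ∂(unif K)) * (∫ x in B, gw κ x * Real.exp (- u x) ∂(unif K))
      ≤ Real.exp (L ^ 2 / κ) * (∫ x in M, gw κ x ∂(unif K)) ^ 2 := by
  have h := pl_tilt_vol hK κ hκ A B M hA hB hM hAK hBK hMK hmid u hu L hL
  rw [hK.setIntegral_eq _ A hA hAK, hK.setIntegral_eq _ B hB hBK, hK.setIntegral_eq _ M hM hMK]
  simp only [smul_eq_mul]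
  set c := (volume K).toReal⁻¹ with hc
  have hc0 : 0 ≤ c := by positivity
  calc c * (∫ x in A, gw κ x * Real.exp (u x)) * (c * ∫ x in B, gw κ x * Real.exp (- u x))
      = c ^ 2 * ((∫ x in A, gw κ x * Real.exp (u x)) * (∫ x in B, gw κ x * Real.exp (- u x))) := by
        ring
    _ ≤ c ^ 2 * (Real.exp (L ^ 2 / κ) * (∫ x in M, gw κ x) ^ 2) :=
        mul_le_mul_of_nonneg_left h (by positivity)
    _ = Real.exp (L ^ 2 / κ) * (c * ∫ x in M, gw κ x) ^ 2 := by ring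

end Crest.Agent.OT.FB
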