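import Crest.Agent.OT.FBEnd

/-! # Task FB: the F-bound (barycentres of Laguerre cells are L²-Lipschitz in the density).
Proof in `FBTilt`, `FBCell`, `FBAlg`, `FBSum`, `FBMain`, `FBFinal`, `FBEnd` (namespace `Crest.Agent.OT.FB`). -/

set_option autoImplicit false
open MeasureTheory
open scoped ENNReal NNReal RealInnerProductSpace
open Crest.AnalysisR.OT

namespace Crest.Agent.OT
variable {d : ℕ} {K : Set (E d)} {x₀ : E d} {r₀ r : ℝ} {N : ℕ}

/-- FB: the F-bound (`κ = 1/(100 r²)`, `C = 100 (r+1)`). -/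
theorem exists_FBound (hK : Body K x₀ r₀ r) : ∃ C : ℝ, 0 ≤ C ∧ FBound K C :=
  FB.exists_FBound' hK

end Crest.Agent.OT
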