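import Crest.Agent.OT.Basic

/-! # Task FINAL: from the key inequality to the exponent 1/3. -/

set_option autoImplicit false
open MeasureTheory
open scoped ENNReal NNReal RealInnerProductSpace
open Crest.AnalysisR.OT

namespace Crest.Agent.OT
variable {d : ℕ} {K : Set (E d)} {x₀ : E d} {r₀ r : ℝ}

/-- FIN-1: monotonicity along translations. -/
theorem shift_monotone (hK : Body K x₀ r₀ r) (R : ℝ) (T : E d → E d) (φ : E d → ℝ)
    (hφ : IsPotential K R T φ) (v : E d) :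
    ∀ᵐ x ∂(unif K), x + v ∈ K → 0 ≤ ⟪v, T (x + v) - T x⟫ := by
  have h1 := hφ.subgrad
  have h2 := hK.ae_shift v _ hφ.subgrad
  filter_upwards [h1, h2, hK.ae_mem] with x hx1 hx2 hxK hxv
  have a1 := hx1 (x + v) hxv
  have a2 := hx2 hxv x hxK
  have e1 : x + v - x = v := by abel
  have e2 : x - (x + v) = -v := by abel
  rw [e1] at a1
  rw [e2, inner_neg_right] at a2
  rw [inner_sub_right, real_inner_comm (T (x + v)) v, real_inner_comm (T x) v]
  linarith

namespace Fin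

theorem measurable_inner_const (v : E d) (T : E d → E d) (hT : Measurable T) :
    Measurable (fun x => ⟪v, T x⟫) := measurable_const.inner hT

theorem abs_inner_le (R : ℝ) (v y : E d) (hy : ‖y‖ ≤ R) : |⟪v, y⟫| ≤ R * ‖v‖ := by
  calc |⟪v, y⟫| ≤ ‖v‖ * ‖y‖ := abs_real_inner_le_norm _ _
    _ ≤ ‖v‖ * R := by gcongr
    _ = R * ‖v‖ := mul_comm _ _

/-- for `x ∈ K`: `x - v ∈ Kv K v ↔ x ∈ Kv K (-v)`. -/
theorem sub_mem_Kv_iff (v x : E d) : x - v ∈ Kv K v ↔ x ∈ Kv K (-v) := by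
  simp only [Kv, Set.mem_ofPred_eq, sub_add_cancel, ← sub_eq_add_neg]
  tauto

/-- change of variables `∫_{Kv v} g (x+v) = ∫_{Kv (-v)} g`. -/
theorem setIntegral_shift (hK : Body K x₀ r₀ r) (v : E d) (g : E d → ℝ) :
    ∫ x in Kv K v, g (x + v) ∂(unif K) = ∫ x in Kv K (-v), g x ∂(unif K) := by
  rw [← integral_indicator (measurableSet_Kv hK v), ← integral_indicator (measurableSet_Kv hK (-v))]
  rw [← hK.integral_shift v _ (fun x hx => Set.indicator_of_notMem hx _)]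
  refine integral_congr_ae ?_
  refine Filter.Eventually.of_forall fun x => ?_
  show (Kv K v).indicator (fun x => g (x + v)) (x - v) = (Kv K (-v)).indicator g x
  by_cases h : x ∈ Kv K (-v)
  · rw [Set.indicator_of_mem h, Set.indicator_of_mem ((sub_mem_Kv_iff v x).2 h), sub_add_cancel]
  · rw [Set.indicator_of_notMem h, Set.indicator_of_notMem (fun h' => h ((sub_mem_Kv_iff v x).1 h'))]

theorem abs_setIntegral_le (hK : Body K x₀ r₀ r) (g : E d → ℝ) (B : ℝ)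
    (hB : ∀ᵐ x ∂(unif K), |g x| ≤ B) (S : Set (E d)) :
    |∫ x in S, g x ∂(unif K)| ≤ B * ((unif K) S).toReal := by
  have := hK.isProbabilityMeasure
  have := norm_setIntegral_le_of_norm_le_const_ae (μ := unif K) (s := S) (f := g) (C := B)
    (measure_lt_top _ _) (ae_restrict_of_ae hB)
  simpa [Measure.real] using this

end Fin

/-- FIN-2: `∫_{Kv} ⟪v, T(x+v) - T x⟫ = ∫_{Kv + v} ⟪v,T⟫ - ∫_{Kv} ⟪v,T⟫ ≤ 2 R ‖v‖ · d ‖v‖ / r₀`. -/
theorem integral_shift_diff_le (hK : Body K x₀ r₀ r) (R : ℝ) (hR : 0 ≤ R) (T : E d → E d)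
    (hT : Measurable T) (hTR : ∀ᵐ x ∂(unif K), ‖T x‖ ≤ R) (v : E d) (hv : ‖v‖ ≤ r₀) :
    ∫ x in Kv K v, ⟪v, T (x + v) - T x⟫ ∂(unif K) ≤ 2 * R * ‖v‖ * (d * ‖v‖ / r₀) := by
  have := hK.isProbabilityMeasure
  set g : E d → ℝ := fun x => ⟪v, T x⟫ with hg
  have hgm : Measurable g := Fin.measurable_inner_const v T hT
  have hgb : ∀ᵐ x ∂(unif K), |g x| ≤ R * ‖v‖ := by
    filter_upwards [hTR] with x hx using Fin.abs_inner_le R v _ hx
  have hgi : Integrable g (unif K) :=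
    hK.integrable_of_bdd g hgm.aestronglyMeasurable (R * ‖v‖) (by simpa using hgb)
  have hgs : Integrable (fun x => g (x + v)) ((unif K).restrict (Kv K v)) := by
    have : IsFiniteMeasure ((unif K).restrict (Kv K v)) := inferInstance
    refine Integrable.of_bound (C := R * ‖v‖) (hgm.comp (measurable_id.add_const v)).aestronglyMeasurable ?_
    rw [ae_restrict_iff' (measurableSet_Kv hK v)]
    filter_upwards [hK.ae_shift v _ hgb] with x hx hxv
    simpa using hx hxv.2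
  have e1 : ∫ x in Kv K v, ⟪v, T (x + v) - T x⟫ ∂(unif K)
      = ∫ x in Kv K v, g (x + v) ∂(unif K) - ∫ x in Kv K v, g x ∂(unif K) := by
    rw [← integral_sub hgs hgi.integrableOn]
    refine integral_congr_ae (Filter.Eventually.of_forall fun x => ?_)
    simp [hg, inner_sub_right]
  rw [e1, Fin.setIntegral_shift hK v g]
  have c1 := integral_add_compl (measurableSet_Kv hK v) hgi
  have c2 := integral_add_compl (measurableSet_Kv hK (-v)) hgi
  have b1 := Fin.abs_setIntegral_le hK g _ hgb (Kv K v)ᶜ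
  have b2 := Fin.abs_setIntegral_le hK g _ hgb (Kv K (-v))ᶜ
  have m1 := hK.measure_compl_Kv v hv
  have m2 := hK.measure_compl_Kv (-v) (by simpa using hv)
  rw [norm_neg] at m2
  have hRv : 0 ≤ R * ‖v‖ := mul_nonneg hR (norm_nonneg v)
  have b1' := (abs_le.1 b1)
  have b2' := (abs_le.1 b2)
  have k1 : R * ‖v‖ * ((unif K) (Kv K v)ᶜ).toReal ≤ R * ‖v‖ * (d * ‖v‖ / r₀) := by gcongr
  have k2 : R * ‖v‖ * ((unif K) (Kv K (-v))ᶜ).toReal ≤ R * ‖v‖ * (d * ‖v‖ / r₀) := by gcongr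
  nlinarith [b1'.1, b1'.2, b2'.1, b2'.2]

namespace Fin

/-- clipping to `[-2R, 2R]`. -/
noncomputable def clip (R t : ℝ) : ℝ := max (-(2 * R)) (min t (2 * R))

theorem abs_clip_le (R t : ℝ) (hR : 0 ≤ R) : |clip R t| ≤ 2 * R := by
  unfold clip
  rw [abs_le]
  constructor
  · exact le_max_left _ _
  · exact max_le (by linarith) (min_le_right _ _)

theorem clip_eq (R t : ℝ) (h : |t| ≤ 2 * R) : clip R t = t := by
  unfold clip
  rw [abs_le] at h
  rw [min_eq_left h.2, max_eq_right h.1]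

theorem measurable_clip (R : ℝ) : Measurable (clip R) := by
  unfold clip
  exact measurable_const.max (measurable_id.min measurable_const)

/-- elementary: `a q² ≤ 2 c q + B` implies `q² ≤ 4 c²/a² + 2B/a`. -/
theorem quad_bound (a q c B : ℝ) (ha : 0 < a) (h : a * q ^ 2 ≤ 2 * c * q + B) :
    q ^ 2 ≤ 4 * c ^ 2 / a ^ 2 + 2 * B / a := by
  have h1 : 0 ≤ (a * q - 2 * c) ^ 2 := sq_nonneg _
  have h2 : a ^ 2 * q ^ 2 ≤ 4 * c ^ 2 + 2 * B * a := by nlinarith
  have h3 : 4 * c ^ 2 / a ^ 2 + 2 * B / a = (4 * c ^ 2 + 2 * B * a) / a ^ 2 := by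
    field_simp
  rw [h3, le_div_iff₀ (by positivity)]
  linarith

end Fin

set_option maxHeartbeats 1600000 in
/-- FIN-3: one direction `e` (unit vector), one step size `a ∈ (0, r₀]`. With `v = a e`,
`w = 1_{Kv} ⟪e, T0 - T1⟫`, `Q² = ∫_{Kv} ⟪e, T0 - T1⟫²`: the key inequality gives
`a Q² ≤ 2 C ε Q + 2R ∫_{Kv} (ζ0 + ζ1) ≤ 2 C ε Q + 8 R² d a² / r₀`. -/
theorem direction_bound (hK : Body K x₀ r₀ r) (C : ℝ) (hC : 0 ≤ C) (R : ℝ) (hR : 0 ≤ R)
    (T0 T1 : E d → E d) (hT0 : Measurable T0) (hT1 : Measurable T1)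
    (hR0 : ∀ᵐ x ∂(unif K), ‖T0 x‖ ≤ R) (hR1 : ∀ᵐ x ∂(unif K), ‖T1 x‖ ≤ R)
    (φ0 φ1 : E d → ℝ) (h0 : IsPotential K R T0 φ0) (h1 : IsPotential K R T1 φ1)
    (ε : ℝ) (hε : 0 ≤ ε) (hkey : KeyIneq K C T0 T1 ε)
    (e : E d) (he : ‖e‖ = 1) (a : ℝ) (ha : 0 < a) (har : a ≤ r₀) :
    ∫ x, ⟪e, T0 x - T1 x⟫ ^ 2 ∂(unif K) ≤
      8 * C ^ 2 * ε ^ 2 / a ^ 2 + 20 * R ^ 2 * d * a / r₀ := by
  have := hK.isProbabilityMeasure
  have hr₀ := hK.r₀_pos
  set v : E d := a • e with hv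
  have hvn : ‖v‖ = a := by rw [hv, norm_smul, he, mul_one, Real.norm_of_nonneg ha.le]
  have hvr : ‖v‖ ≤ r₀ := hvn ▸ har
  have hKvm := measurableSet_Kv hK v
  set D : E d → ℝ := fun x => ⟪e, T0 x - T1 x⟫ with hD
  have hDm : Measurable D := Fin.measurable_inner_const e _ (hT0.sub hT1)
  have hDb : ∀ᵐ x ∂(unif K), |D x| ≤ 2 * R := by
    filter_upwards [hR0, hR1] with x h0x h1x
    have := Fin.abs_inner_le (2 * R) e (T0 x - T1 x)
      ((norm_sub_le _ _).trans (by linarith))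
    simpa [he] using this
  set w : E d → ℝ := (Kv K v).indicator (fun x => Fin.clip R (D x)) with hw
  have hwm : Measurable w := ((Fin.measurable_clip R).comp hDm).indicator hKvm
  have hwb : ∀ x, |w x| ≤ 2 * R := by
    intro x
    by_cases hx : x ∈ Kv K v
    · rw [hw, Set.indicator_of_mem hx]; exact Fin.abs_clip_le R _ hR
    · rw [hw, Set.indicator_of_notMem hx]; simpa using hR
  have hws : ∀ x, x ∉ Kv K v → w x = 0 := fun x hx => Set.indicator_of_notMem hx _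
  have hwD : ∀ᵐ x ∂(unif K), x ∈ Kv K v → w x = D x := by
    filter_upwards [hDb] with x hx hxv
    rw [hw, Set.indicator_of_mem hxv, Fin.clip_eq R _ hx]
  have key := hkey v w (2 * R) hwm hwb hws
  -- the functions
  set z0 : E d → ℝ := fun x => ⟪v, T0 (x + v) - T0 x⟫ with hz0
  set z1 : E d → ℝ := fun x => ⟪v, T1 (x + v) - T1 x⟫ with hz1
  set Z : E d → ℝ := (Kv K v).indicator (fun x => z0 x + z1 x) with hZ
  set F : E d → ℝ := fun x => max (w x) 0 * ⟪v, T0 x - T1 (x + v)⟫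
      + max (- w x) 0 * ⟪v, T1 x - T0 (x + v)⟫ with hF
  have hsh : Measurable (fun x : E d => x + v) := measurable_id.add_const v
  have hz0m : Measurable z0 := Fin.measurable_inner_const v _ ((hT0.comp hsh).sub hT0)
  have hz1m : Measurable z1 := Fin.measurable_inner_const v _ ((hT1.comp hsh).sub hT1)
  have hZm : Measurable Z := (hz0m.add hz1m).indicator hKvm
  have hFm : Measurable F :=
    ((hwm.max measurable_const).mul (Fin.measurable_inner_const v _ (hT0.sub (hT1.comp hsh)))).add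
      ((hwm.neg.max measurable_const).mul (Fin.measurable_inner_const v _ (hT1.sub (hT0.comp hsh))))
  have hS0 := hK.ae_shift v _ hR0
  have hS1 := hK.ae_shift v _ hR1
  have hz0b : ∀ᵐ x ∂(unif K), x ∈ Kv K v → |z0 x| ≤ 2 * R * a := by
    filter_upwards [hR0, hS0] with x hx hxs hxv
    have := Fin.abs_inner_le (2 * R) v (T0 (x + v) - T0 x)
      ((norm_sub_le _ _).trans (by linarith [hxs hxv.2]))
    rwa [hvn] at this
  have hz1b : ∀ᵐ x ∂(unif K), x ∈ Kv K v → |z1 x| ≤ 2 * R * a := by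
    filter_upwards [hR1, hS1] with x hx hxs hxv
    have := Fin.abs_inner_le (2 * R) v (T1 (x + v) - T1 x)
      ((norm_sub_le _ _).trans (by linarith [hxs hxv.2]))
    rwa [hvn] at this
  have hZb : ∀ᵐ x ∂(unif K), ‖Z x‖ ≤ 4 * R * a := by
    filter_upwards [hz0b, hz1b] with x hx0 hx1
    by_cases hx : x ∈ Kv K v
    · rw [hZ, Set.indicator_of_mem hx, Real.norm_eq_abs]
      exact (abs_add_le _ _).trans (by linarith [hx0 hx, hx1 hx])
    · rw [hZ, Set.indicator_of_notMem hx]; simp; positivity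
  have hZi : Integrable Z (unif K) := hK.integrable_of_bdd Z hZm.aestronglyMeasurable _ hZb
  have hw2m : Measurable (fun x => w x ^ 2) := hwm.pow_const 2
  have hw2b : ∀ x, ‖w x ^ 2‖ ≤ (2 * R) ^ 2 := by
    intro x
    rw [Real.norm_eq_abs, abs_pow]
    exact pow_le_pow_left₀ (abs_nonneg _) (hwb x) 2
  have hw2i : Integrable (fun x => w x ^ 2) (unif K) :=
    hK.integrable_of_bdd _ hw2m.aestronglyMeasurable _ (Filter.Eventually.of_forall hw2b)
  -- pointwise identity / lower bound for F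
  have hm0 := shift_monotone hK R T0 φ0 h0 v
  have hm1 := shift_monotone hK R T1 φ1 h1 v
  have hFlow : ∀ᵐ x ∂(unif K), a * w x ^ 2 - 2 * R * Z x ≤ F x ∧ ‖F x‖ ≤ 2 * (2 * R) * (2 * R * a + 2 * R * a) := by
    filter_upwards [hwD, hm0, hm1, hz0b, hz1b, hDb] with x hxw hx0 hx1 hb0 hb1 hDx
    by_cases hx : x ∈ Kv K v
    · have e0 : ⟪v, T0 x - T1 (x + v)⟫ = a * D x - z1 x := by
        simp only [hD, hz1, hv, real_inner_smul_left, inner_sub_right]; ring
      have e1 : ⟪v, T1 x - T0 (x + v)⟫ = - (a * D x) - z0 x := by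
        simp only [hD, hz0, hv, real_inner_smul_left, inner_sub_right]; ring
      have hz0' : 0 ≤ z0 x := hx0 hx.2
      have hz1' : 0 ≤ z1 x := hx1 hx.2
      have hwx := hxw hx
      simp only [hF, hZ, Set.indicator_of_mem hx, e0, e1, hwx]
      have hDx' := abs_le.1 hDx
      have hb0' := abs_le.1 (hb0 hx)
      have hb1' := abs_le.1 (hb1 hx)
      rcases le_total 0 (D x) with hs | hs
      · rw [max_eq_left hs, max_eq_right (by linarith : - D x ≤ 0)]
        constructor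
        · nlinarith [hDx'.2]
        · rw [Real.norm_eq_abs, abs_le]
          constructor <;> nlinarith [hDx'.2, hb1'.2, hb1'.1, mul_nonneg hs ha.le, mul_nonneg hR ha.le]
      · rw [max_eq_right hs, max_eq_left (by linarith : 0 ≤ - D x)]
        constructor
        · nlinarith [hDx'.1]
        · rw [Real.norm_eq_abs, abs_le]
          constructor <;> nlinarith [hDx'.1, hb0'.2, hb0'.1, mul_nonneg (neg_nonneg.2 hs) ha.le, mul_nonneg hR ha.le]
    · have hwx := hws x hx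
      simp only [hF, hZ, Set.indicator_of_notMem hx, hwx]
      simp
      positivity
  have hFi : Integrable F (unif K) :=
    hK.integrable_of_bdd F hFm.aestronglyMeasurable _ (hFlow.mono fun x hx => hx.2)
  set Q2 : ℝ := ∫ x, w x ^ 2 ∂(unif K) with hQ2
  have hQ2nn : 0 ≤ Q2 := integral_nonneg fun x => sq_nonneg _
  have hlow : a * Q2 - 2 * R * ∫ x, Z x ∂(unif K) ≤ ∫ x, F x ∂(unif K) := by
    rw [hQ2, ← integral_const_mul, ← integral_const_mul, ← integral_sub (hw2i.const_mul a) (hZi.const_mul _)]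
    exact integral_mono_ae ((hw2i.const_mul a).sub (hZi.const_mul _)) hFi (hFlow.mono fun x hx => hx.1)
  -- (1) the integral of Z
  have hZint : ∫ x, Z x ∂(unif K) ≤ 2 * (2 * R * a * (d * a / r₀)) := by
    have i0 : Integrable z0 ((unif K).restrict (Kv K v)) := by
      refine Integrable.of_bound (C := 2 * R * a) hz0m.aestronglyMeasurable ?_
      rw [ae_restrict_iff' hKvm]
      filter_upwards [hz0b] with x hx hxv
      simpa using hx hxv
    have i1 : Integrable z1 ((unif K).restrict (Kv K v)) := by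
      refine Integrable.of_bound (C := 2 * R * a) hz1m.aestronglyMeasurable ?_
      rw [ae_restrict_iff' hKvm]
      filter_upwards [hz1b] with x hx hxv
      simpa using hx hxv
    rw [hZ, integral_indicator hKvm, integral_add i0 i1]
    have b0 := integral_shift_diff_le hK R hR T0 hT0 hR0 v hvr
    have b1 := integral_shift_diff_le hK R hR T1 hT1 hR1 v hvr
    rw [hvn] at b0 b1
    linarith
  -- (2) the right-hand side of the key inequality
  have hws2 : ∫ x, w (x - v) ^ 2 ∂(unif K) = Q2 :=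
    hK.integral_shift v (fun x => w x ^ 2) (fun x hx => by simp [hws x hx])
  have hwsm : Measurable (fun x => w (x - v)) := hwm.comp (measurable_id.sub_const v)
  have hws2i : Integrable (fun x => w (x - v) ^ 2) (unif K) :=
    hK.integrable_of_bdd _ (hwsm.pow_const 2).aestronglyMeasurable _
      (Filter.Eventually.of_forall fun x => hw2b (x - v))
  have hdiff : ∫ x, (w (x - v) - w x) ^ 2 ∂(unif K) ≤ 4 * Q2 := by
    have h2 : ∫ x, (w (x - v) - w x) ^ 2 ∂(unif K)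
        ≤ ∫ x, (2 * w (x - v) ^ 2 + 2 * w x ^ 2) ∂(unif K) := by
      refine integral_mono_of_nonneg (Filter.Eventually.of_forall fun x => sq_nonneg _)
        ((hws2i.const_mul 2).add (hw2i.const_mul 2)) (Filter.Eventually.of_forall fun x => ?_)
      show (w (x - v) - w x) ^ 2 ≤ 2 * w (x - v) ^ 2 + 2 * w x ^ 2
      nlinarith [sq_nonneg (w (x - v) + w x)]
    rw [integral_add (hws2i.const_mul 2) (hw2i.const_mul 2), integral_const_mul,
      integral_const_mul, hws2] at h2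
    linarith
  set q : ℝ := Real.sqrt Q2 with hq
  have hq2 : q ^ 2 = Q2 := Real.sq_sqrt hQ2nn
  have hqnn : 0 ≤ q := Real.sqrt_nonneg _
  have hsq : Real.sqrt (∫ x, (w (x - v) - w x) ^ 2 ∂(unif K)) ≤ 2 * q := by
    calc Real.sqrt (∫ x, (w (x - v) - w x) ^ 2 ∂(unif K)) ≤ Real.sqrt (4 * Q2) :=
          Real.sqrt_le_sqrt hdiff
      _ = 2 * q := by
          rw [Real.sqrt_mul (by norm_num), hq]
          congr 1
          rw [show (4 : ℝ) = 2 ^ 2 by norm_num, Real.sqrt_sq (by norm_num)]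
  have hCe : 0 ≤ C * ε := mul_nonneg hC hε
  have hmain : a * q ^ 2 ≤ 2 * (C * ε) * q + 8 * R ^ 2 * a ^ 2 * d / r₀ := by
    have k1 : ∫ x, F x ∂(unif K) ≤ C * ε * (2 * q) := key.trans (by gcongr)
    have k2 : 2 * R * ∫ x, Z x ∂(unif K) ≤ 2 * R * (2 * (2 * R * a * (d * a / r₀))) := by gcongr
    have k3 : 2 * R * (2 * (2 * R * a * (d * a / r₀))) = 8 * R ^ 2 * a ^ 2 * d / r₀ := by ring
    rw [hq2]
    linarith
  have hQb := Fin.quad_bound a q (C * ε) _ ha hmain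
  rw [hq2] at hQb
  have hQb' : Q2 ≤ 4 * C ^ 2 * ε ^ 2 / a ^ 2 + 16 * R ^ 2 * d * a / r₀ := by
    have e : 4 * (C * ε) ^ 2 / a ^ 2 + 2 * (8 * R ^ 2 * a ^ 2 * d / r₀) / a
        = 4 * C ^ 2 * ε ^ 2 / a ^ 2 + 16 * R ^ 2 * d * a / r₀ := by
      field_simp
      ring
    linarith
  -- (4) from Q2 to the full integral
  have hD2 : ∫ x, D x ^ 2 ∂(unif K) ≤ Q2 + 4 * R ^ 2 * (d * a / r₀) := by
    set I : E d → ℝ := (Kv K v)ᶜ.indicator (fun _ => (4 * R ^ 2 : ℝ)) with hI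
    have hIi : Integrable I (unif K) :=
      (integrable_const (4 * R ^ 2 : ℝ)).indicator hKvm.compl
    have h2 : ∫ x, D x ^ 2 ∂(unif K) ≤ ∫ x, (w x ^ 2 + I x) ∂(unif K) := by
      refine integral_mono_of_nonneg (Filter.Eventually.of_forall fun x => sq_nonneg _)
        (hw2i.add hIi) ?_
      filter_upwards [hwD, hDb] with x hxw hxD
      show D x ^ 2 ≤ w x ^ 2 + I x
      by_cases hx : x ∈ Kv K v
      · rw [hxw hx, hI, Set.indicator_of_notMem (by simpa using hx)]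
        simp
      · rw [hws x hx, hI, Set.indicator_of_mem (by simpa using hx)]
        have := abs_le.1 hxD
        nlinarith [this.1, this.2]
    rw [integral_add hw2i hIi, hI, integral_indicator hKvm.compl, setIntegral_const] at h2
    have m1 := hK.measure_compl_Kv v hvr
    rw [hvn] at m1
    have : (unif K).real (Kv K v)ᶜ • (4 * R ^ 2 : ℝ) ≤ 4 * R ^ 2 * (d * a / r₀) := by
      rw [smul_eq_mul, mul_comm]
      have h4 : (0 : ℝ) ≤ 4 * R ^ 2 := by positivity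
      exact mul_le_mul_of_nonneg_left m1 h4
    linarith
  have hpos : 0 ≤ 4 * C ^ 2 * ε ^ 2 / a ^ 2 := by positivity
  have e2 : 4 * R ^ 2 * (d * a / r₀) = 4 * R ^ 2 * d * a / r₀ := by ring
  have e3 : 20 * R ^ 2 * d * a / r₀ = 16 * R ^ 2 * d * a / r₀ + 4 * R ^ 2 * d * a / r₀ := by ring
  have e4 : 8 * C ^ 2 * ε ^ 2 / a ^ 2 = 4 * C ^ 2 * ε ^ 2 / a ^ 2 + 4 * C ^ 2 * ε ^ 2 / a ^ 2 := by ring
  show ∫ x, D x ^ 2 ∂(unif K) ≤ _
  rw [e3, e4]
  linarith

namespace Fin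

theorem norm_sq_eq_sum (y : E d) :
    ‖y‖ ^ 2 = ∑ k, ⟪(EuclideanSpace.single k (1 : ℝ) : E d), y⟫ ^ 2 := by
  rw [EuclideanSpace.norm_sq_eq]
  refine Finset.sum_congr rfl fun k _ => ?_
  rw [EuclideanSpace.inner_single_left]
  simp

theorem trivial_bound (hK : Body K x₀ r₀ r) (R : ℝ) (hR : 0 ≤ R)
    (T0 T1 : E d → E d)
    (hR0 : ∀ᵐ x ∂(unif K), ‖T0 x‖ ≤ R) (hR1 : ∀ᵐ x ∂(unif K), ‖T1 x‖ ≤ R) :
    ∫ x, ‖T0 x - T1 x‖ ^ 2 ∂(unif K) ≤ 4 * R ^ 2 := by
  have := hK.isProbabilityMeasure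
  have h : ∫ x, ‖T0 x - T1 x‖ ^ 2 ∂(unif K) ≤ ∫ _x, (4 * R ^ 2 : ℝ) ∂(unif K) := by
    refine integral_mono_of_nonneg (Filter.Eventually.of_forall fun x => sq_nonneg _)
      (integrable_const _) ?_
    filter_upwards [hR0, hR1] with x h0 h1
    have h2 : ‖T0 x - T1 x‖ ≤ 2 * R := (norm_sub_le _ _).trans (by linarith)
    show ‖T0 x - T1 x‖ ^ 2 ≤ 4 * R ^ 2
    nlinarith [norm_nonneg (T0 x - T1 x)]
  simpa using h

theorem sum_bound (hK : Body K x₀ r₀ r) (C : ℝ) (hC : 0 ≤ C) (R : ℝ) (hR : 0 ≤ R)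
    (T0 T1 : E d → E d) (hT0 : Measurable T0) (hT1 : Measurable T1)
    (hR0 : ∀ᵐ x ∂(unif K), ‖T0 x‖ ≤ R) (hR1 : ∀ᵐ x ∂(unif K), ‖T1 x‖ ≤ R)
    (φ0 φ1 : E d → ℝ) (h0 : IsPotential K R T0 φ0) (h1 : IsPotential K R T1 φ1)
    (ε : ℝ) (hε : 0 ≤ ε) (hkey : KeyIneq K C T0 T1 ε)
    (a : ℝ) (ha : 0 < a) (har : a ≤ r₀) :
    ∫ x, ‖T0 x - T1 x‖ ^ 2 ∂(unif K) ≤
      d * (8 * C ^ 2 * ε ^ 2 / a ^ 2 + 20 * R ^ 2 * d * a / r₀) := by
  have hi : ∀ k ∈ (Finset.univ : Finset (_root_.Fin d)), Integrable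
      (fun x => ⟪(EuclideanSpace.single k (1 : ℝ) : E d), T0 x - T1 x⟫ ^ 2) (unif K) := by
    intro k _
    refine hK.integrable_of_bdd _
      ((measurable_inner_const _ _ (hT0.sub hT1)).pow_const 2).aestronglyMeasurable
      ((2 * R) ^ 2) ?_
    filter_upwards [hR0, hR1] with x h0x h1x
    have := abs_inner_le (2 * R) (EuclideanSpace.single k (1 : ℝ) : E d) (T0 x - T1 x)
      ((norm_sub_le _ _).trans (by linarith))
    rw [Real.norm_eq_abs, abs_pow]
    refine pow_le_pow_left₀ (abs_nonneg _) ?_ 2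
    simpa using this
  simp_rw [norm_sq_eq_sum]
  rw [integral_finsetSum _ hi]
  calc ∑ k, ∫ x, ⟪(EuclideanSpace.single k (1 : ℝ) : E d), T0 x - T1 x⟫ ^ 2 ∂(unif K)
      ≤ ∑ _k : _root_.Fin d, (8 * C ^ 2 * ε ^ 2 / a ^ 2 + 20 * R ^ 2 * d * a / r₀) :=
        Finset.sum_le_sum fun k _ =>
          direction_bound hK C hC R hR T0 T1 hT0 hT1 hR0 hR1 φ0 φ1 h0 h1 ε hε hkey _
            (by simp) a ha har
    _ = d * (8 * C ^ 2 * ε ^ 2 / a ^ 2 + 20 * R ^ 2 * d * a / r₀) := by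
        rw [Finset.sum_const, Finset.card_univ, Fintype.card_fin, nsmul_eq_mul]

end Fin

/-- FINAL. -/
theorem final_bound (hK : Body K x₀ r₀ r) (C : ℝ) (hC : 0 ≤ C) (R : ℝ) (hR : 0 ≤ R) :
    ∃ C' : ℝ, 0 ≤ C' ∧ ∀ (T0 T1 : E d → E d) (φ0 φ1 : E d → ℝ) (ε : ℝ),
      Measurable T0 → Measurable T1 →
      (∀ᵐ x ∂(unif K), ‖T0 x‖ ≤ R) → (∀ᵐ x ∂(unif K), ‖T1 x‖ ≤ R) →
      IsPotential K R T0 φ0 → IsPotential K R T1 φ1 → 0 ≤ ε → KeyIneq K C T0 T1 ε →
      ∫ x, ‖T0 x - T1 x‖ ^ 2 ∂(unif K) ≤ C' * (ε ^ 2) ^ (1 / 3 : ℝ) := by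
  have hr₀ := hK.r₀_pos
  have hA : 0 ≤ d * (8 * C ^ 2 + 20 * R ^ 2 * d / r₀) := by positivity
  have hB : 0 ≤ 4 * R ^ 2 / r₀ := by positivity
  refine ⟨d * (8 * C ^ 2 + 20 * R ^ 2 * d / r₀) + 4 * R ^ 2 / r₀, by positivity, ?_⟩
  intro T0 T1 φ0 φ1 ε hT0 hT1 hR0 hR1 h0 h1 hε hkey
  set t : ℝ := (ε ^ 2) ^ (1 / 3 : ℝ) with ht
  have ht0 : 0 ≤ t := Real.rpow_nonneg (sq_nonneg ε) _
  have ht3 : t ^ 3 = ε ^ 2 := by
    rw [ht, ← Real.rpow_natCast, ← Real.rpow_mul (sq_nonneg ε)]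
    norm_num
  set I : ℝ := ∫ x, ‖T0 x - T1 x‖ ^ 2 ∂(unif K) with hI
  have hsum := fun a ha har =>
    Fin.sum_bound hK C hC R hR T0 T1 hT0 hT1 hR0 hR1 φ0 φ1 h0 h1 ε hε hkey a ha har
  rcases ht0.eq_or_lt with h | h
  · -- ε = 0
    have hε0 : ε ^ 2 = 0 := by rw [← ht3, ← h]; norm_num
    rw [← h, mul_zero]
    by_contra hcon
    rw [not_le] at hcon
    set M : ℝ := d * (20 * R ^ 2 * d / r₀) with hM
    have hM0 : 0 ≤ M := by positivity
    set a : ℝ := min r₀ (I / (2 * (M + 1))) with ha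
    have hapos : 0 < a := lt_min hr₀ (by positivity)
    have h1 := hsum a hapos (min_le_left _ _)
    rw [hε0] at h1
    have h2 : a ≤ I / (2 * (M + 1)) := min_le_right _ _
    have h3 : (d : ℝ) * (8 * C ^ 2 * 0 / a ^ 2 + 20 * R ^ 2 * d * a / r₀) = M * a := by
      rw [hM]; ring
    rw [h3] at h1
    have h4 : M * a ≤ M * (I / (2 * (M + 1))) := by gcongr
    have h5 : M * (I / (2 * (M + 1))) ≤ I / 2 := by
      rw [mul_div_assoc', div_le_div_iff₀ (by positivity) (by norm_num)]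
      nlinarith
    linarith
  · rcases le_or_gt t r₀ with htr | htr
    · have h1 := hsum t h htr
      have h2 : 8 * C ^ 2 * ε ^ 2 / t ^ 2 = 8 * C ^ 2 * t := by
        rw [← ht3]; field_simp
      rw [h2] at h1
      have h3 : (d : ℝ) * (8 * C ^ 2 * t + 20 * R ^ 2 * d * t / r₀)
          = d * (8 * C ^ 2 + 20 * R ^ 2 * d / r₀) * t := by ring
      rw [h3] at h1
      have h4 : 0 ≤ 4 * R ^ 2 / r₀ * t := mul_nonneg hB ht0
      rw [add_mul]
      linarith
    · have h1 := Fin.trivial_bound hK R hR T0 T1 hR0 hR1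
      have h2 : 4 * R ^ 2 ≤ 4 * R ^ 2 / r₀ * t := by
        rw [div_mul_eq_mul_div, le_div_iff₀ hr₀]
        have : (0 : ℝ) ≤ 4 * R ^ 2 := by positivity
        exact mul_le_mul_of_nonneg_left htr.le this
      have h4 : 0 ≤ d * (8 * C ^ 2 + 20 * R ^ 2 * d / r₀) * t := mul_nonneg hA ht0
      rw [add_mul]
      linarith

end Crest.Agent.OT
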