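import Crest.Agent.OT.Basic

/-! # Row 82 (S0109): tasks KEY-L (`val_disc_ge`) and KEY-P (`integral_potential_shift_le`). -/

set_option autoImplicit false
open MeasureTheory
open scoped ENNReal NNReal RealInnerProductSpace
open Crest.AnalysisR.OT

namespace Crest.Agent.OT.KeyLP
variable {d : ℕ} {K : Set (E d)} {x₀ : E d} {r₀ r : ℝ} {N : ℕ}

/-- a.e. bound `0 ≤ a i x ≤ 1` for a plan of density one. -/
lemma ae_le_one (m : Fin N → ℝ) (a : Fin N → E d → ℝ) (ha : Admissible K m (fun _ => 1) a) :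
    ∀ᵐ x ∂(unif K), ∀ i, a i x ≤ 1 := by
  filter_upwards [ha.sum_eq] with x hx i
  rw [← hx]
  exact Finset.single_le_sum (f := fun j => a j x) (fun j _ => ha.nonneg j x) (Finset.mem_univ i)

lemma integrable_inner_mul (hK : Body K x₀ r₀ r) (m : Fin N → ℝ) (a : Fin N → E d → ℝ)
    (ha : Admissible K m (fun _ => 1) a) (q : E d) (i : Fin N) :
    Integrable (fun x => ⟪x, q⟫ * a i x) (unif K) := by
  refine hK.integrable_of_bdd _ ?_ (r * ‖q‖) ?_
  · exact ((measurable_id.inner measurable_const).mul (ha.meas i)).aestronglyMeasurable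
  · filter_upwards [hK.ae_mem, ae_le_one m a ha] with x hx h1
    rw [norm_mul, Real.norm_eq_abs, Real.norm_eq_abs, abs_of_nonneg (ha.nonneg i x)]
    calc |⟪x, q⟫| * a i x ≤ (‖x‖ * ‖q‖) * 1 :=
          mul_le_mul (abs_real_inner_le_norm x q) (h1 i) (ha.nonneg i x) (by positivity)
      _ ≤ r * ‖q‖ := by
          rw [mul_one]; exact mul_le_mul_of_nonneg_right (hK.sub_ball x hx) (norm_nonneg _)

lemma integrable_inner_T (hK : Body K x₀ r₀ r) (R : ℝ) (T : E d → E d) (hT : Measurable T)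
    (hTR : ∀ᵐ x ∂(unif K), ‖T x‖ ≤ R) : Integrable (fun x => ⟪x, T x⟫) (unif K) := by
  refine hK.integrable_of_bdd _ ?_ (r * R) ?_
  · exact (measurable_id.inner hT).aestronglyMeasurable
  · filter_upwards [hK.ae_mem, hTR] with x hx h1
    rw [Real.norm_eq_abs]
    calc |⟪x, T x⟫| ≤ ‖x‖ * ‖T x‖ := abs_real_inner_le_norm _ _
      _ ≤ r * R := mul_le_mul (hK.sub_ball x hx) h1 (norm_nonneg _) hK.r_nonneg

/-- KEY-L: lower bound of the value of the discretised plan. -/
theorem val_disc_ge (hK : Body K x₀ r₀ r) (R : ℝ) (T : E d → E d) (hT : Measurable T)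
    (hTR : ∀ᵐ x ∂(unif K), ‖T x‖ ≤ R)
    (m : Fin N → ℝ) (p : Fin N → E d) (a : Fin N → E d → ℝ) (ha : Admissible K m (fun _ => 1) a)
    (δ : ℝ) (hδ : 0 ≤ δ) (hclose : ∀ᵐ x ∂(unif K), ∀ i, a i x ≠ 0 → ‖T x - p i‖ ≤ δ) :
    ∫ x, ⟪x, T x⟫ ∂(unif K) - r * δ ≤ val K p a := by
  have := hK.isProbabilityMeasure
  have h1 : val K p a = ∫ x, ∑ i, ⟪x, p i⟫ * a i x ∂(unif K) := by
    rw [val, integral_finsetSum]
    intro i _
    exact integrable_inner_mul hK m a ha (p i) i
  have h2 : ∫ x, ⟪x, T x⟫ ∂(unif K) - r * δ = ∫ x, (⟪x, T x⟫ - r * δ) ∂(unif K) := by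
    rw [integral_sub (integrable_inner_T hK R T hT hTR) (integrable_const _)]
    simp
  rw [h1, h2]
  refine integral_mono_ae ((integrable_inner_T hK R T hT hTR).sub (integrable_const _))
    (integrable_finsetSum _ fun i _ => integrable_inner_mul hK m a ha (p i) i) ?_
  filter_upwards [hK.ae_mem, ha.sum_eq, hclose] with x hx hsum hcl
  have e1 : ⟪x, T x⟫ - r * δ = ∑ i, (⟪x, T x⟫ - r * δ) * a i x := by
    rw [← Finset.mul_sum, hsum, mul_one]
  show ⟪x, T x⟫ - r * δ ≤ ∑ i, ⟪x, p i⟫ * a i x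
  rw [e1]
  refine Finset.sum_le_sum fun i _ => ?_
  by_cases h0 : a i x = 0
  · simp [h0]
  · refine mul_le_mul_of_nonneg_right ?_ (ha.nonneg i x)
    have h3 : ⟪x, T x - p i⟫ ≤ r * δ :=
      calc ⟪x, T x - p i⟫ ≤ ‖x‖ * ‖T x - p i‖ := real_inner_le_norm _ _
        _ ≤ r * δ := mul_le_mul (hK.sub_ball x hx) (hcl i h0) (norm_nonneg _) hK.r_nonneg
    rw [inner_sub_right] at h3
    linarith

lemma potential_continuous (R : ℝ) (T : E d → E d) (φ : E d → ℝ) (hφ : IsPotential K R T φ) :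
    Continuous φ := by
  have hl : LipschitzWith (Real.toNNReal R) φ := by
    refine LipschitzWith.of_dist_le_mul fun x y => ?_
    rw [Real.dist_eq, dist_eq_norm]
    refine (hφ.lip x y).trans ?_
    exact mul_le_mul_of_nonneg_right (Real.le_coe_toNNReal R) (norm_nonneg _)
  exact hl.continuous

lemma potential_bdd (hK : Body K x₀ r₀ r) (R : ℝ) (T : E d → E d) (φ : E d → ℝ)
    (hφ : IsPotential K R T φ) : ∀ x ∈ K, |φ x| ≤ |φ x₀| + |R| * (2 * r) := by
  intro x hx
  have h1 := hφ.lip x x₀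
  have h2 : ‖x - x₀‖ ≤ 2 * r := by
    calc ‖x - x₀‖ ≤ ‖x‖ + ‖x₀‖ := norm_sub_le _ _
      _ ≤ 2 * r := by linarith [hK.sub_ball x hx, hK.sub_ball x₀ hK.x₀_mem]
  have h3 : R * ‖x - x₀‖ ≤ |R| * (2 * r) :=
    mul_le_mul (le_abs_self R) h2 (norm_nonneg _) (abs_nonneg _)
  have h4 : |φ x| ≤ |φ x - φ x₀| + |φ x₀| := by
    calc |φ x| = |(φ x - φ x₀) + φ x₀| := by ring_nf
      _ ≤ _ := abs_add_le _ _
  linarith

/-- KEY-P: `∫ φ h` against the sandwich `⟪T x, v⟫ ≤ φ (x+v) - φ x ≤ ⟪T (x+v), v⟫`. -/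
theorem integral_potential_shift_le (hK : Body K x₀ r₀ r) (R : ℝ) (T : E d → E d) (hT : Measurable T)
    (hTR : ∀ᵐ x ∂(unif K), ‖T x‖ ≤ R) (φ : E d → ℝ) (hφ : IsPotential K R T φ)
    (v : E d) (w : E d → ℝ) (W : ℝ) (hw : Measurable w)
    (hW : ∀ x, |w x| ≤ W) (hsupp : ∀ x, x ∉ Kv K v → w x = 0) :
    ∫ x, φ x * (w (x - v) - w x) ∂(unif K) ≤
      ∫ x, (max (w x) 0 * ⟪v, T (x + v)⟫ - max (- w x) 0 * ⟪v, T x⟫) ∂(unif K) := by
  have hφc := potential_continuous R T φ hφ
  have hφm : Measurable φ := hφc.measurable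
  set B := |φ x₀| + |R| * (2 * r) with hB
  have hφB := potential_bdd hK R T φ hφ
  have hW0 : 0 ≤ W := (abs_nonneg _).trans (hW 0)
  have hB0 : 0 ≤ B := (abs_nonneg _).trans (hφB x₀ hK.x₀_mem)
  have hshiftm : Measurable (fun x : E d => x + v) := measurable_id.add_const v
  have hshiftm' : Measurable (fun x : E d => x - v) := measurable_id.sub_const v
  -- integrability
  have i1 : Integrable (fun x => φ x * w (x - v)) (unif K) := by
    refine hK.integrable_of_bdd _ (hφm.mul (hw.comp hshiftm')).aestronglyMeasurable (B * W) ?_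
    filter_upwards [hK.ae_mem] with x hx
    rw [norm_mul, Real.norm_eq_abs, Real.norm_eq_abs]
    exact mul_le_mul (hφB x hx) (hW _) (abs_nonneg _) hB0
  have i2 : Integrable (fun x => φ x * w x) (unif K) := by
    refine hK.integrable_of_bdd _ (hφm.mul hw).aestronglyMeasurable (B * W) ?_
    filter_upwards [hK.ae_mem] with x hx
    rw [norm_mul, Real.norm_eq_abs, Real.norm_eq_abs]
    exact mul_le_mul (hφB x hx) (hW _) (abs_nonneg _) hB0
  have i3 : Integrable (fun x => φ (x + v) * w x) (unif K) := by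
    refine hK.integrable_of_bdd _ ((hφm.comp hshiftm).mul hw).aestronglyMeasurable (B * W) ?_
    filter_upwards with x
    rw [norm_mul, Real.norm_eq_abs, Real.norm_eq_abs]
    by_cases hx : x ∈ Kv K v
    · exact mul_le_mul (hφB _ hx.2) (hW _) (abs_nonneg _) hB0
    · rw [hsupp x hx]; simp; positivity
  have hTRs := hK.ae_shift v _ hTR
  have hmaxW : ∀ x, max (w x) 0 ≤ W := fun x => max_le ((le_abs_self _).trans (hW x)) hW0
  have hmaxW' : ∀ x, max (- w x) 0 ≤ W := fun x => max_le ((neg_le_abs _).trans (hW x)) hW0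
  have hR0 : ∀ᵐ x ∂(unif K), 0 ≤ R := by
    filter_upwards [hTR] with x hx using (norm_nonneg _).trans hx
  have i4 : Integrable (fun x => max (w x) 0 * ⟪v, T (x + v)⟫) (unif K) := by
    refine hK.integrable_of_bdd _ ((hw.max measurable_const).mul
      (measurable_const.inner (hT.comp hshiftm))).aestronglyMeasurable (W * (‖v‖ * R)) ?_
    filter_upwards [hTRs, hR0] with x hx hR
    rw [norm_mul, Real.norm_eq_abs, Real.norm_eq_abs, abs_of_nonneg (le_max_right _ _)]
    by_cases hxk : x ∈ Kv K v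
    · refine mul_le_mul (hmaxW x) ?_ (abs_nonneg _) hW0
      exact (abs_real_inner_le_norm _ _).trans
        (mul_le_mul_of_nonneg_left (hx hxk.2) (norm_nonneg _))
    · rw [hsupp x hxk]; simp; positivity
  have i5 : Integrable (fun x => max (- w x) 0 * ⟪v, T x⟫) (unif K) := by
    refine hK.integrable_of_bdd _ ((hw.neg.max measurable_const).mul
      (measurable_const.inner hT)).aestronglyMeasurable (W * (‖v‖ * R)) ?_
    filter_upwards [hTR] with x hx
    rw [norm_mul, Real.norm_eq_abs, Real.norm_eq_abs, abs_of_nonneg (le_max_right _ _)]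
    refine mul_le_mul (hmaxW' x) ?_ (abs_nonneg _) hW0
    exact (abs_real_inner_le_norm _ _).trans (mul_le_mul_of_nonneg_left hx (norm_nonneg _))
  -- the shift
  have hs : ∫ x, φ x * w (x - v) ∂(unif K) = ∫ x, φ (x + v) * w x ∂(unif K) := by
    have := hK.integral_shift v (fun x => φ (x + v) * w x) (fun x hx => by simp [hsupp x hx])
    simpa using this
  have e1 : ∫ x, φ x * (w (x - v) - w x) ∂(unif K) = ∫ x, (φ (x + v) * w x - φ x * w x) ∂(unif K) := by
    rw [integral_sub i3 i2, ← hs, ← integral_sub i1 i2]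
    congr 1; funext x; ring
  rw [e1]
  refine integral_mono_ae (i3.sub i2) (i4.sub i5) ?_
  have hsub := hφ.subgrad
  have hsubs := hK.ae_shift v _ hsub
  filter_upwards [hsub, hsubs] with x h1 h2
  show φ (x + v) * w x - φ x * w x ≤ max (w x) 0 * ⟪v, T (x + v)⟫ - max (- w x) 0 * ⟪v, T x⟫
  by_cases hxk : x ∈ Kv K v
  · have a1 : φ x + ⟪T x, v⟫ ≤ φ (x + v) := by
      have := h1 (x + v) hxk.2
      simpa using this
    have a2 : φ (x + v) - ⟪T (x + v), v⟫ ≤ φ x := by
      have := h2 hxk.2 x hxk.1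
      have e : x - (x + v) = -v := by abel
      rw [e, inner_neg_right] at this
      linarith
    rw [real_inner_comm] at a1 a2
    rcases le_total 0 (w x) with h0 | h0
    · rw [max_eq_left h0, max_eq_right (by linarith : - w x ≤ 0)]
      nlinarith
    · rw [max_eq_right h0, max_eq_left (by linarith : 0 ≤ - w x)]
      nlinarith
  · rw [hsupp x hxk]; simp

end Crest.Agent.OT.KeyLP
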