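import Crest.Agent.OT.Basic
import Crest.Agent.OT.KeyLP

/-! # Task KEY-M: the first order term -/

set_option autoImplicit false
open MeasureTheory
open scoped ENNReal NNReal RealInnerProductSpace
open Crest.AnalysisR.OT

namespace Crest.Agent.OT
variable {d : ℕ} {K : Set (E d)} {x₀ : E d} {r₀ r : ℝ} {N : ℕ}

/-- KEY-M: the first order term of `val_moved`, with `p i` replaced by `T`. -/
theorem moved_term_ge (hK : Body K x₀ r₀ r) (R : ℝ) (T : E d → E d) (hT : Measurable T)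
    (hTR : ∀ᵐ x ∂(unif K), ‖T x‖ ≤ R)
    (m : Fin N → ℝ) (p : Fin N → E d) (a : Fin N → E d → ℝ) (ha : Admissible K m (fun _ => 1) a)
    (δ : ℝ) (hδ : 0 ≤ δ) (hclose : ∀ᵐ x ∂(unif K), ∀ i, a i x ≠ 0 → ‖T x - p i‖ ≤ δ)
    (v : E d) (w : E d → ℝ) (W : ℝ) (hw : Measurable w)
    (hW : ∀ x, |w x| ≤ W) (hsupp : ∀ x, x ∉ Kv K v → w x = 0) :
    ∫ x, (max (w x) 0 * ⟪v, T x⟫ - max (- w x) 0 * ⟪v, T (x + v)⟫) ∂(unif K) - 2 * W * ‖v‖ * δ ≤
      ∑ i, ⟪v, p i⟫ * ((∫ x, max (w x) 0 * a i x ∂(unif K))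
        - ∫ x, max (- w x) 0 * a i (x + v) ∂(unif K)) := by
  have := hK.isProbabilityMeasure
  have hW0 : 0 ≤ W := (abs_nonneg _).trans (hW 0)
  have hshiftm : Measurable (fun x : E d => x + v) := measurable_id.add_const v
  have hmaxW : ∀ x, max (w x) 0 ≤ W := fun x => max_le ((le_abs_self _).trans (hW x)) hW0
  have hmaxW' : ∀ x, max (- w x) 0 ≤ W := fun x => max_le ((neg_le_abs _).trans (hW x)) hW0
  have hle1 := KeyLP.ae_le_one m a ha
  have hle1s := hK.ae_shift v _ hle1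
  have hTRs := hK.ae_shift v _ hTR
  have hR0 : ∀ᵐ x ∂(unif K), 0 ≤ R := by
    filter_upwards [hTR] with x hx using (norm_nonneg _).trans hx
  -- integrability
  have i1 : ∀ i, Integrable (fun x => max (w x) 0 * a i x) (unif K) := by
    intro i
    refine hK.integrable_of_bdd _ ((hw.max measurable_const).mul (ha.meas i)).aestronglyMeasurable
      (W * 1) ?_
    filter_upwards [hle1] with x hx
    rw [norm_mul, Real.norm_eq_abs, Real.norm_eq_abs, abs_of_nonneg (le_max_right _ _),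
      abs_of_nonneg (ha.nonneg i x)]
    exact mul_le_mul (hmaxW x) (hx i) (ha.nonneg i x) hW0
  have i2 : ∀ i, Integrable (fun x => max (- w x) 0 * a i (x + v)) (unif K) := by
    intro i
    refine hK.integrable_of_bdd _ ((hw.neg.max measurable_const).mul
      ((ha.meas i).comp hshiftm)).aestronglyMeasurable (W * 1) ?_
    filter_upwards [hle1s] with x hx
    rw [norm_mul, Real.norm_eq_abs, Real.norm_eq_abs, abs_of_nonneg (le_max_right _ _),
      abs_of_nonneg (ha.nonneg i _)]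
    by_cases hxk : x ∈ Kv K v
    · exact mul_le_mul (hmaxW' x) (hx hxk.2 i) (ha.nonneg i _) hW0
    · rw [hsupp x hxk]; simp; exact hW0
  have i4 : Integrable (fun x => max (- w x) 0 * ⟪v, T (x + v)⟫) (unif K) := by
    refine hK.integrable_of_bdd _ ((hw.neg.max measurable_const).mul
      (measurable_const.inner (hT.comp hshiftm))).aestronglyMeasurable (W * (‖v‖ * R)) ?_
    filter_upwards [hTRs, hR0] with x hx hR
    rw [norm_mul, Real.norm_eq_abs, Real.norm_eq_abs, abs_of_nonneg (le_max_right _ _)]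
    by_cases hxk : x ∈ Kv K v
    · refine mul_le_mul (hmaxW' x) ?_ (abs_nonneg _) hW0
      exact (abs_real_inner_le_norm _ _).trans
        (mul_le_mul_of_nonneg_left (hx hxk.2) (norm_nonneg _))
    · rw [hsupp x hxk]; simp; positivity
  have i5 : Integrable (fun x => max (w x) 0 * ⟪v, T x⟫) (unif K) := by
    refine hK.integrable_of_bdd _ ((hw.max measurable_const).mul
      (measurable_const.inner hT)).aestronglyMeasurable (W * (‖v‖ * R)) ?_
    filter_upwards [hTR] with x hx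
    rw [norm_mul, Real.norm_eq_abs, Real.norm_eq_abs, abs_of_nonneg (le_max_right _ _)]
    refine mul_le_mul (hmaxW x) ?_ (abs_nonneg _) hW0
    exact (abs_real_inner_le_norm _ _).trans (mul_le_mul_of_nonneg_left hx (norm_nonneg _))
  have i12 : ∀ i, Integrable
      (fun x => ⟪v, p i⟫ * (max (w x) 0 * a i x - max (- w x) 0 * a i (x + v))) (unif K) :=
    fun i => ((i1 i).sub (i2 i)).const_mul _
  have i54 : Integrable
      (fun x => max (w x) 0 * ⟪v, T x⟫ - max (- w x) 0 * ⟪v, T (x + v)⟫) (unif K) := i5.sub i4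
  have e1 : ∑ i, ⟪v, p i⟫ * ((∫ x, max (w x) 0 * a i x ∂(unif K))
        - ∫ x, max (- w x) 0 * a i (x + v) ∂(unif K))
      = ∫ x, ∑ i, ⟪v, p i⟫ * (max (w x) 0 * a i x - max (- w x) 0 * a i (x + v)) ∂(unif K) := by
    rw [integral_finsetSum _ (fun i _ => i12 i)]
    refine Finset.sum_congr rfl fun i _ => ?_
    rw [integral_const_mul, integral_sub (i1 i) (i2 i)]
  have e2 : ∫ x, (max (w x) 0 * ⟪v, T x⟫ - max (- w x) 0 * ⟪v, T (x + v)⟫) ∂(unif K)
        - 2 * W * ‖v‖ * δ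
      = ∫ x, ((max (w x) 0 * ⟪v, T x⟫ - max (- w x) 0 * ⟪v, T (x + v)⟫) - 2 * W * ‖v‖ * δ)
          ∂(unif K) := by
    rw [integral_sub i54 (integrable_const _)]
    simp
  rw [e1, e2]
  refine integral_mono_ae (i54.sub (integrable_const _))
    (integrable_finsetSum _ fun i _ => i12 i) ?_
  have hsums := hK.ae_shift v _ ha.sum_eq
  have hcloses := hK.ae_shift v _ hclose
  filter_upwards [ha.sum_eq, hclose, hsums, hcloses] with x hsum hcl hsum' hcl'
  show (max (w x) 0 * ⟪v, T x⟫ - max (- w x) 0 * ⟪v, T (x + v)⟫) - 2 * W * ‖v‖ * δ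
    ≤ ∑ i, ⟪v, p i⟫ * (max (w x) 0 * a i x - max (- w x) 0 * a i (x + v))
  have hvδ : 0 ≤ ‖v‖ * δ := by positivity
  -- first part
  have p1 : max (w x) 0 * (⟪v, T x⟫ - ‖v‖ * δ) ≤ ∑ i, ⟪v, p i⟫ * (max (w x) 0 * a i x) := by
    have : max (w x) 0 * (⟪v, T x⟫ - ‖v‖ * δ)
        = ∑ i, (⟪v, T x⟫ - ‖v‖ * δ) * (max (w x) 0 * a i x) := by
      rw [← Finset.mul_sum, ← Finset.mul_sum, hsum]; ring
    rw [this]
    refine Finset.sum_le_sum fun i _ => ?_
    by_cases h0 : a i x = 0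
    · simp [h0]
    · refine mul_le_mul_of_nonneg_right ?_ (mul_nonneg (le_max_right _ _) (ha.nonneg i x))
      have h3 : ⟪v, T x - p i⟫ ≤ ‖v‖ * δ :=
        (real_inner_le_norm _ _).trans (mul_le_mul_of_nonneg_left (hcl i h0) (norm_nonneg _))
      rw [inner_sub_right] at h3
      linarith
  -- second part
  have p2 : ∑ i, ⟪v, p i⟫ * (max (- w x) 0 * a i (x + v))
      ≤ max (- w x) 0 * (⟪v, T (x + v)⟫ + ‖v‖ * δ) := by
    by_cases hxk : x ∈ Kv K v
    · have : max (- w x) 0 * (⟪v, T (x + v)⟫ + ‖v‖ * δ)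
          = ∑ i, (⟪v, T (x + v)⟫ + ‖v‖ * δ) * (max (- w x) 0 * a i (x + v)) := by
        rw [← Finset.mul_sum, ← Finset.mul_sum, hsum' hxk.2]; ring
      rw [this]
      refine Finset.sum_le_sum fun i _ => ?_
      by_cases h0 : a i (x + v) = 0
      · simp [h0]
      · refine mul_le_mul_of_nonneg_right ?_ (mul_nonneg (le_max_right _ _) (ha.nonneg i _))
        have h3 : ⟪v, p i - T (x + v)⟫ ≤ ‖v‖ * δ := by
          refine (real_inner_le_norm _ _).trans (mul_le_mul_of_nonneg_left ?_ (norm_nonneg _))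
          rw [norm_sub_rev]; exact hcl' hxk.2 i h0
        rw [inner_sub_right] at h3
        linarith
    · rw [hsupp x hxk]; simp
  have e3 : ∑ i, ⟪v, p i⟫ * (max (w x) 0 * a i x - max (- w x) 0 * a i (x + v))
      = ∑ i, ⟪v, p i⟫ * (max (w x) 0 * a i x) - ∑ i, ⟪v, p i⟫ * (max (- w x) 0 * a i (x + v)) := by
    rw [← Finset.sum_sub_distrib]
    refine Finset.sum_congr rfl fun i _ => by ring
  rw [e3]
  have q1 : max (w x) 0 * (‖v‖ * δ) ≤ W * (‖v‖ * δ) := mul_le_mul_of_nonneg_right (hmaxW x) hvδ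
  have q2 : max (- w x) 0 * (‖v‖ * δ) ≤ W * (‖v‖ * δ) := mul_le_mul_of_nonneg_right (hmaxW' x) hvδ
  nlinarith

end Crest.Agent.OT
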