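import Crest.Agent.OT.Basic
import Crest.Agent.OT.KeyLP

/-! # Task KEY-P: potential sandwich -/

set_option autoImplicit false
open MeasureTheory
open scoped ENNReal NNReal RealInnerProductSpace
open Crest.AnalysisR.OT

namespace Crest.Agent.OT
variable {d : ℕ} {K : Set (E d)} {x₀ : E d} {r₀ r : ℝ} {N : ℕ}

/-- KEY-P: `∫ φ h` against the sandwich `⟪T x, v⟫ ≤ φ (x+v) - φ x ≤ ⟪T (x+v), v⟫`. -/
theorem integral_potential_shift_le (hK : Body K x₀ r₀ r) (R : ℝ) (T : E d → E d) (hT : Measurable T)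
    (hTR : ∀ᵐ x ∂(unif K), ‖T x‖ ≤ R) (φ : E d → ℝ) (hφ : IsPotential K R T φ)
    (v : E d) (w : E d → ℝ) (W : ℝ) (hw : Measurable w)
    (hW : ∀ x, |w x| ≤ W) (hsupp : ∀ x, x ∉ Kv K v → w x = 0) :
    ∫ x, φ x * (w (x - v) - w x) ∂(unif K) ≤
      ∫ x, (max (w x) 0 * ⟪v, T (x + v)⟫ - max (- w x) 0 * ⟪v, T x⟫) ∂(unif K) :=
  KeyLP.integral_potential_shift_le hK R T hT hTR φ hφ v w W hw hW hsupp

end Crest.Agent.OT
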