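import Crest.Agent.OT.Basic

/-! # Task CONJ: conjugate of a potential on `K` -/

set_option autoImplicit false
open MeasureTheory
open scoped ENNReal NNReal RealInnerProductSpace
open Crest.AnalysisR.OT

namespace Crest.Agent.OT
variable {d : ℕ} {K : Set (E d)} {x₀ : E d} {r₀ r : ℝ} {N : ℕ}

/-- conjugate of `φ` on `K`. -/
noncomputable def conj (K : Set (E d)) (φ : E d → ℝ) (y : E d) : ℝ :=
  sSup ((fun x => ⟪x, y⟫ - φ x) '' K)

theorem conj_bddAbove (hK : Body K x₀ r₀ r) (φ : E d → ℝ) (hφ : Continuous φ) (y : E d) :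
    BddAbove ((fun x => ⟪x, y⟫ - φ x) '' K) :=
  (hK.compact.image (by fun_prop)).bddAbove

/-- a potential is continuous. -/
theorem IsPotential.continuous {R : ℝ} {T : E d → E d} {φ : E d → ℝ} (hφ : IsPotential K R T φ) :
    Continuous φ := by
  have : LipschitzWith (Real.toNNReal R) φ := by
    refine LipschitzWith.of_dist_le_mul (fun x x' => ?_)
    rw [Real.dist_eq, dist_eq_norm]
    refine (hφ.lip x x').trans ?_
    exact mul_le_mul_of_nonneg_right (Real.le_coe_toNNReal R) (norm_nonneg _)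
  exact this.continuous

/-- CONJ-1 (Fenchel). -/
theorem fenchel (hK : Body K x₀ r₀ r) (φ : E d → ℝ) (hφ : Continuous φ) (x : E d) (hx : x ∈ K)
    (y : E d) : ⟪x, y⟫ ≤ φ x + conj K φ y := by
  have : ⟪x, y⟫ - φ x ≤ conj K φ y :=
    le_csSup (conj_bddAbove hK φ hφ y) ⟨x, hx, rfl⟩
  linarith

theorem conj_le_add (hK : Body K x₀ r₀ r) (φ : E d → ℝ) (hφ : Continuous φ) (y y' : E d) :
    conj K φ y ≤ conj K φ y' + r * ‖y - y'‖ := by
  refine csSup_le ⟨_, x₀, hK.x₀_mem, rfl⟩ ?_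
  rintro _ ⟨x, hx, rfl⟩
  have h1 := fenchel hK φ hφ x hx y'
  have h2 : ⟪x, y - y'⟫ ≤ ‖x‖ * ‖y - y'‖ := real_inner_le_norm x (y - y')
  have h3 : ‖x‖ * ‖y - y'‖ ≤ r * ‖y - y'‖ :=
    mul_le_mul_of_nonneg_right (hK.sub_ball x hx) (norm_nonneg _)
  rw [inner_sub_right] at h2
  simp only
  linarith

/-- CONJ-2. -/
theorem conj_lipschitz (hK : Body K x₀ r₀ r) (φ : E d → ℝ) (hφ : Continuous φ) (y y' : E d) :
    |conj K φ y - conj K φ y'| ≤ r * ‖y - y'‖ := by
  rw [abs_le]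
  have h1 := conj_le_add hK φ hφ y y'
  have h2 := conj_le_add hK φ hφ y' y
  rw [norm_sub_rev] at h2
  constructor <;> linarith

/-- CONJ-3. -/
theorem conj_eq_ae (hK : Body K x₀ r₀ r) (R : ℝ) (T : E d → E d) (φ : E d → ℝ)
    (hφ : IsPotential K R T φ) : ∀ᵐ x ∂(unif K), φ x + conj K φ (T x) = ⟪x, T x⟫ := by
  filter_upwards [hφ.subgrad, hK.ae_mem] with x hx hxK
  apply le_antisymm
  · have : conj K φ (T x) ≤ ⟪x, T x⟫ - φ x := by
      refine csSup_le ⟨_, x₀, hK.x₀_mem, rfl⟩ ?_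
      rintro _ ⟨x', hx', rfl⟩
      have h := hx x' hx'
      rw [inner_sub_right, real_inner_comm x' (T x), real_inner_comm x (T x)] at h
      simp only
      linarith
    linarith
  · exact fenchel hK φ hφ.continuous x hxK (T x)

end Crest.Agent.OT
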