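import Crest.Agent.OT.OptVal
import Crest.Agent.OT.KeyConj

/-! # Task KEY-UL: bounds at a discretisation -/

set_option autoImplicit false
open MeasureTheory
open scoped ENNReal NNReal RealInnerProductSpace
open Crest.AnalysisR.OT

namespace Crest.Agent.OT
variable {d : ℕ} {K : Set (E d)} {x₀ : E d} {r₀ r : ℝ} {N : ℕ}

namespace KeyUL

theorem ae_le_one {m : Fin N → ℝ} {a : Fin N → E d → ℝ} (ha : Admissible K m (fun _ => 1) a) :
    ∀ᵐ x ∂(unif K), ∀ i, a i x ≤ 1 := by
  filter_upwards [ha.sum_eq] with x hx i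
  rw [← hx]
  exact Finset.single_le_sum (f := fun j => a j x) (fun j _ => ha.nonneg j x) (Finset.mem_univ i)

theorem integrable_mul (hK : Body K x₀ r₀ r) {m : Fin N → ℝ} {a : Fin N → E d → ℝ}
    (ha : Admissible K m (fun _ => 1) a) (g : E d → ℝ) (hg : Measurable g) (B : ℝ)
    (hB : ∀ᵐ x ∂(unif K), |g x| ≤ B) (i : Fin N) :
    Integrable (fun x => g x * a i x) (unif K) := by
  refine hK.integrable_of_bdd _ (hg.mul (ha.meas i)).aestronglyMeasurable B ?_
  filter_upwards [hB, ae_le_one ha] with x hx h1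
  rw [Real.norm_eq_abs, abs_mul, abs_of_nonneg (ha.nonneg i x)]
  calc |g x| * a i x ≤ |g x| * 1 := mul_le_mul_of_nonneg_left (h1 i) (abs_nonneg _)
    _ ≤ B := by rw [mul_one]; exact hx

theorem measurable_inner_self (T : E d → E d) (hT : Measurable T) :
    Measurable (fun x : E d => ⟪x, T x⟫) := measurable_id.inner hT

theorem integrable_inner_self (hK : Body K x₀ r₀ r) (R : ℝ) (T : E d → E d) (hT : Measurable T)
    (hTR : ∀ᵐ x ∂(unif K), ‖T x‖ ≤ R) : Integrable (fun x : E d => ⟪x, T x⟫) (unif K) := by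
  refine hK.integrable_of_bdd _ (measurable_inner_self T hT).aestronglyMeasurable (r * R) ?_
  filter_upwards [hTR, hK.ae_mem] with x hx hxK
  rw [Real.norm_eq_abs]
  calc |⟪x, T x⟫| ≤ ‖x‖ * ‖T x‖ := abs_real_inner_le_norm _ _
    _ ≤ r * R := mul_le_mul (hK.sub_ball x hxK) hx (norm_nonneg _) hK.r_nonneg

theorem integrable_continuous (hK : Body K x₀ r₀ r) (φ : E d → ℝ) (hφ : Continuous φ) :
    Integrable φ (unif K) := by
  obtain ⟨B, hB⟩ := hK.compact.exists_bound_of_continuousOn hφ.continuousOn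
  refine hK.integrable_of_bdd _ hφ.aestronglyMeasurable B ?_
  filter_upwards [hK.ae_mem] with x hx using hB x hx

theorem integrable_continuous_mul (hK : Body K x₀ r₀ r) (φ : E d → ℝ) (hφ : Continuous φ)
    (η : E d → ℝ) (hη : Measurable η) (B' : ℝ) (hb : ∀ x, |η x| ≤ B') :
    Integrable (fun x => φ x * η x) (unif K) := by
  obtain ⟨B, hB⟩ := hK.compact.exists_bound_of_continuousOn hφ.continuousOn
  refine hK.integrable_of_bdd _ (hφ.measurable.mul hη).aestronglyMeasurable (B * B') ?_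
  filter_upwards [hK.ae_mem] with x hx
  rw [norm_mul]
  exact mul_le_mul (hB x hx) (hb x) (norm_nonneg _) ((norm_nonneg _).trans (hB x hx))

end KeyUL

open KeyUL

/-- KEY-U: upper bound of `optVal` at a `δ`-discretisation, via the potential. -/
theorem optVal_le_disc (hK : Body K x₀ r₀ r) (R : ℝ) (T : E d → E d) (hT : Measurable T)
    (hTR : ∀ᵐ x ∂(unif K), ‖T x‖ ≤ R) (φ : E d → ℝ) (hφ : IsPotential K R T φ)
    (m : Fin N → ℝ) (p : Fin N → E d) (a : Fin N → E d → ℝ) (ha : Admissible K m (fun _ => 1) a)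
    (δ : ℝ) (hδ : 0 ≤ δ) (hclose : ∀ᵐ x ∂(unif K), ∀ i, a i x ≠ 0 → ‖T x - p i‖ ≤ δ)
    (η : E d → ℝ) (hη : Measurable η) (hb : ∀ x, |η x| ≤ 1 / 2)
    (hne : ∃ b, Admissible K m (fun x => 1 + η x) b) :
    optVal K m (fun x => 1 + η x) p ≤
      ∫ x, ⟪x, T x⟫ ∂(unif K) + ∫ x, φ x * η x ∂(unif K) + r * δ := by
  have := hK.isProbabilityMeasure
  have hφc := hφ.continuous
  have h1 := optVal_le_of_potential hK m (fun x => 1 + η x) (measurable_const.add hη)
    (fun x => by
      have := abs_le.1 (hb x)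
      rw [abs_le]; constructor <;> linarith [this.1, this.2])
    p hne φ hφc (fun i => conj K φ (p i)) (fun x hx i => fenchel hK φ hφc x hx (p i))
  have hiφ := integrable_continuous hK φ hφc
  have hiφη := integrable_continuous_mul hK φ hφc η hη _ hb
  have hiT := integrable_inner_self hK R T hT hTR
  have h2 : ∫ x, φ x * (1 + η x) ∂(unif K) = ∫ x, φ x ∂(unif K) + ∫ x, φ x * η x ∂(unif K) := by
    rw [← integral_add hiφ hiφη]
    congr 1; ext x; ring
  have hint : ∀ i, Integrable (fun x => conj K φ (p i) * a i x) (unif K) := fun i =>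
    integrable_mul hK ha (fun _ => conj K φ (p i)) measurable_const _
      (Filter.Eventually.of_forall fun _ => le_refl _) i
  have h3 : ∑ i, m i * conj K φ (p i) = ∫ x, ∑ i, conj K φ (p i) * a i x ∂(unif K) := by
    rw [integral_finsetSum _ (fun i _ => hint i)]
    refine Finset.sum_congr rfl (fun i _ => ?_)
    rw [integral_const_mul, ha.mass i, mul_comm]
  have h4 : ∫ x, ∑ i, conj K φ (p i) * a i x ∂(unif K) ≤
      ∫ x, (⟪x, T x⟫ - φ x + r * δ) ∂(unif K) := by
    refine integral_mono_ae (integrable_finsetSum _ (fun i _ => hint i))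
      ((hiT.sub hiφ).add (integrable_const _)) ?_
    filter_upwards [hclose, ha.sum_eq, conj_eq_ae hK R T φ hφ] with x hx hs hc
    have hterm : ∀ i, conj K φ (p i) * a i x ≤ (conj K φ (T x) + r * δ) * a i x := by
      intro i
      by_cases h0 : a i x = 0
      · rw [h0, mul_zero, mul_zero]
      · refine mul_le_mul_of_nonneg_right ?_ (ha.nonneg i x)
        have e1 := conj_le_add hK φ hφc (p i) (T x)
        have e2 : r * ‖p i - T x‖ ≤ r * δ := by
          rw [norm_sub_rev]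
          exact mul_le_mul_of_nonneg_left (hx i h0) hK.r_nonneg
        linarith
    calc ∑ i, conj K φ (p i) * a i x ≤ ∑ i, (conj K φ (T x) + r * δ) * a i x :=
          Finset.sum_le_sum (fun i _ => hterm i)
      _ = conj K φ (T x) + r * δ := by rw [← Finset.mul_sum, hs, mul_one]
      _ = ⟪x, T x⟫ - φ x + r * δ := by rw [← hc]; ring
  have h5 : ∫ x, (⟪x, T x⟫ - φ x + r * δ) ∂(unif K) =
      ∫ x, ⟪x, T x⟫ ∂(unif K) - ∫ x, φ x ∂(unif K) + r * δ := by
    have e1 : ∫ x, (⟪x, T x⟫ - φ x + r * δ) ∂(unif K) =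
        ∫ x, (⟪x, T x⟫ - φ x) ∂(unif K) + ∫ _x, r * δ ∂(unif K) :=
      integral_add (hiT.sub hiφ) (integrable_const _)
    rw [e1, integral_sub hiT hiφ, integral_const]
    simp
  linarith

/-- KEY-L: lower bound of the value of the discretised plan. -/
theorem val_disc_ge (hK : Body K x₀ r₀ r) (R : ℝ) (T : E d → E d) (hT : Measurable T)
    (hTR : ∀ᵐ x ∂(unif K), ‖T x‖ ≤ R)
    (m : Fin N → ℝ) (p : Fin N → E d) (a : Fin N → E d → ℝ) (ha : Admissible K m (fun _ => 1) a)
    (δ : ℝ) (hδ : 0 ≤ δ) (hclose : ∀ᵐ x ∂(unif K), ∀ i, a i x ≠ 0 → ‖T x - p i‖ ≤ δ) :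
    ∫ x, ⟪x, T x⟫ ∂(unif K) - r * δ ≤ val K p a := by
  have := hK.isProbabilityMeasure
  have hiT := integrable_inner_self hK R T hT hTR
  have hint : ∀ i, Integrable (fun x => ⟪x, p i⟫ * a i x) (unif K) := fun i =>
    integrable_mul hK ha (fun x => ⟪x, p i⟫) (measurable_id.inner measurable_const) (r * ‖p i‖)
      (by
        filter_upwards [hK.ae_mem] with x hx
        calc |⟪x, p i⟫| ≤ ‖x‖ * ‖p i‖ := abs_real_inner_le_norm _ _
          _ ≤ r * ‖p i‖ := mul_le_mul_of_nonneg_right (hK.sub_ball x hx) (norm_nonneg _)) i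
  have h1 : val K p a = ∫ x, ∑ i, ⟪x, p i⟫ * a i x ∂(unif K) := by
    rw [integral_finsetSum _ (fun i _ => hint i)]
    rfl
  have h2 : ∫ x, ⟪x, T x⟫ ∂(unif K) - r * δ = ∫ x, (⟪x, T x⟫ - r * δ) ∂(unif K) := by
    rw [integral_sub hiT (integrable_const _), integral_const]
    simp
  rw [h1, h2]
  refine integral_mono_ae (hiT.sub (integrable_const _))
    (integrable_finsetSum _ (fun i _ => hint i)) ?_
  filter_upwards [hclose, ha.sum_eq, hK.ae_mem] with x hx hs hxK
  have hterm : ∀ i, (⟪x, T x⟫ - r * δ) * a i x ≤ ⟪x, p i⟫ * a i x := by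
    intro i
    by_cases h0 : a i x = 0
    · rw [h0, mul_zero, mul_zero]
    · refine mul_le_mul_of_nonneg_right ?_ (ha.nonneg i x)
      have e1 : ⟪x, T x - p i⟫ ≤ ‖x‖ * ‖T x - p i‖ := real_inner_le_norm _ _
      have e2 : ‖x‖ * ‖T x - p i‖ ≤ r * δ :=
        mul_le_mul (hK.sub_ball x hxK) (hx i h0) (norm_nonneg _) hK.r_nonneg
      rw [inner_sub_right] at e1
      linarith
  calc ⟪x, T x⟫ - r * δ = ∑ i, (⟪x, T x⟫ - r * δ) * a i x := by
        rw [← Finset.mul_sum, hs, mul_one]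
    _ ≤ ∑ i, ⟪x, p i⟫ * a i x := Finset.sum_le_sum (fun i _ => hterm i)

end Crest.Agent.OT
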