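import Crest.Agent.OT.KeyMove
import Crest.Agent.OT.KeyUL
import Crest.Agent.OT.KeyM
import Crest.Agent.OT.KeyP

/-! # Task KEY: the key inequality (assembly) -/

set_option autoImplicit false
open MeasureTheory
open scoped ENNReal NNReal RealInnerProductSpace
open Crest.AnalysisR.OT

namespace Crest.Agent.OT
variable {d : ℕ} {K : Set (E d)} {x₀ : E d} {r₀ r : ℝ} {N : ℕ}

namespace KeyAsm

/-- `w⁺(x) ⟪v, T x⟫` is integrable. -/
theorem integrable_pos_inner (hK : Body K x₀ r₀ r) (R : ℝ) (T : E d → E d) (hT : Measurable T)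
    (hTR : ∀ᵐ x ∂(unif K), ‖T x‖ ≤ R) (v : E d) (u : E d → ℝ) (W : ℝ) (hu : Measurable u)
    (hW : ∀ x, |u x| ≤ W) :
    Integrable (fun x => u x * ⟪v, T x⟫) (unif K) := by
  refine hK.integrable_of_bdd _ ?_ (W * (‖v‖ * R)) ?_
  · exact (hu.mul (measurable_const.inner hT)).aestronglyMeasurable
  · filter_upwards [hTR] with x hx
    rw [Real.norm_eq_abs, abs_mul]
    have h1 : |⟪v, T x⟫| ≤ ‖v‖ * R :=
      (abs_real_inner_le_norm _ _).trans (mul_le_mul_of_nonneg_left hx (norm_nonneg _))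
    exact mul_le_mul (hW x) h1 (abs_nonneg _) ((abs_nonneg _).trans (hW x))

/-- `w⁺(x) ⟪v, T (x+v)⟫` is integrable when `w` vanishes off `Kv K v`. -/
theorem integrable_pos_inner_shift (hK : Body K x₀ r₀ r) (R : ℝ) (T : E d → E d)
    (hT : Measurable T)
    (hTR : ∀ᵐ x ∂(unif K), ‖T x‖ ≤ R) (v : E d) (u : E d → ℝ) (W : ℝ) (hu : Measurable u)
    (hW : ∀ x, |u x| ≤ W) (hsupp : ∀ x, x ∉ Kv K v → u x = 0) :
    Integrable (fun x => u x * ⟪v, T (x + v)⟫) (unif K) := by
  have hW0 : 0 ≤ W := (abs_nonneg _).trans (hW 0)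
  refine hK.integrable_of_bdd _ ?_ (W * (‖v‖ * |R|)) ?_
  · exact (hu.mul (measurable_const.inner (hT.comp (measurable_add_const v)))).aestronglyMeasurable
  · filter_upwards [hK.ae_shift v _ hTR] with x hx
    rw [Real.norm_eq_abs, abs_mul]
    by_cases hxv : x ∈ Kv K v
    · have h1 : |⟪v, T (x + v)⟫| ≤ ‖v‖ * |R| :=
        (abs_real_inner_le_norm _ _).trans
          (mul_le_mul_of_nonneg_left ((hx hxv.2).trans (le_abs_self R)) (norm_nonneg _))
      exact mul_le_mul (hW x) h1 (abs_nonneg _) hW0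
    · rw [hsupp x hxv]
      simp only [abs_zero, zero_mul]
      positivity

end KeyAsm

open KeyAsm in
/-- KEY. -/
theorem keyIneq (hK : Body K x₀ r₀ r) (C : ℝ) (hC : 0 ≤ C) (hP : PathBound K C) (R : ℝ)
    (T0 T1 : E d → E d) (hT0 : Measurable T0) (hT1 : Measurable T1)
    (hR0 : ∀ᵐ x ∂(unif K), ‖T0 x‖ ≤ R) (hR1 : ∀ᵐ x ∂(unif K), ‖T1 x‖ ≤ R)
    (φ0 φ1 : E d → ℝ) (h0 : IsPotential K R T0 φ0) (h1 : IsPotential K R T1 φ1)
    (ε : ℝ) (hε : 0 ≤ ε) (hD : Discretizable K T0 T1 ε) : KeyIneq K C T0 T1 ε := by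
  intro v w W hw hW hsupp
  have hW0 : 0 ≤ W := (abs_nonneg _).trans (hW 0)
  have hr : 0 ≤ r := hK.r_nonneg
  -- positive and negative parts
  have hwp : Measurable (fun x => max (w x) 0) := hw.max measurable_const
  have hwn : Measurable (fun x => max (- w x) 0) := hw.neg.max measurable_const
  have hWp : ∀ x, |max (w x) 0| ≤ W := by
    intro x
    rw [abs_of_nonneg (le_max_right _ _)]
    exact max_le ((le_abs_self _).trans (hW x)) hW0
  have hWn : ∀ x, |max (- w x) 0| ≤ W := by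
    intro x
    rw [abs_of_nonneg (le_max_right _ _)]
    exact max_le ((neg_le_abs _).trans (hW x)) hW0
  have hsp : ∀ x, x ∉ Kv K v → max (w x) 0 = 0 := by
    intro x hx; rw [hsupp x hx]; simp
  have hsn : ∀ x, x ∉ Kv K v → max (- w x) 0 = 0 := by
    intro x hx; rw [hsupp x hx]; simp
  -- the two first order integrals
  set I0 : ℝ := ∫ x, (max (w x) 0 * ⟪v, T0 x⟫ - max (- w x) 0 * ⟪v, T0 (x + v)⟫) ∂(unif K)
    with hI0
  set I1 : ℝ := ∫ x, (max (w x) 0 * ⟪v, T1 (x + v)⟫ - max (- w x) 0 * ⟪v, T1 x⟫) ∂(unif K)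
    with hI1
  set H : ℝ := Real.sqrt (∫ x, (w (x - v) - w x) ^ 2 ∂(unif K)) with hH
  have hH0 : 0 ≤ H := Real.sqrt_nonneg _
  have hsplit : ∫ x, (max (w x) 0 * ⟪v, T0 x - T1 (x + v)⟫
      + max (- w x) 0 * ⟪v, T1 x - T0 (x + v)⟫) ∂(unif K) = I0 - I1 := by
    rw [hI0, hI1, ← integral_sub]
    · refine integral_congr_ae (Filter.Eventually.of_forall fun x => ?_)
      simp only [inner_sub_right]
      ring
    · exact (integrable_pos_inner hK R T0 hT0 hR0 v _ W hwp hWp).sub
        (integrable_pos_inner_shift hK R T0 hT0 hR0 v _ W hwn hWn hsn)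
    · exact (integrable_pos_inner_shift hK R T1 hT1 hR1 v _ W hwp hWp hsp).sub
        (integrable_pos_inner hK R T1 hT1 hR1 v _ W hwn hWn)
  rw [hsplit]
  -- the scale `s`
  set s : ℝ := 1 / (4 * W + 4) with hs_def
  have hs : 0 < s := by positivity
  have hsW : 2 * s * W ≤ 1 := by
    rw [hs_def]
    have : 2 * (1 / (4 * W + 4)) * W = (2 * W) / (4 * W + 4) := by ring
    rw [this, div_le_one (by positivity)]
    linarith
  have hsW4 : 4 * s * W ≤ 1 := by
    rw [hs_def]
    have : 4 * (1 / (4 * W + 4)) * W = (4 * W) / (4 * W + 4) := by ring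
    rw [this, div_le_one (by positivity)]
    linarith
  set η : E d → ℝ := fun x => s * (w (x - v) - w x) with hη_def
  have hws : Measurable (fun x => w (x - v)) := hw.comp (measurable_sub_const v)
  have hηm : Measurable η := (hws.sub hw).const_mul s
  have hηb : ∀ x, |η x| ≤ 1 / 2 := by
    intro x
    simp only [hη_def, abs_mul, abs_of_pos hs]
    have h2 : |w (x - v) - w x| ≤ 2 * W := by
      calc |w (x - v) - w x| ≤ |w (x - v)| + |w x| := abs_sub _ _
        _ ≤ W + W := add_le_add (hW _) (hW _)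
        _ = 2 * W := by ring
    calc s * |w (x - v) - w x| ≤ s * (2 * W) := mul_le_mul_of_nonneg_left h2 hs.le
      _ = (4 * s * W) / 2 := by ring
      _ ≤ 1 / 2 := by linarith
  have hiw : Integrable w (unif K) :=
    hK.integrable_of_bdd _ hw.aestronglyMeasurable W (Filter.Eventually.of_forall fun x => hW x)
  have hiws : Integrable (fun x => w (x - v)) (unif K) :=
    hK.integrable_of_bdd _ hws.aestronglyMeasurable W (Filter.Eventually.of_forall fun x => hW _)
  have hη0 : ∫ x, η x ∂(unif K) = 0 := by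
    simp only [hη_def]
    rw [integral_const_mul, integral_sub hiws hiw, hK.integral_shift v w hsupp]
    simp
  have hη2 : Real.sqrt (∫ x, η x ^ 2 ∂(unif K)) = s * H := by
    have : ∀ x, η x ^ 2 = s ^ 2 * (w (x - v) - w x) ^ 2 := by
      intro x; simp only [hη_def]; ring
    simp only [this]
    rw [integral_const_mul, Real.sqrt_mul (sq_nonneg s), Real.sqrt_sq hs.le]
  have hb2 : ∀ x, |1 + η x| ≤ 2 := by
    intro x
    have := abs_le.mp (hηb x)
    rw [abs_le]
    constructor <;> linarith [this.1, this.2]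
  have hm1 : Measurable (fun x => 1 + η x) := measurable_const.add hηm
  -- main estimate for each `δ`
  have main : ∀ δ : ℝ, 0 < δ → s * (I0 - I1) ≤
      4 * r * δ + s * (2 * W * ‖v‖ * δ) + C * (s * H) * (ε + δ) := by
    intro δ hδ
    obtain ⟨N, m, p0, p1, a0, a1, hm, hsum, hi0, hi1, ha0, ha1, hc0, hc1, hdist⟩ := hD δ hδ
    have hpath := hP N m p0 p1 η hm hsum hi0 hi1 hηm hηb hη0
    rw [hη2] at hpath
    -- lower bound of P(p0)
    have hadm0 := moved_admissible hK m a0 ha0 v w W hw hW hsupp s hs.le hsW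
    have hadm1 := moved_admissible hK m a1 ha1 v w W hw hW hsupp s hs.le hsW
    have e1 : val K p0 (moved a0 v w s) ≤ optVal K m (fun x => 1 + η x) p0 :=
      val_le_optVal hK m (fun x => 1 + η x) hm1 hb2 p0 _ hadm0
    have e2 := val_moved hK m a0 ha0 v w W hw hW hsupp s p0
    have e3 := val_disc_ge hK R T0 hT0 hR0 m p0 a0 ha0 δ hδ.le hc0
    have e4 := moved_term_ge hK R T0 hT0 hR0 m p0 a0 ha0 δ hδ.le hc0 v w W hw hW hsupp
    have e5 := optVal_le_disc hK R T0 hT0 hR0 φ0 h0 m p0 a0 ha0 δ hδ.le hc0 (fun _ => 0)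
      measurable_const (fun _ => by norm_num) ⟨a0, by simpa using ha0⟩
    simp only [add_zero, mul_zero, integral_zero] at e5
    -- upper bound of P(p1)
    have e6 := optVal_le_disc hK R T1 hT1 hR1 φ1 h1 m p1 a1 ha1 δ hδ.le hc1 η hηm hηb
      ⟨_, hadm1⟩
    have e7 : val K p1 a1 ≤ optVal K m (fun _ => 1) p1 :=
      val_le_optVal hK m (fun _ => 1) measurable_const (fun _ => by norm_num) p1 _ ha1
    have e8 := val_disc_ge hK R T1 hT1 hR1 m p1 a1 ha1 δ hδ.le hc1
    have e9 := integral_potential_shift_le hK R T1 hT1 hR1 φ1 h1 v w W hw hW hsupp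
    have e10 : ∫ x, φ1 x * η x ∂(unif K) = s * ∫ x, φ1 x * (w (x - v) - w x) ∂(unif K) := by
      rw [← integral_const_mul]
      refine integral_congr_ae (Filter.Eventually.of_forall fun x => ?_)
      simp only [hη_def]
      ring
    have e11 : C * (s * H) * Real.sqrt (∑ i, m i * ‖p1 i - p0 i‖ ^ 2) ≤ C * (s * H) * (ε + δ) :=
      mul_le_mul_of_nonneg_left hdist (by positivity)
    have e12 : s * (∫ x, φ1 x * (w (x - v) - w x) ∂(unif K)) ≤ s * I1 :=
      mul_le_mul_of_nonneg_left e9 hs.le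
    have e13 : s * (I0 - 2 * W * ‖v‖ * δ) ≤ s * ∑ i, ⟪v, p0 i⟫ *
        ((∫ x, max (w x) 0 * a0 i x ∂(unif K)) - ∫ x, max (- w x) 0 * a0 i (x + v) ∂(unif K)) :=
      mul_le_mul_of_nonneg_left e4 hs.le
    rw [e10] at e6
    nlinarith [e1, e2, e3, e5, e6, e7, e8, e11, e12, e13, hpath]
  -- let `δ → 0`
  set M : ℝ := 4 * r / s + 2 * W * ‖v‖ + C * H with hM
  have hM0 : 0 ≤ M := by positivity
  have main2 : ∀ δ : ℝ, 0 < δ → I0 - I1 ≤ C * ε * H + δ * M := by
    intro δ hδ
    have h := main δ hδ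
    have h3 : s * (I0 - I1) ≤ s * (C * ε * H + δ * M) := by
      have : s * (C * ε * H + δ * M) =
          4 * r * δ + s * (2 * W * ‖v‖ * δ) + C * (s * H) * (ε + δ) := by
        rw [hM]
        field_simp
        ring
      rw [this]
      exact h
    exact le_of_mul_le_mul_left h3 hs
  refine le_of_forall_pos_le_add fun e he => ?_
  have hδ : 0 < e / (M + 1) := by positivity
  refine (main2 _ hδ).trans ?_
  have : e / (M + 1) * M ≤ e := by
    rw [div_mul_eq_mul_div, div_le_iff₀ (by positivity)]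
    nlinarith
  linarith

end Crest.Agent.OT
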