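import Crest.Agent.OT.Basic

/-! # Row 82, tasks MOVE-1, MOVE-2, KEY-M (helper24): moving mass along a translation. -/

set_option autoImplicit false
open MeasureTheory
open scoped ENNReal NNReal RealInnerProductSpace
open Crest.AnalysisR.OT

namespace Crest.Agent.OT.KeyAux
open Crest.Agent.OT
variable {d : ℕ} {K : Set (E d)} {x₀ : E d} {r₀ r : ℝ} {N : ℕ}

/-- copy of `Crest.Agent.OT.moved` (defined in `Key.lean`, which imports this file). -/
noncomputable def moved (a : Fin N → E d → ℝ) (v : E d) (w : E d → ℝ) (s : ℝ) (i : Fin N)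
    (x : E d) : ℝ :=
  a i x - s * max (w x) 0 * a i x + s * max (w (x - v)) 0 * a i (x - v)
    - s * max (- w (x - v)) 0 * a i x + s * max (- w x) 0 * a i (x + v)

/-- first piece: mass leaving `x` towards `x + v`. -/
noncomputable def P1 (a : Fin N → E d → ℝ) (w : E d → ℝ) (i : Fin N) (x : E d) : ℝ :=
  max (w x) 0 * a i x

/-- second piece: mass arriving at `x` from `x + v`. -/
noncomputable def P2 (a : Fin N → E d → ℝ) (v : E d) (w : E d → ℝ) (i : Fin N) (x : E d) : ℝ :=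
  max (- w x) 0 * a i (x + v)

theorem moved_eq (a : Fin N → E d → ℝ) (v : E d) (w : E d → ℝ) (s : ℝ) (i : Fin N) (x : E d) :
    moved a v w s i x = a i x - s * P1 a w i x + s * P1 a w i (x - v) - s * P2 a v w i (x - v)
      + s * P2 a v w i x := by
  unfold moved P1 P2
  rw [sub_add_cancel]
  ring

theorem adm_ae_le_one {m : Fin N → ℝ} {a : Fin N → E d → ℝ}
    (ha : Admissible K m (fun _ => 1) a) : ∀ᵐ x ∂(unif K), ∀ i, a i x ≤ 1 := by
  filter_upwards [ha.sum_eq] with x hx i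
  calc a i x ≤ ∑ j, a j x :=
        Finset.single_le_sum (f := fun j => a j x) (fun j _ => ha.nonneg j x) (Finset.mem_univ i)
    _ = 1 := hx

theorem W_nonneg {w : E d → ℝ} {W : ℝ} (hW : ∀ x, |w x| ≤ W) : 0 ≤ W :=
  (abs_nonneg _).trans (hW 0)

theorem pos_le {w : E d → ℝ} {W : ℝ} (hW : ∀ x, |w x| ≤ W) (x : E d) : max (w x) 0 ≤ W :=
  max_le ((le_abs_self _).trans (hW x)) (W_nonneg hW)

theorem neg_le {w : E d → ℝ} {W : ℝ} (hW : ∀ x, |w x| ≤ W) (x : E d) : max (- w x) 0 ≤ W :=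
  max_le ((neg_le_abs _).trans (hW x)) (W_nonneg hW)

theorem pos_sub_neg (t : ℝ) : max t 0 - max (-t) 0 = t := by
  rcases le_total 0 t with h | h
  · rw [max_eq_left h, max_eq_right (by linarith)]; ring
  · rw [max_eq_right h, max_eq_left (by linarith)]; ring

/-- a function vanishing off `Kv K v`, measurable, a.e. bounded. -/
structure Good (K : Set (E d)) (v : E d) (f : E d → ℝ) (B : ℝ) : Prop where
  meas : Measurable f
  supp : ∀ x, x ∉ Kv K v → f x = 0
  bdd : ∀ᵐ x ∂(unif K), |f x| ≤ B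
  B0 : 0 ≤ B

theorem Good.integrable {v : E d} {f : E d → ℝ} {B : ℝ} (hK : Body K x₀ r₀ r)
    (h : Good K v f B) : Integrable f (unif K) :=
  hK.integrable_of_bdd f h.meas.aestronglyMeasurable B h.bdd

theorem Good.shift_bdd {v : E d} {f : E d → ℝ} {B : ℝ} (hK : Body K x₀ r₀ r)
    (h : Good K v f B) : ∀ᵐ x ∂(unif K), |f (x - v)| ≤ B := by
  have h1 := hK.ae_shift (-v) (fun x => |f x| ≤ B) h.bdd
  filter_upwards [h1] with x hx
  by_cases hx' : x - v ∈ K
  · have := hx (by simpa [sub_eq_add_neg] using hx')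
    simpa [sub_eq_add_neg] using this
  · rw [h.supp _ (fun h' => hx' h'.1)]
    simpa using h.B0

theorem Good.integrable_shift {v : E d} {f : E d → ℝ} {B : ℝ} (hK : Body K x₀ r₀ r)
    (h : Good K v f B) : Integrable (fun x => f (x - v)) (unif K) :=
  hK.integrable_of_bdd _ (h.meas.comp (measurable_sub_const v)).aestronglyMeasurable B
    (h.shift_bdd hK)

theorem Good.integral_shift {v : E d} {f : E d → ℝ} {B : ℝ} (hK : Body K x₀ r₀ r)
    (h : Good K v f B) : ∫ x, f (x - v) ∂(unif K) = ∫ x, f x ∂(unif K) :=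
  hK.integral_shift v f h.supp

/-- multiplying by `⟪x, p⟫`. -/
theorem Good.inner_mul {v : E d} {f : E d → ℝ} {B : ℝ} (hK : Body K x₀ r₀ r)
    (h : Good K v f B) (p : E d) : Good K v (fun x => ⟪x, p⟫ * f x) (r * ‖p‖ * B) where
  meas := (measurable_id.inner measurable_const).mul h.meas
  supp := fun x hx => by rw [h.supp x hx, mul_zero]
  bdd := by
    filter_upwards [h.bdd, hK.ae_mem] with x hx hxK
    rw [abs_mul]
    have h1 : |⟪x, p⟫| ≤ r * ‖p‖ :=
      (abs_real_inner_le_norm x p).trans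
        (mul_le_mul_of_nonneg_right (hK.sub_ball x hxK) (norm_nonneg p))
    exact mul_le_mul h1 hx (abs_nonneg _) (mul_nonneg hK.r_nonneg (norm_nonneg p))
  B0 := mul_nonneg (mul_nonneg hK.r_nonneg (norm_nonneg p)) h.B0

/-- multiplying by `⟪x + v, p⟫`. -/
theorem Good.inner_add_mul {v : E d} {f : E d → ℝ} {B : ℝ} (hK : Body K x₀ r₀ r)
    (h : Good K v f B) (p : E d) : Good K v (fun x => ⟪x + v, p⟫ * f x) (r * ‖p‖ * B) where
  meas := ((measurable_id.add_const v).inner measurable_const).mul h.meas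
  supp := fun x hx => by rw [h.supp x hx, mul_zero]
  bdd := by
    filter_upwards [h.bdd] with x hx
    by_cases hxK : x ∈ Kv K v
    · rw [abs_mul]
      have h1 : |⟪x + v, p⟫| ≤ r * ‖p‖ :=
        (abs_real_inner_le_norm (x + v) p).trans
          (mul_le_mul_of_nonneg_right (hK.sub_ball _ hxK.2) (norm_nonneg p))
      exact mul_le_mul h1 hx (abs_nonneg _) (mul_nonneg hK.r_nonneg (norm_nonneg p))
    · rw [h.supp x hxK, mul_zero, abs_zero]
      exact mul_nonneg (mul_nonneg hK.r_nonneg (norm_nonneg p)) h.B0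
  B0 := mul_nonneg (mul_nonneg hK.r_nonneg (norm_nonneg p)) h.B0

section pieces
variable {m : Fin N → ℝ} {a : Fin N → E d → ℝ} {v : E d} {w : E d → ℝ} {W : ℝ}

theorem good_P1 (ha : Admissible K m (fun _ => 1) a) (hw : Measurable w)
    (hW : ∀ x, |w x| ≤ W) (hsupp : ∀ x, x ∉ Kv K v → w x = 0) (i : Fin N) :
    Good K v (P1 a w i) W where
  meas := (hw.max measurable_const).mul (ha.meas i)
  supp := fun x hx => by unfold P1; rw [hsupp x hx]; simp
  bdd := by
    filter_upwards [adm_ae_le_one ha] with x hx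
    unfold P1
    rw [abs_mul, abs_of_nonneg (le_max_right _ _), abs_of_nonneg (ha.nonneg i x)]
    calc max (w x) 0 * a i x ≤ W * 1 :=
          mul_le_mul (pos_le hW x) (hx i) (ha.nonneg i x) (W_nonneg hW)
      _ = W := mul_one W
  B0 := W_nonneg hW

theorem good_P2 (hK : Body K x₀ r₀ r) (ha : Admissible K m (fun _ => 1) a) (hw : Measurable w)
    (hW : ∀ x, |w x| ≤ W) (hsupp : ∀ x, x ∉ Kv K v → w x = 0) (i : Fin N) :
    Good K v (P2 a v w i) W where
  meas := (hw.neg.max measurable_const).mul ((ha.meas i).comp (measurable_add_const v))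
  supp := fun x hx => by unfold P2; rw [hsupp x hx]; simp
  bdd := by
    filter_upwards [hK.ae_shift v _ (adm_ae_le_one ha)] with x hx
    unfold P2
    by_cases hxK : x ∈ Kv K v
    · rw [abs_mul, abs_of_nonneg (le_max_right _ _), abs_of_nonneg (ha.nonneg i _)]
      calc max (- w x) 0 * a i (x + v) ≤ W * 1 :=
            mul_le_mul (neg_le hW x) (hx hxK.2 i) (ha.nonneg i _) (W_nonneg hW)
        _ = W := mul_one W
    · rw [hsupp x hxK]
      simpa using W_nonneg hW
  B0 := W_nonneg hW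

theorem integrable_a (hK : Body K x₀ r₀ r) (ha : Admissible K m (fun _ => 1) a) (i : Fin N) :
    Integrable (a i) (unif K) := by
  refine hK.integrable_of_bdd _ (ha.meas i).aestronglyMeasurable 1 ?_
  filter_upwards [adm_ae_le_one ha] with x hx
  rw [Real.norm_eq_abs, abs_of_nonneg (ha.nonneg i x)]
  exact hx i

theorem integrable_inner_a (hK : Body K x₀ r₀ r) (ha : Admissible K m (fun _ => 1) a) (i : Fin N)
    (p : E d) : Integrable (fun x => ⟪x, p⟫ * a i x) (unif K) := by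
  refine hK.integrable_of_bdd _
    ((measurable_id.inner measurable_const).mul (ha.meas i)).aestronglyMeasurable (r * ‖p‖ * 1) ?_
  filter_upwards [adm_ae_le_one ha, hK.ae_mem] with x hx hxK
  rw [Real.norm_eq_abs, abs_mul, abs_of_nonneg (ha.nonneg i x)]
  have h1 : |⟪x, p⟫| ≤ r * ‖p‖ :=
    (abs_real_inner_le_norm x p).trans
      (mul_le_mul_of_nonneg_right (hK.sub_ball x hxK) (norm_nonneg p))
  exact mul_le_mul h1 (hx i) (ha.nonneg i x) (mul_nonneg hK.r_nonneg (norm_nonneg p))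

end pieces

theorem integral_five {μ : Measure (E d)} (f1 f2 f3 f4 f5 : E d → ℝ) (s : ℝ)
    (h1 : Integrable f1 μ) (h2 : Integrable f2 μ) (h3 : Integrable f3 μ) (h4 : Integrable f4 μ)
    (h5 : Integrable f5 μ) :
    ∫ x, (f1 x - s * f2 x + s * f3 x - s * f4 x + s * f5 x) ∂μ =
      ∫ x, f1 x ∂μ - s * ∫ x, f2 x ∂μ + s * ∫ x, f3 x ∂μ - s * ∫ x, f4 x ∂μ
        + s * ∫ x, f5 x ∂μ := by
  have e2 := h2.const_mul s
  have e3 := h3.const_mul s
  have e4 := h4.const_mul s
  have e5 := h5.const_mul s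
  have a1 : Integrable (fun x => f1 x - s * f2 x) μ := h1.sub e2
  have a2 : Integrable (fun x => f1 x - s * f2 x + s * f3 x) μ := a1.add e3
  have a3 : Integrable (fun x => f1 x - s * f2 x + s * f3 x - s * f4 x) μ := a2.sub e4
  rw [integral_add a3 e5, integral_sub a2 e4, integral_add a1 e3, integral_sub h1 e2,
    integral_const_mul, integral_const_mul, integral_const_mul, integral_const_mul]

/-- MOVE-1. -/
theorem moved_admissible (hK : Body K x₀ r₀ r) (m : Fin N → ℝ) (a : Fin N → E d → ℝ)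
    (ha : Admissible K m (fun _ => 1) a) (v : E d) (w : E d → ℝ) (W : ℝ) (hw : Measurable w)
    (hW : ∀ x, |w x| ≤ W) (hsupp : ∀ x, x ∉ Kv K v → w x = 0) (s : ℝ) (hs : 0 ≤ s)
    (hsW : 2 * s * W ≤ 1) :
    Admissible K m (fun x => 1 + s * (w (x - v) - w x)) (moved a v w s) where
  meas := fun i => by
    have hg1 := good_P1 ha hw hW hsupp i
    have hg2 := good_P2 hK ha hw hW hsupp i
    have : moved a v w s i = fun x => a i x - s * P1 a w i x + s * P1 a w i (x - v)
        - s * P2 a v w i (x - v) + s * P2 a v w i x := funext (moved_eq a v w s i)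
    rw [this]
    exact ((((ha.meas i).sub (hg1.meas.const_mul s)).add
      ((hg1.meas.comp (measurable_sub_const v)).const_mul s)).sub
      ((hg2.meas.comp (measurable_sub_const v)).const_mul s)).add (hg2.meas.const_mul s)
  nonneg := fun i x => by
    unfold moved
    have h1 := pos_le hW x
    have h2 := neg_le hW (x - v)
    have h3 : 0 ≤ s * max (w (x - v)) 0 * a i (x - v) :=
      mul_nonneg (mul_nonneg hs (le_max_right _ _)) (ha.nonneg i _)
    have h4 : 0 ≤ s * max (- w x) 0 * a i (x + v) :=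
      mul_nonneg (mul_nonneg hs (le_max_right _ _)) (ha.nonneg i _)
    have h5 : s * max (w x) 0 ≤ s * W := mul_le_mul_of_nonneg_left h1 hs
    have h6 : s * max (- w (x - v)) 0 ≤ s * W := mul_le_mul_of_nonneg_left h2 hs
    have h7 : 0 ≤ (1 - s * max (w x) 0 - s * max (- w (x - v)) 0) * a i x :=
      mul_nonneg (by linarith) (ha.nonneg i x)
    nlinarith
  sum_eq := by
    have hm := hK.ae_shift (-v) (fun x => ∑ i, a i x = 1) ha.sum_eq
    have hp := hK.ae_shift v (fun x => ∑ i, a i x = 1) ha.sum_eq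
    filter_upwards [ha.sum_eq, hm, hp] with x hx hxm hxp
    unfold moved
    have e1 : max (w (x - v)) 0 * ∑ i, a i (x - v) = max (w (x - v)) 0 := by
      by_cases h : x - v ∈ Kv K v
      · have := hxm (by simpa [sub_eq_add_neg] using h.1)
        rw [← sub_eq_add_neg] at this
        rw [this, mul_one]
      · rw [hsupp _ h]; simp
    have e2 : max (- w x) 0 * ∑ i, a i (x + v) = max (- w x) 0 := by
      by_cases h : x ∈ Kv K v
      · rw [hxp h.2, mul_one]
      · rw [hsupp _ h]; simp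
    have e3 : ∑ i, (a i x - s * max (w x) 0 * a i x + s * max (w (x - v)) 0 * a i (x - v)
        - s * max (- w (x - v)) 0 * a i x + s * max (- w x) 0 * a i (x + v)) =
        (∑ i, a i x) - s * max (w x) 0 * (∑ i, a i x) + s * (max (w (x - v)) 0 * ∑ i, a i (x - v))
        - s * max (- w (x - v)) 0 * (∑ i, a i x) + s * (max (- w x) 0 * ∑ i, a i (x + v)) := by
      simp only [Finset.sum_add_distrib, Finset.sum_sub_distrib, Finset.mul_sum]
      simp only [mul_assoc]
    rw [e3, e1, e2, hx]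
    have q1 := pos_sub_neg (w x)
    have q2 := pos_sub_neg (w (x - v))
    nlinarith
  mass := fun i => by
    have hg1 := good_P1 ha hw hW hsupp i
    have hg2 := good_P2 hK ha hw hW hsupp i
    have : moved a v w s i = fun x => a i x - s * P1 a w i x + s * P1 a w i (x - v)
        - s * P2 a v w i (x - v) + s * P2 a v w i x := funext (moved_eq a v w s i)
    rw [this, integral_five _ _ _ _ _ s (integrable_a hK ha i) (hg1.integrable hK)
      (hg1.integrable_shift hK) (hg2.integrable_shift hK) (hg2.integrable hK),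
      hg1.integral_shift hK, hg2.integral_shift hK, ha.mass i]
    ring

/-- MOVE-2. -/
theorem val_moved (hK : Body K x₀ r₀ r) (m : Fin N → ℝ) (a : Fin N → E d → ℝ)
    (ha : Admissible K m (fun _ => 1) a) (v : E d) (w : E d → ℝ) (W : ℝ) (hw : Measurable w)
    (hW : ∀ x, |w x| ≤ W) (hsupp : ∀ x, x ∉ Kv K v → w x = 0) (s : ℝ) (p : Fin N → E d) :
    val K p (moved a v w s) = val K p a +
      s * ∑ i, ⟪v, p i⟫ * ((∫ x, max (w x) 0 * a i x ∂(unif K))
        - ∫ x, max (- w x) 0 * a i (x + v) ∂(unif K)) := by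
  unfold val
  rw [Finset.mul_sum, ← Finset.sum_add_distrib]
  refine Finset.sum_congr rfl fun i _ => ?_
  have hg1 := good_P1 ha hw hW hsupp i
  have hg2 := good_P2 hK ha hw hW hsupp i
  have G1 := hg1.inner_add_mul hK (p i)
  have G2 := hg2.inner_add_mul hK (p i)
  have F1 := hg1.inner_mul hK (p i)
  have F2 := hg2.inner_mul hK (p i)
  have e : (fun x => ⟪x, p i⟫ * moved a v w s i x) = fun x =>
      ⟪x, p i⟫ * a i x - s * (⟪x, p i⟫ * P1 a w i x)
        + s * ((fun z => ⟪z + v, p i⟫ * P1 a w i z) (x - v))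
        - s * ((fun z => ⟪z + v, p i⟫ * P2 a v w i z) (x - v)) + s * (⟪x, p i⟫ * P2 a v w i x) := by
    funext x
    simp only [moved_eq, sub_add_cancel]
    ring
  rw [e, integral_five _ _ _ _ _ s (integrable_inner_a hK ha i (p i)) (F1.integrable hK)
    (G1.integrable_shift hK) (G2.integrable_shift hK) (F2.integrable hK),
    G1.integral_shift hK, G2.integral_shift hK]
  have s1 : ∫ x, ⟪x + v, p i⟫ * P1 a w i x ∂(unif K) =
      ∫ x, ⟪x, p i⟫ * P1 a w i x ∂(unif K) + ⟪v, p i⟫ * ∫ x, P1 a w i x ∂(unif K) := by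
    rw [← integral_const_mul, ← integral_add (F1.integrable hK) ((hg1.integrable hK).const_mul _)]
    refine integral_congr_ae (Filter.Eventually.of_forall fun x => ?_)
    simp only [inner_add_left]
    ring
  have s2 : ∫ x, ⟪x + v, p i⟫ * P2 a v w i x ∂(unif K) =
      ∫ x, ⟪x, p i⟫ * P2 a v w i x ∂(unif K) + ⟪v, p i⟫ * ∫ x, P2 a v w i x ∂(unif K) := by
    rw [← integral_const_mul, ← integral_add (F2.integrable hK) ((hg2.integrable hK).const_mul _)]
    refine integral_congr_ae (Filter.Eventually.of_forall fun x => ?_)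
    simp only [inner_add_left]
    ring
  rw [s1, s2]
  unfold P1 P2
  ring

/-- a convex combination of points `δ`-close to `y`, tested against `v`. -/
theorem abs_sum_inner_sub_le (c : Fin N → ℝ) (hc : ∀ i, 0 ≤ c i) (hsum : ∑ i, c i = 1)
    (p : Fin N → E d) (y v : E d) (δ : ℝ) (hclose : ∀ i, c i ≠ 0 → ‖y - p i‖ ≤ δ) :
    |∑ i, ⟪v, p i⟫ * c i - ⟪v, y⟫| ≤ ‖v‖ * δ := by
  have e : ∑ i, ⟪v, p i⟫ * c i - ⟪v, y⟫ = ∑ i, ⟪v, p i - y⟫ * c i := by
    have : ⟪v, y⟫ = ∑ i, ⟪v, y⟫ * c i := by rw [← Finset.mul_sum, hsum, mul_one]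
    rw [this, ← Finset.sum_sub_distrib]
    refine Finset.sum_congr rfl fun i _ => ?_
    rw [inner_sub_right]; ring
  rw [e]
  calc |∑ i, ⟪v, p i - y⟫ * c i| ≤ ∑ i, |⟪v, p i - y⟫ * c i| := Finset.abs_sum_le_sum_abs _ _
    _ ≤ ∑ i, ‖v‖ * δ * c i := by
        refine Finset.sum_le_sum fun i _ => ?_
        rw [abs_mul, abs_of_nonneg (hc i)]
        by_cases h0 : c i = 0
        · rw [h0, mul_zero, mul_zero]
        · refine mul_le_mul_of_nonneg_right ?_ (hc i)
          refine (abs_real_inner_le_norm _ _).trans (mul_le_mul_of_nonneg_left ?_ (norm_nonneg v))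
          rw [norm_sub_rev]
          exact hclose i h0
    _ = ‖v‖ * δ := by rw [← Finset.mul_sum, hsum, mul_one]

/-- KEY-M. -/
theorem moved_term_ge (hK : Body K x₀ r₀ r) (R : ℝ) (T : E d → E d) (hT : Measurable T)
    (hTR : ∀ᵐ x ∂(unif K), ‖T x‖ ≤ R)
    (m : Fin N → ℝ) (p : Fin N → E d) (a : Fin N → E d → ℝ) (ha : Admissible K m (fun _ => 1) a)
    (δ : ℝ) (hδ : 0 ≤ δ) (hclose : ∀ᵐ x ∂(unif K), ∀ i, a i x ≠ 0 → ‖T x - p i‖ ≤ δ)
    (v : E d) (w : E d → ℝ) (W : ℝ) (hw : Measurable w)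
    (hW : ∀ x, |w x| ≤ W) (hsupp : ∀ x, x ∉ Kv K v → w x = 0) :
    ∫ x, (max (w x) 0 * ⟪v, T x⟫ - max (- w x) 0 * ⟪v, T (x + v)⟫) ∂(unif K) - 2 * W * ‖v‖ * δ ≤
      ∑ i, ⟪v, p i⟫ * ((∫ x, max (w x) 0 * a i x ∂(unif K))
        - ∫ x, max (- w x) 0 * a i (x + v) ∂(unif K)) := by
  haveI := hK.isProbabilityMeasure
  have hW0 := W_nonneg hW
  have hg1 := fun i => good_P1 ha hw hW hsupp i
  have hg2 := fun i => good_P2 hK ha hw hW hsupp i
  have hD : ∀ i, Integrable (fun x => P1 a w i x - P2 a v w i x) (unif K) := fun i =>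
    ((hg1 i).integrable hK).sub ((hg2 i).integrable hK)
  have hS : ∀ i, Integrable (fun x => ⟪v, p i⟫ * (P1 a w i x - P2 a v w i x)) (unif K) := fun i =>
    (hD i).const_mul _
  -- the right-hand side as one integral
  have eR : ∑ i, ⟪v, p i⟫ * ((∫ x, max (w x) 0 * a i x ∂(unif K))
        - ∫ x, max (- w x) 0 * a i (x + v) ∂(unif K)) =
      ∫ x, ∑ i, ⟪v, p i⟫ * (P1 a w i x - P2 a v w i x) ∂(unif K) := by
    rw [integral_finset_sum _ (fun i _ => hS i)]
    refine Finset.sum_congr rfl fun i _ => ?_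
    rw [integral_const_mul, integral_sub ((hg1 i).integrable hK) ((hg2 i).integrable hK)]
    rfl
  rw [eR]
  -- integrability of the left integrand
  have hR0 : ∀ᵐ x ∂(unif K), |max (w x) 0 * ⟪v, T x⟫| ≤ W * (‖v‖ * R) := by
    filter_upwards [hTR] with x hx
    rw [abs_mul, abs_of_nonneg (le_max_right _ _)]
    refine mul_le_mul (pos_le hW x) ?_ (abs_nonneg _) hW0
    exact (abs_real_inner_le_norm _ _).trans (mul_le_mul_of_nonneg_left hx (norm_nonneg v))
  have hRR : 0 ≤ W * (‖v‖ * R) := by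
    obtain ⟨x, hx⟩ := hR0.exists
    exact (abs_nonneg _).trans hx
  have hR1 : ∀ᵐ x ∂(unif K), |max (- w x) 0 * ⟪v, T (x + v)⟫| ≤ W * (‖v‖ * R) := by
    filter_upwards [hK.ae_shift v _ hTR] with x hx
    by_cases hxK : x ∈ Kv K v
    · rw [abs_mul, abs_of_nonneg (le_max_right _ _)]
      refine mul_le_mul (neg_le hW x) ?_ (abs_nonneg _) hW0
      exact (abs_real_inner_le_norm _ _).trans
        (mul_le_mul_of_nonneg_left (hx hxK.2) (norm_nonneg v))
    · rw [hsupp x hxK]
      simpa using hRR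
  have i1 : Integrable (fun x => max (w x) 0 * ⟪v, T x⟫) (unif K) :=
    hK.integrable_of_bdd _ ((hw.max measurable_const).mul
      (measurable_const.inner hT)).aestronglyMeasurable _ hR0
  have i2 : Integrable (fun x => max (- w x) 0 * ⟪v, T (x + v)⟫) (unif K) :=
    hK.integrable_of_bdd _ ((hw.neg.max measurable_const).mul
      (measurable_const.inner (hT.comp (measurable_add_const v)))).aestronglyMeasurable _ hR1
  have i12 : Integrable (fun x => max (w x) 0 * ⟪v, T x⟫ - max (- w x) 0 * ⟪v, T (x + v)⟫)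
      (unif K) := i1.sub i2
  have eL : ∫ x, (max (w x) 0 * ⟪v, T x⟫ - max (- w x) 0 * ⟪v, T (x + v)⟫) ∂(unif K)
      - 2 * W * ‖v‖ * δ =
      ∫ x, (max (w x) 0 * ⟪v, T x⟫ - max (- w x) 0 * ⟪v, T (x + v)⟫ - 2 * W * ‖v‖ * δ)
        ∂(unif K) := by
    rw [integral_sub i12 (integrable_const _), integral_const]
    simp
  rw [eL]
  refine integral_mono_ae (i12.sub (integrable_const _))
    (integrable_finset_sum _ (fun i _ => hS i)) ?_
  have hboth : ∀ᵐ x ∂(unif K), (∑ i, a i x = 1) ∧ ∀ i, a i x ≠ 0 → ‖T x - p i‖ ≤ δ := by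
    filter_upwards [ha.sum_eq, hclose] with x h1 h2 using ⟨h1, h2⟩
  filter_upwards [hboth, hK.ae_shift v _ hboth] with x hx hxv
  have hvδ : 0 ≤ ‖v‖ * δ := mul_nonneg (norm_nonneg v) hδ
  have eS : ∑ i, ⟪v, p i⟫ * (P1 a w i x - P2 a v w i x) =
      max (w x) 0 * (∑ i, ⟪v, p i⟫ * a i x) - max (- w x) 0 * (∑ i, ⟪v, p i⟫ * a i (x + v)) := by
    rw [Finset.mul_sum, Finset.mul_sum, ← Finset.sum_sub_distrib]
    refine Finset.sum_congr rfl fun i _ => ?_
    unfold P1 P2
    ring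
  show max (w x) 0 * ⟪v, T x⟫ - max (- w x) 0 * ⟪v, T (x + v)⟫ - 2 * W * ‖v‖ * δ ≤
    ∑ i, ⟪v, p i⟫ * (P1 a w i x - P2 a v w i x)
  rw [eS]
  by_cases hxK : x ∈ Kv K v
  · have b1 := abs_le.1 (abs_sum_inner_sub_le (fun i => a i x) (fun i => ha.nonneg i x) hx.1 p
      (T x) v δ hx.2)
    have b2 := abs_le.1 (abs_sum_inner_sub_le (fun i => a i (x + v)) (fun i => ha.nonneg i _)
      (hxv hxK.2).1 p (T (x + v)) v δ (hxv hxK.2).2)
    have p1 := pos_le hW x
    have p2 := neg_le hW x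
    have q1 : (0:ℝ) ≤ max (w x) 0 := le_max_right _ _
    have q2 : (0:ℝ) ≤ max (- w x) 0 := le_max_right _ _
    have c1 : max (w x) 0 * (⟪v, T x⟫ - ‖v‖ * δ) ≤ max (w x) 0 * (∑ i, ⟪v, p i⟫ * a i x) :=
      mul_le_mul_of_nonneg_left (by linarith [b1.1]) q1
    have c2 : max (- w x) 0 * (∑ i, ⟪v, p i⟫ * a i (x + v)) ≤
        max (- w x) 0 * (⟪v, T (x + v)⟫ + ‖v‖ * δ) :=
      mul_le_mul_of_nonneg_left (by linarith [b2.2]) q2
    have c3 : max (w x) 0 * (‖v‖ * δ) ≤ W * (‖v‖ * δ) := mul_le_mul_of_nonneg_right p1 hvδ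
    have c4 : max (- w x) 0 * (‖v‖ * δ) ≤ W * (‖v‖ * δ) := mul_le_mul_of_nonneg_right p2 hvδ
    nlinarith
  · rw [hsupp x hxK]
    simp only [neg_zero, max_self, zero_mul, sub_zero, zero_sub]
    have : 0 ≤ 2 * W * ‖v‖ * δ := by positivity
    linarith

end Crest.Agent.OT.KeyAux
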