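import Crest.Agent.OT.OptVal
import Crest.Agent.OT.KeyMoveAux

/-! # Task MOVE: the moved plan -/

set_option autoImplicit false
open MeasureTheory
open scoped ENNReal NNReal RealInnerProductSpace
open Crest.AnalysisR.OT

namespace Crest.Agent.OT
variable {d : ℕ} {K : Set (E d)} {x₀ : E d} {r₀ r : ℝ} {N : ℕ}

/-- the plan obtained from `a` by moving the mass `s w⁺(x) a i x` from `x` to `x + v` and the mass
`s w⁻(x) a i (x+v)` from `x + v` to `x`. -/
noncomputable def moved (a : Fin N → E d → ℝ) (v : E d) (w : E d → ℝ) (s : ℝ) (i : Fin N) (x : E d) : ℝ :=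
  a i x - s * max (w x) 0 * a i x + s * max (w (x - v)) 0 * a i (x - v)
    - s * max (- w (x - v)) 0 * a i x + s * max (- w x) 0 * a i (x + v)

/-- MOVE-1. -/
theorem moved_admissible (hK : Body K x₀ r₀ r) (m : Fin N → ℝ) (a : Fin N → E d → ℝ)
    (ha : Admissible K m (fun _ => 1) a) (v : E d) (w : E d → ℝ) (W : ℝ) (hw : Measurable w)
    (hW : ∀ x, |w x| ≤ W) (hsupp : ∀ x, x ∉ Kv K v → w x = 0) (s : ℝ) (hs : 0 ≤ s)
    (hsW : 2 * s * W ≤ 1) :
    Admissible K m (fun x => 1 + s * (w (x - v) - w x)) (moved a v w s) :=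
  KeyAux.moved_admissible hK m a ha v w W hw hW hsupp s hs hsW

/-- MOVE-2. -/
theorem val_moved (hK : Body K x₀ r₀ r) (m : Fin N → ℝ) (a : Fin N → E d → ℝ)
    (ha : Admissible K m (fun _ => 1) a) (v : E d) (w : E d → ℝ) (W : ℝ) (hw : Measurable w)
    (hW : ∀ x, |w x| ≤ W) (hsupp : ∀ x, x ∉ Kv K v → w x = 0) (s : ℝ) (p : Fin N → E d) :
    val K p (moved a v w s) = val K p a +
      s * ∑ i, ⟪v, p i⟫ * ((∫ x, max (w x) 0 * a i x ∂(unif K))
        - ∫ x, max (- w x) 0 * a i (x + v) ∂(unif K)) :=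
  KeyAux.val_moved hK m a ha v w W hw hW hsupp s p

end Crest.Agent.OT
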