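import Crest.Agent.OT.Cells

/-! # Task OPT: API of `Admissible`, `val`, `optVal`. -/

set_option autoImplicit false
open MeasureTheory
open scoped ENNReal NNReal RealInnerProductSpace
open Crest.AnalysisR.OT

namespace Crest.Agent.OT
variable {d : ℕ} {K : Set (E d)} {x₀ : E d} {r₀ r : ℝ} {N : ℕ}

namespace Opt

/-- each piece of an admissible plan is a.e. bounded by the density. -/
theorem ae_le_density (m : Fin N → ℝ) (ϱ : E d → ℝ) (b : Fin N → E d → ℝ)
    (hb : Admissible K m ϱ b) (i : Fin N) : ∀ᵐ x ∂(unif K), b i x ≤ ϱ x := by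
  filter_upwards [hb.sum_eq] with x hx
  rw [← hx]
  exact Finset.single_le_sum (f := fun j => b j x) (fun j _ => hb.nonneg j x) (Finset.mem_univ i)

theorem ae_norm_le_two (m : Fin N → ℝ) (ϱ : E d → ℝ) (h2 : ∀ x, |ϱ x| ≤ 2)
    (b : Fin N → E d → ℝ) (hb : Admissible K m ϱ b) (i : Fin N) :
    ∀ᵐ x ∂(unif K), ‖b i x‖ ≤ 2 := by
  filter_upwards [ae_le_density m ϱ b hb i] with x hx
  rw [Real.norm_eq_abs, abs_of_nonneg (hb.nonneg i x)]
  exact hx.trans ((le_abs_self _).trans (h2 x))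

/-- `f * b i` is integrable if `f` is measurable and bounded on `K`. -/
theorem integrable_mul (hK : Body K x₀ r₀ r) (m : Fin N → ℝ) (ϱ : E d → ℝ) (h2 : ∀ x, |ϱ x| ≤ 2)
    (b : Fin N → E d → ℝ) (hb : Admissible K m ϱ b) (i : Fin N) (f : E d → ℝ) (hf : Measurable f)
    (B : ℝ) (hB : ∀ x ∈ K, |f x| ≤ B) : Integrable (fun x => f x * b i x) (unif K) := by
  refine hK.integrable_of_bdd _ (hf.mul (hb.meas i)).aestronglyMeasurable (B * 2) ?_
  filter_upwards [ae_norm_le_two m ϱ h2 b hb i, hK.ae_mem] with x hx hxK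
  rw [norm_mul]
  exact mul_le_mul (hB x hxK) hx (norm_nonneg _) ((abs_nonneg _).trans (hB x hxK))

theorem exists_bound_of_continuous (hK : Body K x₀ r₀ r) (φ : E d → ℝ) (hφ : Continuous φ) :
    ∃ B, ∀ x ∈ K, |φ x| ≤ B := by
  obtain ⟨B, hB⟩ := hK.compact.exists_bound_of_continuousOn hφ.continuousOn
  exact ⟨B, fun x hx => by simpa using hB x hx⟩

theorem abs_inner_le (hK : Body K x₀ r₀ r) (y : E d) (x : E d) (hx : x ∈ K) :
    |⟪x, y⟫| ≤ r * ‖y‖ :=
  (abs_real_inner_le_norm x y).trans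
    (mul_le_mul_of_nonneg_right (hK.sub_ball x hx) (norm_nonneg _))

theorem measurable_inner_right (y : E d) : Measurable (fun x : E d => ⟪x, y⟫) :=
  (continuous_id.inner continuous_const).measurable

/-- the basic identity behind weak duality. -/
theorem sum_integral_potential (hK : Body K x₀ r₀ r) (m : Fin N → ℝ) (ϱ : E d → ℝ)
    (h2 : ∀ x, |ϱ x| ≤ 2) (b : Fin N → E d → ℝ) (hb : Admissible K m ϱ b)
    (φ : E d → ℝ) (hφ : Continuous φ) (s : Fin N → ℝ) :
    ∑ i, ∫ x, (φ x + s i) * b i x ∂(unif K) = ∫ x, φ x * ϱ x ∂(unif K) + ∑ i, m i * s i := by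
  obtain ⟨B, hB⟩ := exists_bound_of_continuous hK φ hφ
  have hi : ∀ i, Integrable (fun x => φ x * b i x) (unif K) := fun i =>
    integrable_mul hK m ϱ h2 b hb i φ hφ.measurable B hB
  have hi' : ∀ i, Integrable (fun x => s i * b i x) (unif K) := fun i =>
    integrable_mul hK m ϱ h2 b hb i (fun _ => s i) measurable_const |s i| (fun _ _ => le_rfl)
  have h1 : ∀ i, ∫ x, (φ x + s i) * b i x ∂(unif K)
      = ∫ x, φ x * b i x ∂(unif K) + m i * s i := by
    intro i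
    have : (fun x => (φ x + s i) * b i x) = fun x => φ x * b i x + s i * b i x := by
      funext x; ring
    rw [this, integral_add (hi i) (hi' i), integral_const_mul, hb.mass i, mul_comm (s i)]
  simp_rw [h1]
  rw [Finset.sum_add_distrib, ← integral_finsetSum _ (fun i _ => hi i)]
  congr 1
  refine integral_congr_ae ?_
  filter_upwards [hb.sum_eq] with x hx
  rw [← Finset.mul_sum, hx]

/-- equality case of weak duality. -/
theorem val_eq_of_potential (hK : Body K x₀ r₀ r) (m : Fin N → ℝ) (ϱ : E d → ℝ)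
    (h2 : ∀ x, |ϱ x| ≤ 2) (y : Fin N → E d) (b : Fin N → E d → ℝ) (hb : Admissible K m ϱ b)
    (φ : E d → ℝ) (hφ : Continuous φ) (s : Fin N → ℝ)
    (h : ∀ x ∈ K, ∀ i, b i x ≠ 0 → ⟪x, y i⟫ = φ x + s i) :
    val K y b = ∫ x, φ x * ϱ x ∂(unif K) + ∑ i, m i * s i := by
  rw [← sum_integral_potential hK m ϱ h2 b hb φ hφ s]
  unfold val
  refine Finset.sum_congr rfl fun i _ => integral_congr_ae ?_
  filter_upwards [hK.ae_mem] with x hx
  by_cases h0 : b i x = 0
  · simp [h0]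
  · rw [h x hx i h0]

/-- value of an "indicator" plan. -/
theorem val_indicator (hK : Body K x₀ r₀ r) (ϱ : E d → ℝ) (hϱ : Measurable ϱ)
    (h2 : ∀ x, |ϱ x| ≤ 2) (S : Fin N → Set (E d)) (hS : ∀ i, MeasurableSet (S i))
    (y : Fin N → E d) :
    val K y (fun i => (S i).indicator ϱ) = ∑ i, ⟪∫ x in S i, ϱ x • x ∂(unif K), y i⟫ := by
  unfold val
  refine Finset.sum_congr rfl fun i _ => ?_
  have hint : Integrable (fun x : E d => ϱ x • x) (unif K) := by
    refine hK.integrable_of_bdd _ (hϱ.smul measurable_id).aestronglyMeasurable (2 * r) ?_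
    filter_upwards [hK.ae_mem] with x hx
    rw [norm_smul]
    exact mul_le_mul (h2 x) (hK.sub_ball x hx) (norm_nonneg _) (by norm_num)
  have h1 : (fun x => ⟪x, y i⟫ * (S i).indicator ϱ x)
      = (S i).indicator (fun x => ⟪y i, ϱ x • x⟫) := by
    funext x
    by_cases hx : x ∈ S i
    · simp only [Set.indicator_of_mem hx, real_inner_smul_right, real_inner_comm]
      ring
    · simp only [Set.indicator_of_notMem hx, mul_zero]
  rw [h1, integral_indicator (hS i), integral_inner hint.integrableOn, real_inner_comm]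

end Opt

/-- weak duality: any "potential pair" bounds the value of any plan. -/
theorem val_le_of_potential (hK : Body K x₀ r₀ r) (m : Fin N → ℝ) (ϱ : E d → ℝ) (hϱ : Measurable ϱ)
    (h2 : ∀ x, |ϱ x| ≤ 2) (y : Fin N → E d) (b : Fin N → E d → ℝ) (hb : Admissible K m ϱ b)
    (φ : E d → ℝ) (hφ : Continuous φ) (s : Fin N → ℝ)
    (h : ∀ x ∈ K, ∀ i, ⟪x, y i⟫ ≤ φ x + s i) :
    val K y b ≤ ∫ x, φ x * ϱ x ∂(unif K) + ∑ i, m i * s i := by
  rw [← Opt.sum_integral_potential hK m ϱ h2 b hb φ hφ s]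
  unfold val
  obtain ⟨B, hB⟩ := Opt.exists_bound_of_continuous hK φ hφ
  refine Finset.sum_le_sum fun i _ => integral_mono_ae ?_ ?_ ?_
  · exact Opt.integrable_mul hK m ϱ h2 b hb i _ (Opt.measurable_inner_right (y i)) (r * ‖y i‖)
      (fun x hx => Opt.abs_inner_le hK (y i) x hx)
  · exact Opt.integrable_mul hK m ϱ h2 b hb i _ (hφ.measurable.add_const (s i)) (B + |s i|)
      (fun x hx => (abs_add_le _ _).trans (add_le_add (hB x hx) le_rfl))
  · filter_upwards [hK.ae_mem] with x hx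
    exact mul_le_mul_of_nonneg_right (h x hx i) (hb.nonneg i x)

namespace Opt

theorem bddAbove_vals (hK : Body K x₀ r₀ r) (m : Fin N → ℝ) (ϱ : E d → ℝ) (hϱ : Measurable ϱ)
    (h2 : ∀ x, |ϱ x| ≤ 2) (y : Fin N → E d) :
    BddAbove {v | ∃ b, Admissible K m ϱ b ∧ v = val K y b} := by
  refine ⟨∫ x, (0:ℝ) * ϱ x ∂(unif K) + ∑ i, m i * (r * ‖y i‖), ?_⟩
  rintro v ⟨b, hb, rfl⟩
  refine val_le_of_potential hK m ϱ hϱ h2 y b hb (fun _ => 0) continuous_const _ ?_
  intro x hx i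
  rw [zero_add]
  exact (le_abs_self _).trans (abs_inner_le hK (y i) x hx)

end Opt

theorem val_le_optVal (hK : Body K x₀ r₀ r) (m : Fin N → ℝ) (ϱ : E d → ℝ) (hϱ : Measurable ϱ)
    (h2 : ∀ x, |ϱ x| ≤ 2) (y : Fin N → E d) (b : Fin N → E d → ℝ) (hb : Admissible K m ϱ b) :
    val K y b ≤ optVal K m ϱ y :=
  le_csSup (Opt.bddAbove_vals hK m ϱ hϱ h2 y) ⟨b, hb, rfl⟩

theorem optVal_le_of_potential (hK : Body K x₀ r₀ r) (m : Fin N → ℝ) (ϱ : E d → ℝ)
    (hϱ : Measurable ϱ) (h2 : ∀ x, |ϱ x| ≤ 2) (y : Fin N → E d)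
    (hne : ∃ b, Admissible K m ϱ b)
    (φ : E d → ℝ) (hφ : Continuous φ) (s : Fin N → ℝ)
    (h : ∀ x ∈ K, ∀ i, ⟪x, y i⟫ ≤ φ x + s i) :
    optVal K m ϱ y ≤ ∫ x, φ x * ϱ x ∂(unif K) + ∑ i, m i * s i := by
  obtain ⟨b0, hb0⟩ := hne
  refine csSup_le ⟨_, b0, hb0, rfl⟩ ?_
  rintro v ⟨b, hb, rfl⟩
  exact val_le_of_potential hK m ϱ hϱ h2 y b hb φ hφ s h

/-- the Laguerre plan. -/
theorem admissible_of_weights (hK : Body K x₀ r₀ r) (hN : 0 < N) (m : Fin N → ℝ) (ϱ : E d → ℝ)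
    (hϱ : Measurable ϱ) (h0 : ∀ x, 0 ≤ ϱ x) (y : Fin N → E d) (hy : Function.Injective y)
    (c : Fin N → ℝ) (hc : IsWeights K m ϱ y c) :
    Admissible K m ϱ (fun i => (cell K y c i).indicator ϱ) := by
  refine ⟨fun i => hϱ.indicator (measurableSet_cell hK y c i),
    fun i x => Set.indicator_nonneg (fun x _ => h0 x) x, ?_, fun i => ?_⟩
  · filter_upwards [hK.ae_mem, ae_not_mem_two_cells hK y hy c] with x hx huniq
    obtain ⟨i, hi⟩ := exists_mem_cell hN y c x hx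
    rw [Finset.sum_eq_single i]
    · exact Set.indicator_of_mem hi ϱ
    · intro j _ hji
      exact Set.indicator_of_notMem (fun hj => hji (huniq j i hj hi)) ϱ
    · intro h; exact absurd (Finset.mem_univ i) h
  · rw [integral_indicator (measurableSet_cell hK y c i)]
    exact hc i

/-- the Laguerre plan is optimal. -/
theorem optVal_eq_of_weights (hK : Body K x₀ r₀ r) (hN : 0 < N) (m : Fin N → ℝ) (ϱ : E d → ℝ)
    (hϱ : Measurable ϱ) (h0 : ∀ x, 0 ≤ ϱ x) (h2 : ∀ x, ϱ x ≤ 2) (y : Fin N → E d)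
    (hy : Function.Injective y) (c : Fin N → ℝ) (hc : IsWeights K m ϱ y c) :
    optVal K m ϱ y = ∑ i, ⟪∫ x in cell K y c i, ϱ x • x ∂(unif K), y i⟫ := by
  have h2' : ∀ x, |ϱ x| ≤ 2 := fun x => by rw [abs_of_nonneg (h0 x)]; exact h2 x
  have hadm := admissible_of_weights hK hN m ϱ hϱ h0 y hy c hc
  have hne : (Finset.univ : Finset (Fin N)).Nonempty := ⟨⟨0, hN⟩, Finset.mem_univ _⟩
  set φ : E d → ℝ := fun x => Finset.univ.sup' hne (fun j => ⟪x, y j⟫ - c j) with hφdef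
  have hφ : Continuous φ :=
    Continuous.finset_sup'_apply hne
      (fun j _ => (continuous_id.inner continuous_const).sub continuous_const)
  have hle : ∀ x ∈ K, ∀ i, ⟪x, y i⟫ ≤ φ x + c i := by
    intro x _ i
    have : ⟪x, y i⟫ - c i ≤ φ x :=
      Finset.le_sup' (fun j => ⟪x, y j⟫ - c j) (Finset.mem_univ i)
    linarith
  have heq : ∀ x ∈ K, ∀ i, (cell K y c i).indicator ϱ x ≠ 0 → ⟪x, y i⟫ = φ x + c i := by
    intro x hx i hne0
    have hmem : x ∈ cell K y c i := by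
      by_contra hcon
      exact hne0 (Set.indicator_of_notMem hcon ϱ)
    have : φ x ≤ ⟪x, y i⟫ - c i := Finset.sup'_le hne _ (fun j _ => hmem.2 j)
    have := hle x hx i
    linarith
  rw [← Opt.val_indicator hK ϱ hϱ h2' _ (fun i => measurableSet_cell hK y c i) y]
  refine le_antisymm ?_ (val_le_optVal hK m ϱ hϱ h2' y _ hadm)
  rw [Opt.val_eq_of_potential hK m ϱ h2' y _ hadm φ hφ c heq]
  exact optVal_le_of_potential hK m ϱ hϱ h2' y ⟨_, hadm⟩ φ hφ c hle

/-- subgradient inequality of `y ↦ optVal K m ϱ y` at a point with Laguerre weights. -/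
theorem optVal_subgradient (hK : Body K x₀ r₀ r) (hN : 0 < N) (m : Fin N → ℝ) (ϱ : E d → ℝ)
    (hϱ : Measurable ϱ) (h0 : ∀ x, 0 ≤ ϱ x) (h2 : ∀ x, ϱ x ≤ 2) (y y' : Fin N → E d)
    (hy : Function.Injective y) (c : Fin N → ℝ) (hc : IsWeights K m ϱ y c) :
    optVal K m ϱ y + ∑ i, ⟪∫ x in cell K y c i, ϱ x • x ∂(unif K), y' i - y i⟫ ≤ optVal K m ϱ y' := by
  have h2' : ∀ x, |ϱ x| ≤ 2 := fun x => by rw [abs_of_nonneg (h0 x)]; exact h2 x
  have hadm := admissible_of_weights hK hN m ϱ hϱ h0 y hy c hc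
  rw [optVal_eq_of_weights hK hN m ϱ hϱ h0 h2 y hy c hc, ← Finset.sum_add_distrib]
  have : ∀ i, ⟪∫ x in cell K y c i, ϱ x • x ∂(unif K), y i⟫
      + ⟪∫ x in cell K y c i, ϱ x • x ∂(unif K), y' i - y i⟫
      = ⟪∫ x in cell K y c i, ϱ x • x ∂(unif K), y' i⟫ := by
    intro i
    rw [← inner_add_right, add_sub_cancel]
  simp_rw [this]
  rw [← Opt.val_indicator hK ϱ hϱ h2' _ (fun i => measurableSet_cell hK y c i) y']
  exact val_le_optVal hK m ϱ hϱ h2' y' _ hadm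

end Crest.Agent.OT
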