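import Crest.Agent.OT.PathAux

/-! # Task PATH: from the F-bound to the path bound. -/

set_option autoImplicit false
open MeasureTheory
open scoped ENNReal NNReal RealInnerProductSpace
open Crest.AnalysisR.OT

namespace Crest.Agent.OT
variable {d : ℕ} {K : Set (E d)} {x₀ : E d} {r₀ r : ℝ} {N : ℕ}

/-- PATH-1: elementary lemma on two "convex functions with subgradients" on a cofinite subset `G`
of `[0,1]`. (Partition `0 = t_0 < ... < t_n = 1` in `G` of small mesh;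
`D t' - D t ≥ (a1 t - a0 t') (t' - t) ≥ (-η - (a0 t' - a0 t)) (t' - t)`, `a0` is monotone on `G`,
so the error telescopes to `mesh * (a0 1 - a0 0)`.) -/
theorem convex_pair_lemma (f1 f0 a1 a0 : ℝ → ℝ) (G : Set ℝ) (hG : (Set.Icc (0:ℝ) 1 \ G).Finite)
    (h0 : (0:ℝ) ∈ G) (h1 : (1:ℝ) ∈ G)
    (sub1 : ∀ t ∈ G ∩ Set.Icc 0 1, ∀ t' ∈ G ∩ Set.Icc 0 1, f1 t + a1 t * (t' - t) ≤ f1 t')
    (sub0 : ∀ t ∈ G ∩ Set.Icc 0 1, ∀ t' ∈ G ∩ Set.Icc 0 1, f0 t + a0 t * (t' - t) ≤ f0 t')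
    (η : ℝ) (hclose : ∀ t ∈ G ∩ Set.Icc 0 1, |a1 t - a0 t| ≤ η) :
    f1 0 - f0 0 ≤ f1 1 - f0 1 + η := by
  have := Path.one_dim f1 f0 a1 a0 G hG h0 h1 η sub1 sub0
    (fun t ht => by linarith [(abs_le.1 (hclose t ht)).1])
  linarith

/-- PATH-2: only finitely many times at which two of the linearly moving atoms collide. -/
theorem finite_collisions (p0 p1 : Fin N → E d) (h0 : Function.Injective p0) :
    {t : ℝ | ¬ Function.Injective (fun i => (1 - t) • p0 i + t • p1 i)}.Finite :=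
  Path.finite_collisions p0 p1 h0

/-- PATH. -/
theorem pathBound_of_FBound (hK : Body K x₀ r₀ r) (C : ℝ) (hC : 0 ≤ C) (h : FBound K C) :
    PathBound K C :=
  Path.pathBound_of_FBound hK C hC h

end Crest.Agent.OT
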