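import Crest.Agent.OT.Cells
import Crest.Agent.OT.OptVal

/-! # Row 82, module (4) PATH: auxiliary lemmas (helper9). -/

set_option autoImplicit false
open MeasureTheory
open scoped ENNReal NNReal RealInnerProductSpace
open Crest.AnalysisR.OT

namespace Crest.Agent.OT.Path

/-- one step of the 1-D argument. -/
theorem one_dim_step (F1 F0 p1 p0 : ℝ → ℝ) (L h t t' : ℝ)
    (hlt : t < t') (hh : t' - t ≤ h)
    (a1 : F1 t + p1 t * (t' - t) ≤ F1 t')
    (a0 : F0 t + p0 t * (t' - t) ≤ F0 t')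
    (b0 : F0 t' + p0 t' * (t - t') ≤ F0 t)
    (hL : p0 t - p1 t ≤ L) :
    (F1 t - F0 t) - (F1 t' - F0 t') ≤ L * (t' - t) + h * (p0 t' - p0 t) := by
  have hpos : 0 < t' - t := sub_pos.2 hlt
  have hmono : 0 ≤ p0 t' - p0 t := by
    by_contra hcon
    push Not at hcon
    nlinarith [mul_pos hpos (neg_pos.2 hcon)]
  have e1 : (t' - t) * (p0 t - p1 t) ≤ (t' - t) * L := mul_le_mul_of_nonneg_left hL hpos.le
  have e2 : (t' - t) * (p0 t' - p0 t) ≤ h * (p0 t' - p0 t) := mul_le_mul_of_nonneg_right hh hmono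
  nlinarith

/-- **1-D lemma**: two functions with sub-gradients at all but finitely many points of `[0,1]`;
if the sub-gradients differ by at most `L`, so do the increments. -/
theorem one_dim (F1 F0 p1 p0 : ℝ → ℝ) (G : Set ℝ) (hG : (Set.Icc (0:ℝ) 1 \ G).Finite)
    (h0 : (0:ℝ) ∈ G) (h1 : (1:ℝ) ∈ G) (L : ℝ)
    (hs1 : ∀ t ∈ G ∩ Set.Icc 0 1, ∀ t' ∈ G ∩ Set.Icc 0 1, F1 t + p1 t * (t' - t) ≤ F1 t')
    (hs0 : ∀ t ∈ G ∩ Set.Icc 0 1, ∀ t' ∈ G ∩ Set.Icc 0 1, F0 t + p0 t * (t' - t) ≤ F0 t')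
    (hL : ∀ t ∈ G ∩ Set.Icc 0 1, p0 t - p1 t ≤ L) :
    (F1 0 - F0 0) - (F1 1 - F0 1) ≤ L := by
  have m0 : (0:ℝ) ∈ G ∩ Set.Icc 0 1 := ⟨h0, by simp⟩
  have m1 : (1:ℝ) ∈ G ∩ Set.Icc 0 1 := ⟨h1, by simp⟩
  have key : ∀ h : ℝ, 0 < h → (F1 0 - F0 0) - (F1 1 - F0 1) ≤ L + h * (p0 1 - p0 0) := by
    intro h hh
    have step : ∀ k : ℕ, ∃ t ∈ G ∩ Set.Icc (0:ℝ) 1, (t = 1 ∨ k * (h / 2) ≤ t) ∧
        (F1 0 - F0 0) - (F1 t - F0 t) ≤ L * t + h * (p0 t - p0 0) := by
      intro k
      induction k with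
      | zero => exact ⟨0, m0, Or.inr (by simp), by simp⟩
      | succ k ih =>
        obtain ⟨t, ht, hor, hinv⟩ := ih
        by_cases ht1 : t = 1
        · exact ⟨t, ht, Or.inl ht1, hinv⟩
        have hk : k * (h / 2) ≤ t := hor.resolve_left ht1
        have htlt : t < 1 := lt_of_le_of_ne ht.2.2 ht1
        by_cases hcase : 1 ≤ t + h
        · refine ⟨1, m1, Or.inl rfl, ?_⟩
          have := one_dim_step F1 F0 p1 p0 L h t 1 htlt (by linarith)
            (hs1 t ht 1 m1) (hs0 t ht 1 m1) (hs0 1 m1 t ht) (hL t ht)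
          linarith
        · push Not at hcase
          have hinf : (Set.Icc (t + h / 2) (t + h)).Infinite := Set.Icc_infinite (by linarith)
          obtain ⟨t', ht'I, ht'b⟩ := (hinf.sdiff hG).nonempty
          have ht'01 : t' ∈ Set.Icc (0:ℝ) 1 :=
            ⟨by linarith [ht.2.1, ht'I.1], by linarith [ht'I.2]⟩
          have ht' : t' ∈ G ∩ Set.Icc (0:ℝ) 1 := by
            refine ⟨?_, ht'01⟩
            by_contra hcon
            exact ht'b ⟨ht'01, hcon⟩
          refine ⟨t', ht', Or.inr ?_, ?_⟩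
          · push_cast
            linarith [ht'I.1]
          · have := one_dim_step F1 F0 p1 p0 L h t t' (by linarith [ht'I.1]) (by linarith [ht'I.2])
              (hs1 t ht t' ht') (hs0 t ht t' ht') (hs0 t' ht' t ht) (hL t ht)
            linarith
    obtain ⟨k, hk⟩ := exists_nat_gt (1 / (h / 2))
    obtain ⟨t, ht, hor, hinv⟩ := step k
    have ht1 : t = 1 := by
      rcases hor with h | h'
      · exact h
      · exfalso
        have : 1 < k * (h / 2) := by
          rw [div_lt_iff₀ (by positivity)] at hk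
          exact hk
        linarith [ht.2.2]
    subst ht1
    linarith
  -- let `h → 0`
  have hD : 0 ≤ p0 1 - p0 0 := by
    have a := hs0 0 m0 1 m1
    have b := hs0 1 m1 0 m0
    linarith
  refine le_of_forall_pos_le_add fun ε hε => ?_
  have := key (ε / (p0 1 - p0 0 + 1)) (by positivity)
  have h2 : ε / (p0 1 - p0 0 + 1) * (p0 1 - p0 0) ≤ ε := by
    rw [div_mul_eq_mul_div, div_le_iff₀ (by positivity)]
    nlinarith
  linarith

variable {d : ℕ} {K : Set (E d)} {x₀ : E d} {r₀ r : ℝ} {N : ℕ}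

theorem finite_collisions (p0 p1 : Fin N → E d) (h0 : Function.Injective p0) :
    {t : ℝ | ¬ Function.Injective (fun i => (1 - t) • p0 i + t • p1 i)}.Finite := by
  have hsub : {t : ℝ | ¬ Function.Injective (fun i => (1 - t) • p0 i + t • p1 i)} ⊆
      ⋃ q : {q : Fin N × Fin N // q.1 ≠ q.2},
        {t : ℝ | (1 - t) • p0 q.1.1 + t • p1 q.1.1 = (1 - t) • p0 q.1.2 + t • p1 q.1.2} := by
    intro t ht
    simp only [Function.Injective, Set.mem_ofPred_eq, not_forall] at ht
    obtain ⟨i, j, hij, hne⟩ := ht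
    exact Set.mem_iUnion.2 ⟨⟨(i, j), hne⟩, hij⟩
  refine (Set.finite_iUnion fun q => ?_).subset hsub
  refine Set.Subsingleton.finite ?_
  obtain ⟨⟨i, j⟩, hne⟩ := q
  intro t ht t' ht'
  simp only [Set.mem_ofPred_eq] at ht ht'
  by_contra htt
  apply hne
  apply h0
  -- u + t (v - u) = 0 with u = p0 i - p0 j, v = p1 i - p1 j
  have e1 : (p0 i - p0 j) + t • ((p1 i - p1 j) - (p0 i - p0 j)) = 0 := by
    have : (p0 i - p0 j) + t • ((p1 i - p1 j) - (p0 i - p0 j))
        = ((1 - t) • p0 i + t • p1 i) - ((1 - t) • p0 j + t • p1 j) := by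
      module
    rw [this, ht, sub_self]
  have e2 : (p0 i - p0 j) + t' • ((p1 i - p1 j) - (p0 i - p0 j)) = 0 := by
    have : (p0 i - p0 j) + t' • ((p1 i - p1 j) - (p0 i - p0 j))
        = ((1 - t') • p0 i + t' • p1 i) - ((1 - t') • p0 j + t' • p1 j) := by
      module
    rw [this, ht', sub_self]
  have e3 : (t - t') • ((p1 i - p1 j) - (p0 i - p0 j)) = 0 := by
    have : (t - t') • ((p1 i - p1 j) - (p0 i - p0 j))
        = ((p0 i - p0 j) + t • ((p1 i - p1 j) - (p0 i - p0 j)))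
          - ((p0 i - p0 j) + t' • ((p1 i - p1 j) - (p0 i - p0 j))) := by
      module
    rw [this, e1, e2, sub_self]
  have e4 : (p1 i - p1 j) - (p0 i - p0 j) = 0 :=
    (smul_eq_zero.1 e3).resolve_left (sub_ne_zero.2 htt)
  rw [e4, smul_zero, add_zero] at e1
  exact sub_eq_zero.1 e1

/-- weighted Cauchy–Schwarz. -/
theorem cs_bound (m : Fin N → ℝ) (hm : ∀ i, 0 < m i) (β Δ : Fin N → E d) :
    |∑ i, ⟪β i, Δ i⟫| ≤
      Real.sqrt (∑ i, (m i)⁻¹ * ‖β i‖ ^ 2) * Real.sqrt (∑ i, m i * ‖Δ i‖ ^ 2) := by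
  calc |∑ i, ⟪β i, Δ i⟫| ≤ ∑ i, |⟪β i, Δ i⟫| := Finset.abs_sum_le_sum_abs _ _
    _ ≤ ∑ i, ‖β i‖ * ‖Δ i‖ := Finset.sum_le_sum fun i _ => abs_real_inner_le_norm _ _
    _ = ∑ i, ((Real.sqrt (m i))⁻¹ * ‖β i‖) * (Real.sqrt (m i) * ‖Δ i‖) := by
        refine Finset.sum_congr rfl fun i _ => ?_
        have : Real.sqrt (m i) ≠ 0 := (Real.sqrt_pos.2 (hm i)).ne'
        field_simp
    _ ≤ Real.sqrt (∑ i, ((Real.sqrt (m i))⁻¹ * ‖β i‖) ^ 2)
          * Real.sqrt (∑ i, (Real.sqrt (m i) * ‖Δ i‖) ^ 2) :=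
        Real.sum_mul_le_sqrt_mul_sqrt _ _ _
    _ = _ := by
        congr 2
        · refine Finset.sum_congr rfl fun i _ => ?_
          rw [mul_pow, inv_pow, Real.sq_sqrt (hm i).le]
        · refine Finset.sum_congr rfl fun i _ => ?_
          rw [mul_pow, Real.sq_sqrt (hm i).le]

theorem pathBound_of_FBound (hK : Body K x₀ r₀ r) (C : ℝ) (hC : 0 ≤ C) (h : FBound K C) :
    PathBound K C := by
  intro N m p0 p1 η hm hsum hp0 hp1 hη hηb hη0
  have := hK.isProbabilityMeasure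
  have hN : 0 < N := by
    rcases Nat.eq_zero_or_pos N with h0 | h0
    · subst h0
      simp at hsum
    · exact h0
  set y : ℝ → Fin N → E d := fun t i => (1 - t) • p0 i + t • p1 i with hy
  have hηint : Integrable η (unif K) :=
    hK.integrable_of_bdd η hη.aestronglyMeasurable (1 / 2)
      (Filter.Eventually.of_forall fun x => by simpa using hηb x)
  have hm1 : Measurable (fun x => 1 + η x) := measurable_const.add hη
  have hn1 : ∀ x, 0 ≤ 1 + η x := fun x => by linarith [(abs_le.1 (hηb x)).1]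
  have hb1 : ∀ x, 1 + η x ≤ 2 := fun x => by linarith [(abs_le.1 (hηb x)).2]
  have hw1 : ∀ t, ∃ c, Function.Injective (y t) → IsWeights K m (fun x => 1 + η x) (y t) c := by
    intro t
    by_cases ht : Function.Injective (y t)
    · obtain ⟨c, hc⟩ := exists_weights hK m hm hsum (y t) ht (fun x => 1 + η x) hm1 hn1 hb1
        (by rw [integral_add (integrable_const _) hηint, hη0]; simp)
      exact ⟨c, fun _ => hc⟩
    · exact ⟨0, fun h => absurd h ht⟩
  have hw0 : ∀ t, ∃ c, Function.Injective (y t) → IsWeights K m (fun _ => 1) (y t) c := by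
    intro t
    by_cases ht : Function.Injective (y t)
    · obtain ⟨c, hc⟩ := exists_weights hK m hm hsum (y t) ht (fun _ => 1) measurable_const
        (fun _ => zero_le_one) (fun _ => one_le_two) (by simp)
      exact ⟨c, fun _ => hc⟩
    · exact ⟨0, fun h => absurd h ht⟩
  choose c1 hc1 using hw1
  choose c0 hc0 using hw0
  have hdiff : ∀ t t' : ℝ, ∀ i, y t' i - y t i = (t' - t) • (p1 i - p0 i) := by
    intro t t' i
    simp only [hy]
    module
  have hy0 : y 0 = p0 := by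
    funext i
    simp [hy]
  have hy1 : y 1 = p1 := by
    funext i
    simp [hy]
  have main := one_dim (fun t => optVal K m (fun x => 1 + η x) (y t))
    (fun t => optVal K m (fun _ => 1) (y t))
    (fun t => ∑ i, ⟪∫ x in cell K (y t) (c1 t) i, (1 + η x) • x ∂(unif K), p1 i - p0 i⟫)
    (fun t => ∑ i, ⟪∫ x in cell K (y t) (c0 t) i, (1 : ℝ) • x ∂(unif K), p1 i - p0 i⟫)
    {t | Function.Injective (y t)}
    ((finite_collisions p0 p1 hp0).subset (fun t ht => ht.2))
    (by
      show Function.Injective (y 0)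
      rw [hy0]; exact hp0)
    (by
      show Function.Injective (y 1)
      rw [hy1]; exact hp1)
    (C * Real.sqrt (∫ x, η x ^ 2 ∂(unif K)) * Real.sqrt (∑ i, m i * ‖p1 i - p0 i‖ ^ 2))
    (by
      intro t ht t' _
      have := optVal_subgradient hK hN m (fun x => 1 + η x) hm1 hn1 hb1 (y t) (y t') ht.1 (c1 t)
        (hc1 t ht.1)
      simp only [hdiff, inner_smul_right, ← Finset.mul_sum] at this
      simpa [mul_comm] using this)
    (by
      intro t ht t' _
      have := optVal_subgradient hK hN m (fun _ => 1) measurable_const (fun _ => zero_le_one)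
        (fun _ => one_le_two) (y t) (y t') ht.1 (c0 t) (hc0 t ht.1)
      simp only [hdiff, inner_smul_right, ← Finset.mul_sum] at this
      simpa [mul_comm] using this)
    (by
      intro t ht
      have hF := h N m (y t) η (c0 t) (c1 t) hm ht.1 hη hηb (hc0 t ht.1) (hc1 t ht.1)
      have hcs := cs_bound m hm
        (fun i => (∫ x in cell K (y t) (c1 t) i, (1 + η x) • x ∂(unif K))
          - ∫ x in cell K (y t) (c0 t) i, x ∂(unif K)) (fun i => p1 i - p0 i)
      have hsq : Real.sqrt (∑ i, (m i)⁻¹ * ‖(∫ x in cell K (y t) (c1 t) i, (1 + η x) • x ∂(unif K))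
          - ∫ x in cell K (y t) (c0 t) i, x ∂(unif K)‖ ^ 2)
          ≤ C * Real.sqrt (∫ x, η x ^ 2 ∂(unif K)) := by
        calc _ ≤ Real.sqrt (C ^ 2 * ∫ x, η x ^ 2 ∂(unif K)) := Real.sqrt_le_sqrt hF
          _ = C * Real.sqrt (∫ x, η x ^ 2 ∂(unif K)) := by
            rw [Real.sqrt_mul (sq_nonneg C), Real.sqrt_sq hC]
      have hle := hcs.trans (mul_le_mul_of_nonneg_right hsq (Real.sqrt_nonneg _))
      have hneg := (abs_le.1 hle).1
      simp only [inner_sub_left, Finset.sum_sub_distrib] at hneg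
      simp only [one_smul]
      linarith)
  simp only [hy0, hy1] at main
  linarith

end Crest.Agent.OT.Path
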