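import Mathlib

/-! # Task POT-b: Rockafellar's potential (sup over simple chains). -/

set_option autoImplicit false
open scoped RealInnerProductSpace

namespace Crest.Agent.OT.Pot

variable {E : Type*} [NormedAddCommGroup E] [InnerProductSpace ℝ E]

/-- value of the chain `a → l₁ → … → lₙ → z`. -/
noncomputable def chainVal (T : E → E) : E → List E → E → ℝ
  | a, [], z => ⟪T a, z - a⟫
  | a, b :: l, z => ⟪T a, b - a⟫ + chainVal T b l z

theorem chainVal_append (T : E → E) (a b : E) (l₁ l₂ : List E) (z : E) :
    chainVal T a (l₁ ++ b :: l₂) z = chainVal T a l₁ b + chainVal T b l₂ z := by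
  induction l₁ generalizing a with
  | nil => rfl
  | cons c l ih => simp [chainVal, ih, add_assoc]

theorem chainVal_affine (T : E → E) (a : E) (l : List E) :
    ∃ p ∈ a :: l, ∃ c : ℝ, ∀ z, chainVal T a l z = c + ⟪T p, z⟫ := by
  induction l generalizing a with
  | nil =>
    refine ⟨a, by simp, -⟪T a, a⟫, fun z => ?_⟩
    simp [chainVal, inner_sub_right]; ring
  | cons b l ih =>
    obtain ⟨p, hp, c, hc⟩ := ih b
    refine ⟨p, List.mem_cons_of_mem _ hp, ⟪T a, b - a⟫ + c, fun z => ?_⟩
    simp [chainVal, hc, add_assoc]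

/-- cyclical monotonicity along simple cycles. -/
def IsCM (T : E → E) (G : Set E) : Prop :=
  ∀ (a : E) (l : List E), (a :: l).Nodup → (∀ b ∈ a :: l, b ∈ G) → chainVal T a l a ≤ 0

theorem rockafellar (T : E → E) (G : Set E) (R : ℝ) (hR0 : 0 ≤ R) (hR : ∀ x ∈ G, ‖T x‖ ≤ R)
    (hcm : IsCM T G) :
    ∃ φ : E → ℝ, ConvexOn ℝ Set.univ φ ∧ (∀ x x', |φ x - φ x'| ≤ R * ‖x - x'‖) ∧
      ∀ x ∈ G, ∀ z, φ x + ⟪T x, z - x⟫ ≤ φ z := by
  classical
  rcases G.eq_empty_or_nonempty with hG | ⟨x0, hx0⟩
  · refine ⟨fun _ => 0, convexOn_const _ convex_univ, fun x x' => ?_, fun x hx => ?_⟩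
    · simpa using mul_nonneg hR0 (norm_nonneg _)
    · simp [hG] at hx
  let C := {l : List E // (x0 :: l).Nodup ∧ ∀ b ∈ l, b ∈ G}
  have hmem : ∀ l : C, ∀ b ∈ x0 :: l.1, b ∈ G := by
    intro l b hb
    rcases List.mem_cons.1 hb with rfl | hb
    · exact hx0
    · exact l.2.2 b hb
  have : Nonempty C := ⟨⟨[], by simp, by simp⟩⟩
  -- Lipschitz estimate for each chain
  have hlip : ∀ (l : C) (z z' : E), chainVal T x0 l.1 z ≤ chainVal T x0 l.1 z' + R * ‖z - z'‖ := by
    intro l z z'
    obtain ⟨p, hp, c, hc⟩ := chainVal_affine T x0 l.1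
    rw [hc z, hc z']
    have h1 : ⟪T p, z⟫ - ⟪T p, z'⟫ = ⟪T p, z - z'⟫ := by rw [inner_sub_right]
    have h2 : ⟪T p, z - z'⟫ ≤ ‖T p‖ * ‖z - z'‖ := real_inner_le_norm _ _
    have h3 : ‖T p‖ * ‖z - z'‖ ≤ R * ‖z - z'‖ :=
      mul_le_mul_of_nonneg_right (hR p (hmem l p hp)) (norm_nonneg _)
    linarith
  have hbdd : ∀ z, BddAbove (Set.range fun l : C => chainVal T x0 l.1 z) := by
    intro z
    refine ⟨R * ‖z - x0‖, ?_⟩
    rintro _ ⟨l, rfl⟩
    have h1 := hlip l z x0
    have h2 := hcm x0 l.1 l.2.1 (hmem l)
    simp only at *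
    linarith
  refine ⟨fun z => ⨆ l : C, chainVal T x0 l.1 z, ⟨convex_univ, ?_⟩, ?_, ?_⟩
  · intro x _ y _ a b ha hb hab
    refine ciSup_le fun l => ?_
    obtain ⟨p, hp, c, hc⟩ := chainVal_affine T x0 l.1
    have hx := le_ciSup (hbdd x) l
    have hy := le_ciSup (hbdd y) l
    have : chainVal T x0 l.1 (a • x + b • y)
        = a * chainVal T x0 l.1 x + b * chainVal T x0 l.1 y := by
      rw [hc, hc, hc, inner_add_right, inner_smul_right, inner_smul_right]
      have : c = (a + b) * c := by rw [hab, one_mul]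
      nlinarith
    rw [this]
    simp only [smul_eq_mul]
    exact add_le_add (mul_le_mul_of_nonneg_left hx ha) (mul_le_mul_of_nonneg_left hy hb)
  · have key : ∀ x x', (⨆ l : C, chainVal T x0 l.1 x) ≤ (⨆ l : C, chainVal T x0 l.1 x') + R * ‖x - x'‖ := by
      intro x x'
      refine ciSup_le fun l => ?_
      have := le_ciSup (hbdd x') l
      linarith [hlip l x x']
    intro x x'
    rw [abs_le]
    constructor
    · have := key x' x
      rw [norm_sub_rev] at this
      linarith
    · have := key x x'
      linarith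
  · intro x hx z
    have hgoal : ∀ l : C, chainVal T x0 l.1 x + ⟪T x, z - x⟫ ≤ ⨆ l : C, chainVal T x0 l.1 z := by
      intro l
      by_cases hx0' : x = x0
      · subst hx0'
        have h2 := hcm x l.1 l.2.1 (hmem l)
        have h3 := le_ciSup (hbdd z) ⟨[], by simp, by simp⟩
        simp only [chainVal] at h3
        linarith
      by_cases hxl : x ∈ l.1
      · obtain ⟨l₁, l₂, hl⟩ := List.append_of_mem hxl
        have hnd : (x0 :: (l₁ ++ x :: l₂)).Nodup := hl ▸ l.2.1
        have hnd1 : (x0 :: (l₁ ++ [x])).Nodup := by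
          have : (x0 :: (l₁ ++ [x])).Sublist (x0 :: (l₁ ++ x :: l₂)) := by
            refine List.Sublist.cons_cons _ (List.Sublist.append_left ?_ _)
            exact List.Sublist.cons_cons _ (List.nil_sublist _)
          exact hnd.sublist this
        have hnd2 : (x :: l₂).Nodup := by
          have : (x :: l₂).Sublist (x0 :: (l₁ ++ x :: l₂)) :=
            (List.sublist_append_right _ _).trans (List.sublist_cons_self _ _)
          exact hnd.sublist this
        have hG1 : ∀ b ∈ l₁ ++ [x], b ∈ G := by
          intro b hb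
          apply l.2.2
          rw [hl]
          simp only [List.mem_append, List.mem_cons, List.not_mem_nil, or_false] at hb ⊢
          tauto
        have hG2 : ∀ b ∈ x :: l₂, b ∈ G := by
          intro b hb
          apply l.2.2
          rw [hl]
          simp only [List.mem_append, List.mem_cons] at hb ⊢
          tauto
        have h1 : chainVal T x0 l.1 x = chainVal T x0 l₁ x + chainVal T x l₂ x := by
          rw [hl, chainVal_append]
        have h2 := hcm x l₂ hnd2 hG2
        have h3 := le_ciSup (hbdd z) ⟨l₁ ++ [x], hnd1, hG1⟩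
        simp only [chainVal_append, chainVal] at h3
        linarith
      · have hnd1 : (x0 :: (l.1 ++ [x])).Nodup := by
          have h := l.2.1
          rw [List.nodup_cons] at h ⊢
          refine ⟨?_, ?_⟩
          · simp only [List.mem_append, List.mem_cons, List.not_mem_nil, or_false, not_or]
            exact ⟨h.1, fun h' => hx0' h'.symm⟩
          · rw [List.nodup_append]
            refine ⟨h.2, by simp, ?_⟩
            intro a ha b hb
            simp only [List.mem_cons, List.not_mem_nil, or_false] at hb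
            subst hb
            rintro rfl
            exact hxl ha
        have hG1 : ∀ b ∈ l.1 ++ [x], b ∈ G := by
          intro b hb
          simp only [List.mem_append, List.mem_cons, List.not_mem_nil, or_false] at hb
          rcases hb with hb | rfl
          · exact l.2.2 b hb
          · exact hx
        have h3 := le_ciSup (hbdd z) ⟨l.1 ++ [x], hnd1, hG1⟩
        simp only [chainVal_append, chainVal] at h3
        linarith
    have : (⨆ l : C, chainVal T x0 l.1 x) ≤ (⨆ l : C, chainVal T x0 l.1 z) - ⟪T x, z - x⟫ :=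
      ciSup_le fun l => by linarith [hgoal l]
    simp only
    linarith

end Crest.Agent.OT.Pot
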