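import Crest.Agent.OT.PotentialA
import Crest.Agent.OT.PotentialB

/-! # Task POT-a, part 2: Lebesgue points, cyclical monotonicity, the potential. -/

set_option autoImplicit false
open MeasureTheory Set Filter Topology Metric
open scoped ENNReal NNReal RealInnerProductSpace
open Crest.AnalysisR.OT

namespace Crest.Agent.OT.Pot

set_option linter.unusedSectionVars false

variable {d : ℕ} {ι : Type*} [Fintype ι] [DecidableEq ι]

/-- the function whose Lebesgue points we use. -/
noncomputable def gfun (K : Set (E d)) (T : E d → E d) : E d → E d :=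
  K.indicator fun y => y - T y

theorem locallyIntegrable_gfun (K : Set (E d)) (hKc : IsCompact K) (T : E d → E d)
    (hTm : Measurable T) (R : ℝ) (hTR : ∀ᵐ y ∂(volume.restrict K), ‖T y‖ ≤ R) :
    LocallyIntegrable (gfun K T) volume := by
  obtain ⟨rK, hrK⟩ := hKc.isBounded.exists_norm_le
  refine (locallyIntegrable_const (|rK + R|)).mono
    ((measurable_id.sub hTm).indicator hKc.measurableSet).aestronglyMeasurable ?_
  rw [ae_restrict_iff' hKc.measurableSet] at hTR
  filter_upwards [hTR] with y hy
  unfold gfun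
  by_cases hyK : y ∈ K
  · rw [indicator_of_mem hyK]
    have := (norm_sub_le y (T y)).trans (add_le_add (hrK y hyK) (hy hyK))
    simpa using this.trans (le_abs_self _)
  · rw [indicator_of_notMem hyK]
    simp

/-- the good set. -/
def good (K : Set (E d)) (T : E d → E d) (R : ℝ) : Set (E d) :=
  {x | x ∈ interior K ∧ ‖T x‖ ≤ R ∧
    Tendsto (fun r : ℝ => ⨍ y in closedBall x r, gfun K T y) (𝓝[>] 0) (𝓝 (gfun K T x))}

theorem ae_mem_good (K : Set (E d)) (hKc : IsCompact K) (hKv : Convex ℝ K) (T : E d → E d)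
    (hTm : Measurable T) (R : ℝ) (hTR : ∀ᵐ y ∂(volume.restrict K), ‖T y‖ ≤ R) :
    ∀ᵐ x ∂(volume.restrict K), x ∈ good K T R := by
  have h1 : ∀ᵐ x ∂(volume.restrict K), x ∈ interior K := by
    rw [ae_restrict_iff' hKc.measurableSet]
    have h0 : volume (frontier K) = 0 := hKv.addHaar_frontier volume
    have : ∀ᵐ x ∂(volume : Measure (E d)), x ∉ frontier K := measure_eq_zero_iff_ae_notMem.1 h0
    filter_upwards [this] with x hx hxK
    by_contra hxi
    exact hx ⟨subset_closure hxK, hxi⟩
  have h2 := ae_restrict_of_ae (s := K)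
    (IsUnifLocDoublingMeasure.ae_tendsto_average (μ := (volume : Measure (E d)))
      (locallyIntegrable_gfun K hKc T hTm R hTR) 1)
  filter_upwards [h1, hTR, h2] with x hx1 hx2 hx3
  refine ⟨hx1, hx2, hx3 (fun _ => x) (fun r => r) tendsto_id ?_⟩
  filter_upwards [self_mem_nhdsWithin] with r hr
  have : (0 : ℝ) < r := hr
  simp [this.le]

theorem cyc_fin (K : Set (E d)) (hKc : IsCompact K) (hKpos : volume K ≠ 0)
    (μ : Measure (E d)) (T : E d → E d) (hT : IsOptimalMap (uniformProbOn K) μ T)
    (R : ℝ) (hTR : ∀ᵐ y ∂(volume.restrict K), ‖T y‖ ≤ R)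
    (x : ι → E d) (hinj : Function.Injective x) (hx : ∀ j, x j ∈ good K T R) (τ : Equiv.Perm ι) :
    ∑ j, ⟪T (x j), x (τ j) - x j⟫ ≤ 0 := by
  have hloc := locallyIntegrable_gfun K hKc T hT.1 R hTR
  -- eventually the balls are inside `K`
  have hsub : ∀ᶠ r in 𝓝[>] (0 : ℝ), ∀ j, closedBall (x j) r ⊆ K := by
    rw [eventually_all]
    intro j
    obtain ⟨ε, hε, hball⟩ := Metric.isOpen_iff.1 isOpen_interior (x j) (hx j).1
    have : Iio ε ∈ 𝓝[>] (0 : ℝ) := mem_nhdsWithin_of_mem_nhds (Iio_mem_nhds hε)
    filter_upwards [this] with r hr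
    exact ((closedBall_subset_ball hr).trans hball).trans interior_subset
  -- eventually the balls are disjoint
  have hdisj : ∀ᶠ r in 𝓝[>] (0 : ℝ),
      Pairwise fun i j => Disjoint (closedBall (x i) r) (closedBall (x j) r) := by
    have : ∀ᶠ r in 𝓝[>] (0 : ℝ), ∀ i j, i ≠ j →
        Disjoint (closedBall (x i) r) (closedBall (x j) r) := by
      rw [eventually_all]; intro i
      rw [eventually_all]; intro j
      by_cases hij : i = j
      · exact Eventually.of_forall fun r h => absurd hij h
      have hpos : 0 < dist (x i) (x j) / 2 := by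
        have := dist_pos.2 (hinj.ne hij)
        positivity
      have : Iio (dist (x i) (x j) / 2) ∈ 𝓝[>] (0 : ℝ) :=
        mem_nhdsWithin_of_mem_nhds (Iio_mem_nhds hpos)
      filter_upwards [this] with r hr _
      apply closedBall_disjoint_closedBall
      have : r < dist (x i) (x j) / 2 := hr
      linarith
    filter_upwards [this] with r hr i j hij using hr i j hij
  -- the inequality for small `r`
  have hev : ∀ᶠ r in 𝓝[>] (0 : ℝ), 0 ≤ ∑ j, (‖x (τ j) - x j‖ ^ 2 +
      2 * ⟪x (τ j) - x j, ⨍ y in closedBall (x j) r, gfun K T y⟫) := by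
    filter_upwards [hsub, hdisj, self_mem_nhdsWithin] with r h1 h2 h3
    have hr : (0 : ℝ) < r := h3
    have h := swap_real h2 K hKc hKpos h1 μ T hT R hTR τ
    set b : ℝ := (volume : Measure (E d)).real (closedBall 0 r) with hb
    have hbpos : 0 < b := by
      have h0 : 0 < (volume : Measure (E d)) (closedBall 0 r) := measure_closedBall_pos _ _ hr
      exact ENNReal.toReal_pos h0.ne' measure_closedBall_lt_top.ne
    have hterm : ∀ j, ∫ y in closedBall (x j) r,
        (‖x (τ j) - x j‖ ^ 2 + 2 * ⟪x (τ j) - x j, y - T y⟫) =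
        b * (‖x (τ j) - x j‖ ^ 2 +
          2 * ⟪x (τ j) - x j, ⨍ y in closedBall (x j) r, gfun K T y⟫) := by
      intro j
      have hvol : (volume : Measure (E d)).real (closedBall (x j) r) = b := by
        rw [hb, measureReal_def, measureReal_def, Measure.addHaar_closedBall_center]
      have hgi : IntegrableOn (gfun K T) (closedBall (x j) r) volume :=
        hloc.integrableOn_isCompact (isCompact_closedBall _ _)
      have hcongr : ∫ y in closedBall (x j) r,
          (‖x (τ j) - x j‖ ^ 2 + 2 * ⟪x (τ j) - x j, y - T y⟫) =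
          ∫ y in closedBall (x j) r,
          (‖x (τ j) - x j‖ ^ 2 + 2 * ⟪x (τ j) - x j, gfun K T y⟫) := by
        refine setIntegral_congr_fun measurableSet_closedBall fun y hy => ?_
        simp only [gfun, indicator_of_mem (h1 j hy)]
      have hfm : IsFiniteMeasure ((volume : Measure (E d)).restrict (closedBall (x j) r)) := ⟨by
        rw [Measure.restrict_apply_univ]; exact measure_closedBall_lt_top⟩
      have havg : ∫ y in closedBall (x j) r, gfun K T y =
          b • ⨍ y in closedBall (x j) r, gfun K T y := by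
        rw [← hvol, measure_smul_setAverage _ measure_closedBall_lt_top.ne]
      rw [hcongr, integral_add (integrable_const _) ((hgi.const_inner _).const_mul 2),
        integral_const_mul, integral_inner hgi, havg, inner_smul_right]
      simp only [integral_const, measureReal_restrict_apply_univ, hvol, smul_eq_mul]
      ring
    simp_rw [hterm, ← Finset.mul_sum] at h
    exact nonneg_of_mul_nonneg_right h hbpos
  have hlim : Tendsto (fun r : ℝ => ∑ j, (‖x (τ j) - x j‖ ^ 2 +
      2 * ⟪x (τ j) - x j, ⨍ y in closedBall (x j) r, gfun K T y⟫)) (𝓝[>] 0)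
      (𝓝 (∑ j, (‖x (τ j) - x j‖ ^ 2 + 2 * ⟪x (τ j) - x j, gfun K T (x j)⟫))) := by
    refine tendsto_finsetSum _ fun j _ => ?_
    exact tendsto_const_nhds.add ((tendsto_const_nhds.inner (hx j).2.2).const_mul 2)
  have hfin := ge_of_tendsto hlim hev
  have hg : ∀ j, gfun K T (x j) = x j - T (x j) := fun j => by
    simp only [gfun, indicator_of_mem (interior_subset (hx j).1)]
  have hexp : ∀ j, ‖x (τ j) - x j‖ ^ 2 + 2 * ⟪x (τ j) - x j, gfun K T (x j)⟫ =
      (‖x (τ j)‖ ^ 2 - ‖x j‖ ^ 2) - 2 * ⟪T (x j), x (τ j) - x j⟫ := by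
    intro j
    rw [hg j, norm_sub_sq_real, inner_sub_right, inner_sub_left, inner_sub_left,
      real_inner_self_eq_norm_sq, inner_sub_right, real_inner_comm (x j) (x (τ j)),
      real_inner_comm (T (x j)) (x (τ j)), real_inner_comm (T (x j)) (x j)]
    ring
  simp_rw [hexp] at hfin
  rw [Finset.sum_sub_distrib, Finset.sum_sub_distrib,
    Equiv.sum_comp τ (fun j => ‖x j‖ ^ 2), sub_self, ← Finset.mul_sum] at hfin
  linarith

theorem chainVal_eq_sum (T : E d → E d) (a : E d) (l : List (E d)) (z : E d) :
    chainVal T a l z = ∑ i ∈ Finset.range (l.length + 1),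
      ⟪T ((a :: l ++ [z]).getD i 0), (a :: l ++ [z]).getD (i + 1) 0 - (a :: l ++ [z]).getD i 0⟫ := by
  induction l generalizing a with
  | nil => simp [chainVal]
  | cons b l ih =>
    rw [chainVal, ih b, List.length_cons, Finset.sum_range_succ' _ (l.length + 1), add_comm]
    congr 1

theorem isCM_good (K : Set (E d)) (hKc : IsCompact K) (hKpos : volume K ≠ 0)
    (μ : Measure (E d)) (T : E d → E d) (hT : IsOptimalMap (uniformProbOn K) μ T)
    (R : ℝ) (hTR : ∀ᵐ y ∂(volume.restrict K), ‖T y‖ ≤ R) : IsCM T (good K T R) := by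
  intro a l hnd hmem
  have hlen : (a :: l).length = l.length + 1 := by simp
  let x : Fin (l.length + 1) → E d := fun i => (a :: l).get (Fin.cast hlen.symm i)
  have hinj : Function.Injective x :=
    (List.nodup_iff_injective_get.1 hnd).comp (Fin.cast_injective _)
  have hx : ∀ j, x j ∈ good K T R := fun j => hmem _ (List.get_mem _ _)
  have key := cyc_fin K hKc hKpos μ T hT R hTR x hinj hx (finRotate (l.length + 1))
  have h1 : ∀ i : Fin (l.length + 1), (a :: l ++ [a]).getD i 0 = x i := by
    intro i
    have hi : (i : ℕ) < (a :: l ++ [a]).length := by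
      simp only [List.length_append, List.length_cons, List.length_nil]; omega
    rw [List.getD_eq_getElem _ _ hi, List.getElem_append_left (by simp only [hlen]; exact i.2)]
    rfl
  have h2 : ∀ i : Fin (l.length + 1), (a :: l ++ [a]).getD (i + 1) 0 = x (finRotate _ i) := by
    intro i
    by_cases hi : (i : ℕ) < l.length
    · have : finRotate (l.length + 1) i = ⟨i + 1, by omega⟩ := finRotate_of_lt hi
      rw [this]
      exact h1 ⟨i + 1, by omega⟩
    · have hi' : i = Fin.last l.length := by
        apply Fin.ext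
        have := i.2
        simp only [Fin.val_last]; omega
      rw [hi', finRotate_last]
      have hlt : (Fin.last l.length : ℕ) + 1 < (a :: l ++ [a]).length := by
        simp
      rw [List.getD_eq_getElem _ _ hlt, List.getElem_append_right (by simp)]
      simp [x]
  rw [chainVal_eq_sum, Finset.sum_range]
  simp_rw [h1, h2]
  exact key

/-- Monge-optimal maps have a convex Lipschitz potential. -/
theorem exists_potential_aux (K : Set (E d)) (hKc : IsCompact K) (hKv : Convex ℝ K)
    (hKpos : volume K ≠ 0)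
    (μ : Measure (E d)) (T : E d → E d) (hT : IsOptimalMap (uniformProbOn K) μ T)
    (R : ℝ) (hR : 0 ≤ R) (hTR : ∀ᵐ y ∂(volume.restrict K), ‖T y‖ ≤ R) :
    ∃ φ : E d → ℝ, ConvexOn ℝ Set.univ φ ∧ (∀ x x', |φ x - φ x'| ≤ R * ‖x - x'‖) ∧
      ∀ᵐ x ∂(volume.restrict K), ∀ z, φ x + ⟪T x, z - x⟫ ≤ φ z := by
  obtain ⟨φ, h1, h2, h3⟩ := rockafellar T (good K T R) R hR (fun x hx => hx.2.1)
    (isCM_good K hKc hKpos μ T hT R hTR)
  refine ⟨φ, h1, h2, ?_⟩
  filter_upwards [ae_mem_good K hKc hKv T hT.1 R hTR] with x hx using h3 x hx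

end Crest.Agent.OT.Pot
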