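import Crest.Agent.OT.Basic
import Crest.Agent.OT.PotentialC

/-! # Task POT: a Monge-optimal map has a Rockafellar potential. -/

set_option autoImplicit false
open MeasureTheory
open scoped ENNReal NNReal RealInnerProductSpace
open Crest.AnalysisR.OT

namespace Crest.Agent.OT
variable {d : ℕ} {K : Set (E d)} {x₀ : E d} {r₀ r : ℝ}

/-- POT-0: an optimal map takes values in `Y` a.e. -/
theorem ae_norm_le_of_map (_hK : Body K x₀ r₀ r) (Y : Set (E d)) (R : ℝ) (hY : ∀ y ∈ Y, ‖y‖ ≤ R)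
    (hYm : MeasurableSet Y)
    (μ : Measure (E d)) (hμ : IsProbabilityOn Y μ) (T : E d → E d) (hT : Measurable T)
    (hmap : (unif K).map T = μ) : ∀ᵐ x ∂(unif K), ‖T x‖ ≤ R := by
  have h0 : (unif K) (T ⁻¹' Yᶜ) = 0 := by
    rw [← Measure.map_apply hT hYm.compl, hmap]
    exact hμ.2
  have h1 : ∀ᵐ x ∂(unif K), x ∉ T ⁻¹' Yᶜ := measure_eq_zero_iff_ae_notMem.1 h0
  filter_upwards [h1] with x hx
  apply hY
  by_contra h
  exact hx h

theorem Pot.volume_ne_zero (hK : Body K x₀ r₀ r) : volume K ≠ 0 := by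
  have h0 : 0 < (volume : Measure (E d)) (Metric.closedBall x₀ r₀) :=
    Metric.measure_closedBall_pos _ _ hK.r₀_pos
  exact (h0.trans_le (measure_mono hK.ball_sub)).ne'

theorem Pot.ae_unif_iff (hK : Body K x₀ r₀ r) (P : E d → Prop) :
    (∀ᵐ x ∂(unif K), P x) ↔ ∀ᵐ x ∂(volume.restrict K), P x := by
  have hc0 : (volume K)⁻¹ ≠ 0 := ENNReal.inv_ne_zero.2 hK.compact.measure_lt_top.ne
  unfold unif uniformProbOn
  rw [Measure.ae_ennreal_smul_measure_iff hc0]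

/-- POT, with convexity and the subgradient inequality on the whole space. -/
theorem exists_convex_potential (hK : Body K x₀ r₀ r) (R : ℝ) (hR : 0 ≤ R)
    (μ : Measure (E d)) (T : E d → E d) (hT : IsOptimalMap (unif K) μ T)
    (hTR : ∀ᵐ x ∂(unif K), ‖T x‖ ≤ R) :
    ∃ φ : E d → ℝ, ConvexOn ℝ Set.univ φ ∧ (∀ x x', |φ x - φ x'| ≤ R * ‖x - x'‖) ∧
      ∀ᵐ x ∂(unif K), ∀ z, φ x + ⟪T x, z - x⟫ ≤ φ z := by
  obtain ⟨φ, h1, h2, h3⟩ := Pot.exists_potential_aux K hK.compact hK.convex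
    (Pot.volume_ne_zero hK) μ T hT R hR ((Pot.ae_unif_iff hK _).1 hTR)
  exact ⟨φ, h1, h2, (Pot.ae_unif_iff hK _).2 h3⟩

/-- POT: the potential of an optimal map. -/
theorem exists_potential (hK : Body K x₀ r₀ r) (R : ℝ) (hR : 0 ≤ R)
    (μ : Measure (E d)) (T : E d → E d) (hT : IsOptimalMap (unif K) μ T)
    (hTR : ∀ᵐ x ∂(unif K), ‖T x‖ ≤ R) : ∃ φ, IsPotential K R T φ := by
  obtain ⟨φ, _, h2, h3⟩ := exists_convex_potential hK R hR μ T hT hTR
  refine ⟨φ, h2, ?_⟩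
  filter_upwards [h3] with x hx x' _ using hx x'

end Crest.Agent.OT
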