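import Crest.Agent.OT.Defs

/-! # Task POT-a, part 1: piecewise translations of disjoint balls preserve `volume.restrict K`. -/

set_option autoImplicit false
open MeasureTheory Set Filter Topology Metric
open scoped ENNReal NNReal RealInnerProductSpace
open Crest.AnalysisR.OT

namespace Crest.Agent.OT.Pot

set_option linter.unusedSectionVars false

variable {d : ℕ} {ι : Type*} [Fintype ι] [DecidableEq ι]

/-- the displacement of the piecewise translation. -/
noncomputable def shiftVec (x : ι → E d) (r : ℝ) (τ : Equiv.Perm ι) (y : E d) : E d :=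
  ∑ j, (closedBall (x j) r).indicator (fun _ => x (τ j) - x j) y

/-- the piecewise translation moving the ball around `x j` onto the ball around `x (τ j)`. -/
noncomputable def pt (x : ι → E d) (r : ℝ) (τ : Equiv.Perm ι) (y : E d) : E d := y + shiftVec x r τ y

variable {x : ι → E d} {r : ℝ}

theorem shiftVec_of_mem (hdisj : Pairwise fun i j => Disjoint (closedBall (x i) r) (closedBall (x j) r))
    (τ : Equiv.Perm ι) {y : E d} {j : ι} (hy : y ∈ closedBall (x j) r) :
    shiftVec x r τ y = x (τ j) - x j := by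
  unfold shiftVec
  rw [Finset.sum_eq_single j]
  · rw [indicator_of_mem hy]
  · intro i _ hij
    rw [indicator_of_notMem]
    intro hi
    exact (Set.disjoint_left.1 (hdisj hij) hi) hy
  · intro h; exact absurd (Finset.mem_univ j) h

theorem shiftVec_of_notMem (τ : Equiv.Perm ι) {y : E d} (hy : ∀ j, y ∉ closedBall (x j) r) :
    shiftVec x r τ y = 0 := by
  unfold shiftVec
  exact Finset.sum_eq_zero fun j _ => indicator_of_notMem (hy j) _

theorem measurable_shiftVec (τ : Equiv.Perm ι) : Measurable (shiftVec x r τ) := by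
  unfold shiftVec
  exact Finset.measurable_sum _ fun j _ => measurable_const.indicator measurableSet_closedBall

theorem measurable_pt (τ : Equiv.Perm ι) : Measurable (pt x r τ) :=
  measurable_id.add (measurable_shiftVec τ)

theorem pt_of_mem (hdisj : Pairwise fun i j => Disjoint (closedBall (x i) r) (closedBall (x j) r))
    (τ : Equiv.Perm ι) {y : E d} {j : ι} (hy : y ∈ closedBall (x j) r) :
    pt x r τ y = y + (x (τ j) - x j) := by
  unfold pt; rw [shiftVec_of_mem hdisj τ hy]

theorem pt_of_notMem (τ : Equiv.Perm ι) {y : E d} (hy : ∀ j, y ∉ closedBall (x j) r) :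
    pt x r τ y = y := by
  unfold pt; rw [shiftVec_of_notMem τ hy, add_zero]

theorem add_mem_closedBall_iff (τ : Equiv.Perm ι) (y : E d) (j : ι) :
    y + (x (τ j) - x j) ∈ closedBall (x (τ j)) r ↔ y ∈ closedBall (x j) r := by
  simp only [mem_closedBall, dist_eq_norm]
  have : y + (x (τ j) - x j) - x (τ j) = y - x j := by abel
  rw [this]

theorem pt_inv_pt (hdisj : Pairwise fun i j => Disjoint (closedBall (x i) r) (closedBall (x j) r))
    (τ : Equiv.Perm ι) (y : E d) : pt x r τ⁻¹ (pt x r τ y) = y := by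
  by_cases h : ∃ j, y ∈ closedBall (x j) r
  · obtain ⟨j, hj⟩ := h
    rw [pt_of_mem hdisj τ hj, pt_of_mem hdisj τ⁻¹ ((add_mem_closedBall_iff τ y j).2 hj)]
    have : τ⁻¹ (τ j) = j := by simp
    rw [this]
    abel
  · push Not at h
    rw [pt_of_notMem τ h, pt_of_notMem τ⁻¹ h]

theorem volume_decomp (hdisj : Pairwise fun i j => Disjoint (closedBall (x i) r) (closedBall (x j) r))
    (S : Set (E d)) (hS : MeasurableSet S) :
    volume S = volume (S \ ⋃ j, closedBall (x j) r) + ∑ j, volume (S ∩ closedBall (x j) r) := by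
  have hU : MeasurableSet (⋃ j, closedBall (x j) r) :=
    MeasurableSet.iUnion fun j => measurableSet_closedBall
  rw [← measure_sdiff_add_inter S hU, inter_iUnion, measure_iUnion, tsum_fintype]
  · intro i j hij
    exact (hdisj hij).mono inter_subset_right inter_subset_right
  · intro j
    exact hS.inter measurableSet_closedBall

theorem map_pt (hdisj : Pairwise fun i j => Disjoint (closedBall (x i) r) (closedBall (x j) r))
    (K : Set (E d)) (hK : MeasurableSet K) (hsub : ∀ j, closedBall (x j) r ⊆ K) (τ : Equiv.Perm ι) :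
    (volume.restrict K).map (pt x r τ) = volume.restrict K := by
  ext A hA
  rw [Measure.map_apply (measurable_pt τ) hA, Measure.restrict_apply (measurable_pt τ hA),
    Measure.restrict_apply hA,
    volume_decomp hdisj _ ((measurable_pt τ hA).inter hK), volume_decomp hdisj _ (hA.inter hK)]
  congr 1
  · congr 1
    ext y
    simp only [Set.mem_sdiff, mem_inter_iff, mem_preimage, mem_iUnion, not_exists]
    constructor
    · rintro ⟨⟨h1, h2⟩, h3⟩
      rw [pt_of_notMem τ h3] at h1
      exact ⟨⟨h1, h2⟩, h3⟩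
    · rintro ⟨⟨h1, h2⟩, h3⟩
      rw [← pt_of_notMem τ h3] at h1
      exact ⟨⟨h1, h2⟩, h3⟩
  · rw [← Equiv.sum_comp τ (fun j => volume (A ∩ K ∩ closedBall (x j) r))]
    refine Finset.sum_congr rfl fun j _ => ?_
    rw [← measure_preimage_add_right volume (x (τ j) - x j) (A ∩ K ∩ closedBall (x (τ j)) r)]
    congr 1
    ext y
    simp only [mem_inter_iff, mem_preimage]
    constructor
    · rintro ⟨⟨h1, _⟩, h3⟩
      rw [pt_of_mem hdisj τ h3] at h1
      have h4 := (add_mem_closedBall_iff τ y j).2 h3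
      exact ⟨⟨h1, hsub _ h4⟩, h4⟩
    · rintro ⟨⟨h1, _⟩, h3⟩
      have h4 := (add_mem_closedBall_iff τ y j).1 h3
      rw [← pt_of_mem hdisj τ h4] at h1
      exact ⟨⟨h1, hsub _ h4⟩, h4⟩

/-- optimality tested against `T ∘ (piecewise translation)`. -/
theorem swap_lintegral (hdisj : Pairwise fun i j => Disjoint (closedBall (x i) r) (closedBall (x j) r))
    (K : Set (E d)) (hKc : IsCompact K) (hKpos : volume K ≠ 0) (hsub : ∀ j, closedBall (x j) r ⊆ K)
    (μ : Measure (E d)) (T : E d → E d) (hT : IsOptimalMap (uniformProbOn K) μ T)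
    (τ : Equiv.Perm ι) :
    ∫⁻ y in K, ‖y - T y‖ₑ ^ 2 ≤ ∫⁻ y in K, ‖pt x r τ y - T y‖ₑ ^ 2 := by
  obtain ⟨hTm, hmap, hopt⟩ := hT
  have hΦ : (volume.restrict K).map (pt x r τ⁻¹) = volume.restrict K :=
    map_pt hdisj K hKc.measurableSet hsub τ⁻¹
  have hS : Measurable (T ∘ pt x r τ⁻¹) := hTm.comp (measurable_pt _)
  have hmapS : (uniformProbOn K).map (T ∘ pt x r τ⁻¹) = μ := by
    rw [← hmap]
    unfold uniformProbOn
    rw [Measure.map_smul, Measure.map_smul, ← Measure.map_map hTm (measurable_pt _), hΦ]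
  have h := hopt _ hS hmapS
  unfold uniformProbOn at h
  rw [lintegral_smul_measure, lintegral_smul_measure] at h
  have h' : ∫⁻ y in K, ‖y - T y‖ₑ ^ 2 ≤ ∫⁻ y in K, ‖y - (T ∘ pt x r τ⁻¹) y‖ₑ ^ 2 := by
    have hc0 : (volume K)⁻¹ ≠ 0 := ENNReal.inv_ne_zero.2 hKc.measure_lt_top.ne
    have hc1 : (volume K)⁻¹ ≠ ∞ := ENNReal.inv_ne_top.2 hKpos
    simpa only [smul_eq_mul, ENNReal.mul_le_mul_iff_right hc0 hc1] using h
  refine h'.trans (le_of_eq ?_)
  conv_rhs => rw [← hΦ]
  rw [lintegral_map _ (measurable_pt _)]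
  · refine lintegral_congr fun y => ?_
    have := pt_inv_pt hdisj τ⁻¹ y
    rw [inv_inv] at this
    rw [this]
    rfl
  · exact (((measurable_pt τ).sub hTm).enorm).pow_const 2

theorem lintegral_enorm_sq_eq (ν : Measure (E d)) [IsFiniteMeasure ν] (F : E d → E d)
    (hF : Measurable F) (M : ℝ) (hM : ∀ᵐ y ∂ν, ‖F y‖ ≤ M) :
    Integrable (fun y => ‖F y‖ ^ 2) ν ∧
      ∫⁻ y, ‖F y‖ₑ ^ 2 ∂ν = ENNReal.ofReal (∫ y, ‖F y‖ ^ 2 ∂ν) := by
  have hint : Integrable (fun y => ‖F y‖ ^ 2) ν := by
    refine Integrable.of_bound (hF.norm.pow_const 2).aestronglyMeasurable (M ^ 2) ?_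
    filter_upwards [hM] with y hy
    rw [Real.norm_eq_abs, abs_of_nonneg (by positivity)]
    exact pow_le_pow_left₀ (norm_nonneg _) hy 2
  refine ⟨hint, ?_⟩
  rw [ofReal_integral_eq_lintegral_ofReal hint (ae_of_all _ fun y => by positivity)]
  refine lintegral_congr fun y => ?_
  rw [ENNReal.ofReal_pow (norm_nonneg _), ofReal_norm]

/-- the swap inequality in real form. -/
theorem swap_real (hdisj : Pairwise fun i j => Disjoint (closedBall (x i) r) (closedBall (x j) r))
    (K : Set (E d)) (hKc : IsCompact K) (hKpos : volume K ≠ 0) (hsub : ∀ j, closedBall (x j) r ⊆ K)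
    (μ : Measure (E d)) (T : E d → E d) (hT : IsOptimalMap (uniformProbOn K) μ T)
    (R : ℝ) (hTR : ∀ᵐ y ∂(volume.restrict K), ‖T y‖ ≤ R) (τ : Equiv.Perm ι) :
    0 ≤ ∑ j, ∫ y in closedBall (x j) r,
      (‖x (τ j) - x j‖ ^ 2 + 2 * ⟪x (τ j) - x j, y - T y⟫) := by
  have hTm : Measurable T := hT.1
  obtain ⟨rK, hrK⟩ := hKc.isBounded.exists_norm_le
  have : IsFiniteMeasure (volume.restrict K) := ⟨by
    rw [Measure.restrict_apply_univ]; exact hKc.measure_lt_top⟩
  have hmemK : ∀ᵐ y ∂(volume.restrict K), y ∈ K := ae_restrict_mem hKc.measurableSet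
  have hptK : ∀ y ∈ K, pt x r τ y ∈ K := by
    intro y hy
    by_cases h : ∃ j, y ∈ closedBall (x j) r
    · obtain ⟨j, hj⟩ := h
      rw [pt_of_mem hdisj τ hj]
      exact hsub _ ((add_mem_closedBall_iff τ y j).2 hj)
    · push Not at h
      rwa [pt_of_notMem τ h]
  have hb1 : ∀ᵐ y ∂(volume.restrict K), ‖y - T y‖ ≤ rK + R := by
    filter_upwards [hmemK, hTR] with y hy hy'
    exact (norm_sub_le _ _).trans (add_le_add (hrK y hy) hy')
  have hb2 : ∀ᵐ y ∂(volume.restrict K), ‖pt x r τ y - T y‖ ≤ rK + R := by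
    filter_upwards [hmemK, hTR] with y hy hy'
    exact (norm_sub_le _ _).trans (add_le_add (hrK _ (hptK y hy)) hy')
  obtain ⟨hi1, he1⟩ := lintegral_enorm_sq_eq (volume.restrict K) (fun y => y - T y)
    (measurable_id.sub hTm) _ hb1
  obtain ⟨hi2, he2⟩ := lintegral_enorm_sq_eq (volume.restrict K) (fun y => pt x r τ y - T y)
    ((measurable_pt τ).sub hTm) _ hb2
  have h := swap_lintegral hdisj K hKc hKpos hsub μ T hT τ
  rw [he1, he2, ENNReal.ofReal_le_ofReal_iff (integral_nonneg fun y => by positivity)] at h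
  have hint : ∀ j, Integrable ((closedBall (x j) r).indicator fun y =>
      (‖x (τ j) - x j‖ ^ 2 + 2 * ⟪x (τ j) - x j, y - T y⟫)) (volume.restrict K) := by
    intro j
    refine Integrable.indicator ?_ measurableSet_closedBall
    refine Integrable.of_bound ?_ (‖x (τ j) - x j‖ ^ 2 + 2 * (‖x (τ j) - x j‖ * (rK + R))) ?_
    · exact (measurable_const.add (measurable_const.mul
        (measurable_const.inner (measurable_id.sub hTm)))).aestronglyMeasurable
    · filter_upwards [hb1] with y hy
      rw [Real.norm_eq_abs]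
      have h1 : |⟪x (τ j) - x j, y - T y⟫| ≤ ‖x (τ j) - x j‖ * (rK + R) :=
        (abs_real_inner_le_norm _ _).trans (mul_le_mul_of_nonneg_left hy (norm_nonneg _))
      have h2 := abs_le.1 h1
      rw [abs_le]
      constructor
      · nlinarith [sq_nonneg ‖x (τ j) - x j‖]
      · linarith
  have hpt : ∀ y, ‖pt x r τ y - T y‖ ^ 2 - ‖y - T y‖ ^ 2 =
      ∑ j, (closedBall (x j) r).indicator (fun y =>
        (‖x (τ j) - x j‖ ^ 2 + 2 * ⟪x (τ j) - x j, y - T y⟫)) y := by
    intro y
    by_cases h : ∃ j, y ∈ closedBall (x j) r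
    · obtain ⟨j, hj⟩ := h
      rw [Finset.sum_eq_single j]
      · rw [indicator_of_mem hj, pt_of_mem hdisj τ hj]
        have : y + (x (τ j) - x j) - T y = (x (τ j) - x j) + (y - T y) := by abel
        rw [this, norm_add_sq_real]
        ring
      · intro i _ hij
        rw [indicator_of_notMem]
        intro hi
        exact (Set.disjoint_left.1 (hdisj hij) hi) hj
      · intro h; exact absurd (Finset.mem_univ j) h
    · push Not at h
      rw [pt_of_notMem τ h, sub_self]
      exact (Finset.sum_eq_zero fun j _ => indicator_of_notMem (h j) _).symm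
  have hsum : ∫ y in K, (‖pt x r τ y - T y‖ ^ 2 - ‖y - T y‖ ^ 2) =
      ∑ j, ∫ y in closedBall (x j) r,
      (‖x (τ j) - x j‖ ^ 2 + 2 * ⟪x (τ j) - x j, y - T y⟫) := by
    simp_rw [hpt]
    rw [integral_finsetSum _ fun j _ => hint j]
    refine Finset.sum_congr rfl fun j _ => ?_
    rw [integral_indicator measurableSet_closedBall, Measure.restrict_restrict
      measurableSet_closedBall, inter_eq_left.2 (hsub j)]
  rw [← hsum, integral_sub hi2 hi1]
  linarith

end Crest.Agent.OT.Pot
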